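import Vale.Agent.P242R.CdA

/-! P242R CdC (TASK, owner helper5; helper names start with cdc_). Crossing a sphere. Take a curve of length `< ofReal (dd x y + ε)` (`iInf_lt_iff`, `cd_fin`), `T ∈ Icc 0 1` with `‖γ T‖ = ϱ` (`intermediate_value_Icc`), `cd_sub` on `Icc 0 T` and `Icc T 1`, and the two integrals add up to the length (`Icc_union_Icc_eq_Icc`, `lintegral_union_ae` or replace `Icc T 1` by `Ioc T 1`). -/

namespace Vale.Agent.P242

open MeasureTheory Set Metric Filter Topology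
open scoped ENNReal ContDiff RealInnerProductSpace

variable {n : ℕ}

theorem dd_cross {w : E n → ℝ} (hw : Continuous w) {x y : E n} (hy : y ∈ ball (0 : E n) 4)
    {ϱ ε : ℝ} (h1 : ‖x‖ ≤ ϱ) (h2 : ϱ ≤ ‖y‖) (hε : 0 < ε) :
    ∃ z : E n, ‖z‖ = ϱ ∧ dd w x z + dd w z y ≤ dd w x y + ε := by
  have hx : x ∈ ball (0 : E n) 4 :=
    mem_ball_zero_iff.2 ((h1.trans h2).trans_lt (mem_ball_zero_iff.1 hy))
  obtain ⟨γ, h⟩ := iInf_lt_iff.1 ((cd_lt_iff hw hx hy (dd w x y + ε)).2 (by linarith))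
  obtain ⟨⟨⟨K, hK⟩, hm, rfl, rfl⟩, hl⟩ := iInf_lt_iff.1 h
  obtain ⟨T, hT, e⟩ := intermediate_value_Icc zero_le_one hK.continuousOn.norm ⟨h1, h2⟩
  have s1 : Icc 0 T ⊆ Icc 0 1 := Icc_subset_Icc le_rfl hT.2
  have s2 : Icc T 1 ⊆ Icc 0 1 := Icc_subset_Icc hT.1 le_rfl
  have k := add_le_add (cd_sub (w := w) hT.1 (hK.mono s1) (hm.mono_left s1))
    (cd_sub (w := w) hT.2 (hK.mono s2) (hm.mono_left s2))
  rw [← setLIntegral_congr (Ioc_ae_eq_Icc (a := T) (b := 1)), ← lintegral_union measurableSet_Ioc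
    (disjoint_left.2 fun t a b => (a.2.trans_lt b.1).false), Icc_union_Ioc_eq_Icc hT.1 hT.2] at k
  refine ⟨γ T, e, ?_⟩
  rw [dd, dd, ← ENNReal.toReal_add (cd_fin hw hx (hm hT)) (cd_fin hw (hm hT) hy)]
  exact ENNReal.toReal_le_of_le_ofReal (add_nonneg (dd_nonneg _ _ _) hε.le) (k.trans hl.le)

end Vale.Agent.P242
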