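import Vale.Agent.P242R.Exp3
import Vale.Agent.P242R.CdC

/-! P242R Ray (TASK, owner helper5; helper names start with ray_). A short ray. `exp_int`: for `n = 3` (`subst`) use `exp3` and `exp1` with `β = 1/3`; for `n ≥ 4` use `exp1` with `β = 1` and `setIntegral_mono_set`.
`ray`: `ℓ p = r * ∫ t in 0..1, exp (w (t • r • p))` is continuous in `p` and `dd w 0 (r • p) ≤ ℓ p` for `‖p‖ ≤ 1` (`dd_seg`). Let `p₀` minimise `ℓ` on the compact set `A = closedBall 0 1 \ ball 0 (1/2)` (positive finite volume); `vol A * ℓ p₀ ≤ ∫ p in ball 0 1, ℓ p = r ∫ t in 0..1, ∫ p in ball 0 1, exp (sc w 0 (t r) p) ≤ r ∫ t in 0..1, C exp (aa K w 0 (t r)) = C * TT K w r` (Fubini `integral_integral_swap` for a continuous function on a bounded product set, or `lintegral_lintegral_swap`; `av_sc`, `intervalIntegral.integral_comp_mul_right`; to avoid the sphere use `A' = closedBall 0 (3/4) \ ball 0 (1/2)`). Then `dd_cross` with `ε = TT K w r > 0` gives `z` on the sphere of radius `r/2`. -/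

namespace Vale.Agent.P242

open MeasureTheory Set Metric Filter Topology
open scoped ENNReal ContDiff RealInnerProductSpace

variable {n : ℕ}

theorem exp_int (hn : 3 ≤ n) (K : Kit2 n) : ∃ C : ℝ, 1 ≤ C ∧ ∀ V : E n → ℝ, NL V →
    ∫ p in ball (0 : E n) 1, Real.exp (V p) ≤ C * Real.exp (aa K V 0 1) := by
  obtain ⟨C, hC, h⟩ := exp1 hn K
  rcases hn.eq_or_lt with rfl | h4
  · obtain ⟨C', hC', h'⟩ := exp3
    refine ⟨C' * C ^ 3, one_le_mul_of_one_le_of_one_le hC' (one_le_pow₀ hC), fun V hV => ?_⟩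
    have h1 := h V (1 / 3) hV (by norm_num) (by norm_num)
    have h2 := pow_le_pow_left₀ (integral_nonneg fun p => (Real.exp_pos _).le) h1 3
    rw [mul_pow, ← Real.exp_nat_mul, ← mul_assoc] at h2
    norm_num only [Nat.cast_ofNat, one_mul] at h2
    refine (h' V hV).trans ?_
    rw [mul_assoc]
    exact mul_le_mul_of_nonneg_left h2 (by linarith)
  · refine ⟨C, hC, fun V hV => ?_⟩
    have h5 : (4 : ℝ) ≤ n := by exact_mod_cast h4
    have h1 := h V 1 hV one_pos (by linarith)
    simp only [one_mul] at h1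
    refine le_trans (setIntegral_mono_set ?_ (.of_forall fun p => (Real.exp_pos _).le)
      (ball_subset_ball (by norm_num)).eventuallyLE) h1
    exact ((Real.continuous_exp.comp hV.1.continuous).continuousOn.integrableOn_compact
      (isCompact_closedBall 0 (11 / 10))).mono_set ball_subset_closedBall

theorem ray (hn : 3 ≤ n) (K : Kit2 n) : ∃ C : ℝ, 1 ≤ C ∧ ∀ w : E n → ℝ, NL w →
    ∀ r ∈ Ioc (0 : ℝ) 1, ∃ z : E n, ‖z‖ = r / 2 ∧ dd w 0 z ≤ C * TT K w r := by
  obtain ⟨C, hC, h⟩ := exp_int hn K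
  set A : Set (E n) := ball 0 1 \ closedBall 0 (1 / 2) with hA
  have hAo : IsOpen A := isOpen_ball.sdiff isClosed_closedBall
  have hAn : A.Nonempty := ⟨EuclideanSpace.single ⟨0, by omega⟩ (3 / 4), by
    simp only [hA, Set.mem_sdiff, mem_ball_zero_iff, mem_closedBall_zero_iff, PiLp.norm_single]
    norm_num⟩
  have hA0 : volume A ≠ 0 := hAo.measure_ne_zero _ hAn
  have hA1 : volume A ≠ ⊤ := ne_top_of_le_ne_top measure_ball_lt_top.ne (measure_mono sdiff_subset)
  have hv : 0 ≤ (volume.real A)⁻¹ := inv_nonneg.2 measureReal_nonneg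
  refine ⟨(volume.real A)⁻¹ * C + 1, by nlinarith, fun w hw r hr => ?_⟩
  have hc := hw.1.continuous
  have ha : Continuous fun t => Real.exp (aa K w 0 t) :=
    Real.continuous_exp.comp ((av_smooth K.hψ.eta hw.1).continuous.comp (by fun_prop))
  have hT : 0 < TT K w r := intervalIntegral.intervalIntegral_pos_of_pos
    (ha.intervalIntegrable _ _) (fun t => Real.exp_pos _) hr.1
  have hI : Integrable (Function.uncurry fun (t : ℝ) (p : E n) => Real.exp (sc w 0 (r * t) p))
      ((volume.restrict (uIoc (0 : ℝ) 1)).prod (volume.restrict (ball (0 : E n) 1))) := by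
    rw [Measure.prod_restrict]
    have h1 : Continuous (Function.uncurry fun (t : ℝ) (p : E n) =>
        Real.exp (sc w 0 (r * t) p)) := by
      unfold sc Function.uncurry
      fun_prop
    exact (h1.continuousOn.integrableOn_compact (isCompact_uIcc.prod
      (isCompact_closedBall 0 1))).mono_set (prod_mono uIoc_subset_uIcc ball_subset_closedBall)
  have hI2 : IntegrableOn (fun p : E n => ∫ t in (0 : ℝ)..1, Real.exp (sc w 0 (r * t) p))
      (ball 0 1) := by
    have := hI.integral_prod_right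
    simp only [uIoc_of_le zero_le_one, Function.uncurry_apply_pair] at this
    simpa only [intervalIntegral.integral_of_le zero_le_one, IntegrableOn] using this
  have hI1 : IntervalIntegrable (fun t : ℝ => ∫ p in ball (0 : E n) 1,
      Real.exp (sc w 0 (r * t) p)) volume 0 1 :=
    intervalIntegrable_iff.2 hI.integral_prod_left
  have hb : r * ∫ p in ball (0 : E n) 1, ∫ t in (0 : ℝ)..1, Real.exp (sc w 0 (r * t) p) ≤
      C * TT K w r := by
    rw [← intervalIntegral_integral_swap hI]
    have h1 : ∫ t in (0 : ℝ)..1, ∫ p in ball (0 : E n) 1, Real.exp (sc w 0 (r * t) p) ≤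
        ∫ t in (0 : ℝ)..1, C * Real.exp (aa K w 0 (r * t)) := by
      refine intervalIntegral.integral_mono_on zero_le_one hI1
        ((continuous_const.mul (ha.comp (by fun_prop))).intervalIntegrable _ _) fun t ht => ?_
      have h0 : 0 ≤ r * t := mul_nonneg hr.1.le ht.1
      have h2 := h _ (hw.sc (z := 0) h0 (by
        rw [norm_zero]
        nlinarith [mul_le_one₀ hr.2 ht.1 ht.2]))
      rwa [aa, av_sc, smul_zero, add_zero, mul_one] at h2
    have h3 := intervalIntegral.mul_integral_comp_mul_left (a := 0) (b := 1)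
      (f := fun t => Real.exp (aa K w 0 t)) r
    rw [mul_zero, mul_one] at h3
    rw [intervalIntegral.integral_const_mul] at h1
    rw [TT, ← h3, mul_left_comm]
    exact mul_le_mul_of_nonneg_left h1 hr.1.le
  obtain ⟨p, hp, hle⟩ := exists_le_setAverage hA0 hA1 (hI2.mono_set sdiff_subset)
  rw [setAverage_eq, smul_eq_mul] at hle
  have hm := setIntegral_mono_set hI2 (.of_forall fun p =>
    intervalIntegral.integral_nonneg zero_le_one fun t _ => (Real.exp_pos _).le)
    (sdiff_subset (t := closedBall (0 : E n) (1 / 2))).eventuallyLE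
  have hp1 : ‖p‖ < 1 := mem_ball_zero_iff.1 hp.1
  have hp2 : 1 / 2 < ‖p‖ := not_le.1 fun h => hp.2 (mem_closedBall_zero_iff.2 h)
  have hn' : ‖r • p‖ = r * ‖p‖ := by rw [norm_smul, Real.norm_of_nonneg hr.1.le]
  have hy : r • p ∈ ball (0 : E n) 4 := mem_ball_zero_iff.2 (by nlinarith [hr.1, hr.2])
  have hs := dd_seg hc (mem_ball_self (by norm_num)) hy
  have e : ∀ t : ℝ, w (0 + t • (r • p - 0)) = sc w 0 (r * t) p := fun t => by
    rw [sc, sub_zero, smul_smul, mul_comm]
  simp only [e] at hs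
  rw [sub_zero, hn'] at hs
  have h0 : 0 ≤ ∫ t in (0 : ℝ)..1, Real.exp (sc w 0 (r * t) p) :=
    intervalIntegral.integral_nonneg zero_le_one fun t _ => (Real.exp_pos _).le
  have h5 : dd w 0 (r • p) ≤ (volume.real A)⁻¹ * (C * TT K w r) := by
    refine hs.trans (le_trans ?_ (mul_le_mul_of_nonneg_left hb hv))
    rw [mul_left_comm, mul_assoc]
    refine mul_le_mul_of_nonneg_left ?_ hr.1.le
    exact (mul_le_of_le_one_left h0 hp1.le).trans (hle.trans (mul_le_mul_of_nonneg_left hm hv))
  obtain ⟨z, hz, h6⟩ := dd_cross hc (x := 0) (ϱ := r / 2) hy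
    (by rw [norm_zero]; linarith [hr.1]) (by nlinarith [hr.1]) hT
  refine ⟨z, hz, ?_⟩
  nlinarith [dd_nonneg w z (r • p)]

end Vale.Agent.P242
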