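import Vale.Agent.P242R.CdB
import Vale.Agent.P242R.CdC

/-! P242R Sep (TASK, owner helper5; helper names start with sep_). Almost antipodal points on a sphere. Write `d = dd w`; rewrite `Approx` with `cd_lt_iff`, `dist_eq_norm`. (1) On the segment `τ ↦ τ • e` (`‖e‖ = 1`, `τ ∈ [ϱ, 1/2]`) `dd_cont` and `intermediate_value_Icc` give `x₀` with `‖x₀‖ ≥ ϱ`, `d 0 x₀ = 3t/4`. Put `a₀ = F x₀`, `|‖a₀‖ - 3t/4| ≤ ηt`. (2) For `a ∈ sphere 0 ‖a₀‖` choose `h a ∈ ball 0 4` with `d 0 (h a) < t`, `‖F (h a) - a‖ ≤ ηt`. (3) Lemma: if `u, v ∈ ball 0 4`, `d 0 u ≥ 3t/4 - 3ηt`, same for `v`, `d u v ≤ 4ηt`, then `ϱ ≤ ‖u‖ ↔ ϱ ≤ ‖v‖` (else `dd_cross` with `ε = ηt`, `dd_tri`, `dd_comm` give a point of the sphere with `d 0 z > t/2`). (4) `isPreconnected_sphere` (rank `> 1`) and `IsPreconnected.induction₂'` for the relation `ϱ ≤ ‖h a‖ ↔ ϱ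 ≤ ‖h b‖` show that `y₀ = h (-a₀)` has `ϱ ≤ ‖y₀‖`. (5) `d 0 x₀ + d 0 y₀ ≤ d x₀ y₀ + 5ηt`; `dd_cross` from `0` to `x₀` and to `y₀` with `ε = ηt`, and `d x₀ y₀ ≤ d x₀ x + d x y + d y y₀`. -/

namespace Vale.Agent.P242

open MeasureTheory Set Metric Filter Topology
open scoped ENNReal ContDiff RealInnerProductSpace

variable {n : ℕ}

theorem sep_pt (hn : 3 ≤ n) {w : E n → ℝ} (hw : Continuous w) {ϱ t : ℝ}
    (hϱ : 0 < ϱ) (hϱ1 : ϱ ≤ 1 / 2) (ht : 0 < t) (h1 : ∀ z : E n, ‖z‖ = 1 / 2 → t ≤ dd w 0 z)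
    (h2 : ∀ z : E n, ‖z‖ = ϱ → dd w 0 z ≤ t / 2) :
    ∃ x₀ : E n, x₀ ∈ ball (0 : E n) 4 ∧ ϱ ≤ ‖x₀‖ ∧ dd w 0 x₀ = 3 * t / 4 := by
  obtain ⟨e, he⟩ : ∃ e : E n, ‖e‖ = 1 :=
    ⟨EuclideanSpace.single ⟨0, by omega⟩ 1, by simp⟩
  have hn : ∀ τ ∈ Icc ϱ (1 / 2), ‖τ • e‖ = τ := fun τ hτ => by
    rw [norm_smul, he, mul_one, Real.norm_of_nonneg (hϱ.le.trans hτ.1)]
  have hm : MapsTo (fun τ : ℝ => τ • e) (Icc ϱ (1 / 2)) (ball (0 : E n) 4) := fun τ hτ =>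
    mem_ball_zero_iff.2 (by rw [hn τ hτ]; linarith [hτ.2])
  have hc : ContinuousOn (fun τ : ℝ => dd w 0 (τ • e)) (Icc ϱ (1 / 2)) :=
    (dd_cont hw (mem_ball_self (by norm_num))).comp (by fun_prop) hm
  have h3 := h1 _ (hn _ (right_mem_Icc.2 hϱ1))
  have h4 := h2 _ (hn _ (left_mem_Icc.2 hϱ1))
  obtain ⟨τ, hτ, h5⟩ := intermediate_value_Icc hϱ1 hc
    (show 3 * t / 4 ∈ Icc _ _ from ⟨by linarith, by linarith⟩)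
  exact ⟨τ • e, hm hτ, by rw [hn τ hτ]; exact hτ.1, h5⟩

theorem sep_step {w : E n → ℝ} (hw : Continuous w) {ϱ t δ : ℝ} (hϱ1 : ϱ ≤ 1 / 2) (δ0 : 0 < δ)
    (δ1 : δ ≤ t / 100) (h2 : ∀ z : E n, ‖z‖ = ϱ → dd w 0 z ≤ t / 2) {u v : E n}
    (hu : u ∈ ball (0 : E n) 4) (hv : 3 * t / 4 - 3 * δ ≤ dd w 0 v) (huv : dd w v u ≤ 4 * δ)
    (h : ϱ ≤ ‖u‖) : ϱ ≤ ‖v‖ := by
  by_contra hlt
  rw [not_le] at hlt
  obtain ⟨z, z1, z2⟩ := dd_cross hw hu hlt.le h δ0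
  have h3 := dd_tri hw (mem_ball_self (by norm_num)) (mem_ball_zero_iff.2 (by linarith : ‖z‖ < 4))
    (mem_ball_zero_iff.2 (by linarith : ‖v‖ < 4))
  rw [dd_comm w z v] at h3
  have h4 := h2 z z1
  have h5 := dd_nonneg w z u
  linarith

theorem sep (hn : 3 ≤ n) {w : E n → ℝ} (hw : Continuous w) {ϱ t η : ℝ} {F : E n → E n}
    (hϱ : 0 < ϱ) (hϱ1 : ϱ ≤ 1 / 2) (ht : 0 < t) (hη : 0 < η) (hη1 : η ≤ 1 / 100)
    (hA : Approx w F (0 : E n) t (η * t)) (h1 : ∀ z : E n, ‖z‖ = 1 / 2 → t ≤ dd w 0 z)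
    (h2 : ∀ z : E n, ‖z‖ = ϱ → dd w 0 z ≤ t / 2) :
    ∃ x y : E n, ‖x‖ = ϱ ∧ ‖y‖ = ϱ ∧ dd w 0 x + dd w 0 y ≤ dd w x y + 10 * η * t := by
  obtain ⟨δ, hδ⟩ : ∃ δ, δ = η * t := ⟨_, rfl⟩
  have δ0 : 0 < δ := by rw [hδ]; positivity
  have δ1 : δ ≤ t / 100 := by
    have := mul_le_mul_of_nonneg_right hη1 ht.le
    linarith
  have e10 : 10 * η * t = 10 * δ := by rw [hδ]; ring
  rw [← hδ] at hA
  rw [e10]
  obtain ⟨A1, A2, A3⟩ := hA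
  have m0 : (0 : E n) ∈ ball (0 : E n) 4 := mem_ball_self (by norm_num)
  have mϱ : ∀ z : E n, ‖z‖ = ϱ → z ∈ ball (0 : E n) 4 := fun z hz =>
    mem_ball_zero_iff.2 (by linarith)
  have d0 : dd w 0 0 = 0 := by simp [dd, cd_self w m0]
  have B2 : ∀ x ∈ ball (0 : E n) 4, ∀ y ∈ ball (0 : E n) 4, dd w 0 x < t → dd w 0 y < t →
      |‖F x - F y‖ - dd w x y| ≤ δ := by
    intro x hx y hy h3 h4
    have := A2 x hx y hy ((cd_lt_iff hw m0 hx t).2 h3) ((cd_lt_iff hw m0 hy t).2 h4)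
    rwa [dist_eq_norm] at this
  have B1 : ∀ x ∈ ball (0 : E n) 4, dd w 0 x < t → |‖F x‖ - dd w 0 x| ≤ δ := by
    intro x hx h3
    have := B2 x hx 0 m0 h3 (by linarith)
    rwa [A1, sub_zero, dd_comm] at this
  have B3 : ∀ q : E n, ‖q‖ < t - δ →
      ∃ x, x ∈ ball (0 : E n) 4 ∧ dd w 0 x < t ∧ ‖F x - q‖ ≤ δ := by
    intro q hq
    obtain ⟨x, hx, h3, h4⟩ := A3 q (mem_ball_zero_iff.2 hq)
    exact ⟨x, hx, (cd_lt_iff hw m0 hx t).1 h3, by rwa [dist_eq_norm] at h4⟩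
  choose! h k1 k2 k3 using B3
  obtain ⟨x₀, m1, hx1, hx2⟩ := sep_pt hn hw hϱ hϱ1 ht h1 h2
  have hx3 : dd w 0 x₀ < t := by linarith
  have ρ1 := abs_le.1 (B1 x₀ m1 hx3)
  have S : ∀ a ∈ sphere (0 : E n) ‖F x₀‖, h a ∈ ball (0 : E n) 4 ∧ dd w 0 (h a) < t ∧
      ‖F (h a) - a‖ ≤ δ ∧ 3 * t / 4 - 3 * δ ≤ dd w 0 (h a) ∧ dd w 0 (h a) ≤ ‖F x₀‖ + 2 * δ := by
    intro a ha
    have ha1 : ‖a‖ = ‖F x₀‖ := mem_sphere_zero_iff_norm.1 ha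
    have ha2 : ‖a‖ < t - δ := by linarith
    have h3 := abs_le.1 (B1 _ (k1 a ha2) (k2 a ha2))
    have h4 := abs_le.1 ((abs_norm_sub_norm_le (F (h a)) a).trans (k3 a ha2))
    exact ⟨k1 a ha2, k2 a ha2, k3 a ha2, by linarith, by linarith⟩
  have near : ∀ a ∈ sphere (0 : E n) ‖F x₀‖, ∀ b ∈ sphere (0 : E n) ‖F x₀‖, ‖a - b‖ ≤ δ →
      ϱ ≤ ‖h a‖ → ϱ ≤ ‖h b‖ := by
    intro a ha b hb hab
    obtain ⟨a1, a2, a3, a4, -⟩ := S a ha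
    obtain ⟨b1, b2, b3, b4, -⟩ := S b hb
    refine sep_step hw hϱ1 δ0 δ1 h2 a1 b4 ?_
    have h3 := abs_le.1 (B2 _ b1 _ a1 b2 a2)
    have h4 : ‖F (h b) - F (h a)‖ ≤ ‖F (h b) - b‖ + ‖a - b‖ + ‖F (h a) - a‖ := by
      have e : F (h b) - F (h a) = (F (h b) - b) - (a - b) - (F (h a) - a) := by abel
      rw [e]
      exact (norm_sub_le _ _).trans (add_le_add_left (norm_sub_le _ _) _)
    linarith
  have a0 : F x₀ ∈ sphere (0 : E n) ‖F x₀‖ := mem_sphere_zero_iff_norm.2 rfl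
  have a1 : -F x₀ ∈ sphere (0 : E n) ‖F x₀‖ := mem_sphere_zero_iff_norm.2 (norm_neg _)
  have rk : 1 < Module.rank ℝ (E n) := by
    rw [← Module.finrank_eq_rank, finrank_euclideanSpace_fin]
    exact_mod_cast (by omega : 1 < n)
  have hP := (isPreconnected_sphere rk (0 : E n) ‖F x₀‖).induction₂'
    (fun a b => ϱ ≤ ‖h a‖ → ϱ ≤ ‖h b‖) (fun a ha => by
      filter_upwards [self_mem_nhdsWithin, nhdsWithin_le_nhds (closedBall_mem_nhds a δ0)]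
        with b hb hab
      rw [mem_closedBall_iff_norm] at hab
      exact ⟨near a ha b hb (by rwa [norm_sub_rev]), near b hb a ha hab⟩)
    (fun _ _ _ _ _ _ p q r => q (p r)) a0 a1
  obtain ⟨b1, b2, b3, b4, -⟩ := S _ a0
  obtain ⟨c1, c2, c3, -, c5⟩ := S _ a1
  have hy : ϱ ≤ ‖h (-F x₀)‖ := by
    refine hP (sep_step hw hϱ1 δ0 δ1 h2 m1 b4 ?_ hx1)
    have h3 := abs_le.1 (B2 _ b1 _ m1 b2 hx3)
    linarith
  have h5 : 2 * ‖F x₀‖ ≤ ‖F x₀ - F (h (-F x₀))‖ + ‖F (h (-F x₀)) - -F x₀‖ := by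
    have e : (2 : ℝ) • F x₀ = (F x₀ - F (h (-F x₀))) + (F (h (-F x₀)) - -F x₀) := by
      rw [two_smul]
      abel
    have h6 := norm_add_le (F x₀ - F (h (-F x₀))) (F (h (-F x₀)) - -F x₀)
    rwa [← e, norm_smul, Real.norm_two] at h6
  have h6 := abs_le.1 (B2 _ m1 _ c1 hx3 c2)
  have n0 : ‖(0 : E n)‖ ≤ ϱ := by rw [norm_zero]; exact hϱ.le
  obtain ⟨x, x1, x2⟩ := dd_cross hw m1 n0 hx1 δ0
  obtain ⟨y, y1, y2⟩ := dd_cross hw c1 n0 hy δ0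
  refine ⟨x, y, x1, y1, ?_⟩
  have t1 := dd_tri hw m1 (mϱ x x1) c1
  have t2 := dd_tri hw (mϱ x x1) (mϱ y y1) c1
  rw [dd_comm w x₀ x] at t1
  linarith

end Vale.Agent.P242
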