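import Vale.Agent.P242R.CdA
import Vale.Agent.P242.MetA

/-! P242R Low (TASK, owner helper5; helper names start with low_). Lower bound for distances; adapt `FlowD.seg` (P242/MetA.lean). Let `B r = ∫ t in ρ₀..(max ρ₀ (min r ρ₁)), exp (β t)`, Lipschitz on the line. For a curve `γ` from `0` to `x` the function `f t = B ‖γ t‖` is Lipschitz on `Icc 0 1`, `f 0 = 0`, `f 1 = ∫ t in ρ₀..ρ₁`. Where `γ` is differentiable `‖deriv f t‖ ≤ exp (w (γ t)) ‖deriv γ t‖`: by `mta_der` with the constant `exp (w (γ t)) + ε` if `‖γ t‖ ∈ Icc ρ₀ ρ₁` (continuity of `exp β`, `intervalIntegral.norm_integral_le_of_norm_le_const`), and `f` is locally constant otherwise (or: `|B r' - B r| ≤ (g r + ε) |r' - r|` near `r`). `γ` is only Lipschitz on `Icc 0 1`, work at interior points. Finish with `le_iInf₂`, `cd_fin`, `ENNReal.ofReal_le_iff_le_toReal`. -/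

namespace Vale.Agent.P242

open MeasureTheory Set Metric Filter Topology
open scoped ENNReal ContDiff RealInnerProductSpace

variable {n : ℕ}

/-- The clamped primitive. -/
noncomputable def low_B (β : ℝ → ℝ) (ρ₀ ρ₁ r : ℝ) : ℝ :=
  ∫ t in ρ₀..(max ρ₀ (min r ρ₁)), Real.exp (β t)

theorem low_cl (ρ₀ ρ₁ r r' : ℝ) :
    |max ρ₀ (min r' ρ₁) - max ρ₀ (min r ρ₁)| ≤ |r' - r| := by
  refine (abs_max_sub_max_le_max _ _ _ _).trans (max_le (by simp) ?_)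
  exact (abs_min_sub_min_le_max _ _ _ _).trans (max_le le_rfl (by simp))

theorem low_sub {β : ℝ → ℝ} (hβ : Continuous β) {ρ₀ ρ₁ r r' C : ℝ} (hC : 0 ≤ C)
    (h : ∀ t ∈ uIcc (max ρ₀ (min r ρ₁)) (max ρ₀ (min r' ρ₁)), Real.exp (β t) ≤ C) :
    ‖low_B β ρ₀ ρ₁ r' - low_B β ρ₀ ρ₁ r‖ ≤ C * |r' - r| := by
  have hc : Continuous fun t => Real.exp (β t) := by fun_prop
  rw [low_B, low_B, intervalIntegral.integral_interval_sub_left (hc.intervalIntegrable _ _)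
    (hc.intervalIntegrable _ _)]
  refine (intervalIntegral.norm_integral_le_of_norm_le_const (C := C) fun t ht => ?_).trans
    (mul_le_mul_of_nonneg_left (low_cl ρ₀ ρ₁ r r') hC)
  rw [Real.norm_eq_abs, abs_of_pos (Real.exp_pos _)]
  exact h t (uIoc_subset_uIcc ht)

theorem low_lip {β : ℝ → ℝ} (hβ : Continuous β) {ρ₀ ρ₁ : ℝ} (h1 : ρ₀ ≤ ρ₁) :
    ∃ K, LipschitzWith K (low_B β ρ₀ ρ₁) := by
  obtain ⟨M, hM⟩ := (isCompact_Icc (a := ρ₀) (b := ρ₁)).exists_bound_of_continuousOn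
    (f := fun t => Real.exp (β t)) (by fun_prop)
  have hm : ∀ r, max ρ₀ (min r ρ₁) ∈ Icc ρ₀ ρ₁ := fun r =>
    ⟨le_max_left _ _, max_le h1 (min_le_right _ _)⟩
  refine ⟨M.toNNReal, LipschitzWith.of_dist_le_mul fun r' r => ?_⟩
  rw [dist_eq_norm, Real.dist_eq]
  exact low_sub hβ (NNReal.coe_nonneg _) fun t ht => ((le_abs_self _).trans
    (hM t (uIcc_subset_Icc (hm r) (hm r') ht))).trans (Real.le_coe_toNNReal M)

theorem low_loc {w : E n → ℝ} {β : ℝ → ℝ} (hβ : Continuous β) {ρ₀ ρ₁ : ℝ} (h1 : ρ₀ ≤ ρ₁)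
    (h : ∀ q : E n, ρ₀ ≤ ‖q‖ → ‖q‖ ≤ ρ₁ → β ‖q‖ ≤ w q) (q : E n) {ε : ℝ} (hε : 0 < ε) :
    ∀ᶠ p in 𝓝 q, ‖low_B β ρ₀ ρ₁ ‖p‖ - low_B β ρ₀ ρ₁ ‖q‖‖ ≤ (Real.exp (w q) + ε) * ‖p - q‖ := by
  have hC : 0 ≤ Real.exp (w q) + ε := by positivity
  rcases lt_or_ge ‖q‖ ρ₀ with a | a
  · filter_upwards [continuous_norm.continuousAt.eventually (gt_mem_nhds a)] with p hp
    rw [low_B, low_B, max_eq_left ((min_le_left _ _).trans hp.le),
      max_eq_left ((min_le_left _ _).trans a.le), sub_self, norm_zero]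
    positivity
  rcases lt_or_ge ρ₁ ‖q‖ with b | b
  · filter_upwards [continuous_norm.continuousAt.eventually (lt_mem_nhds b)] with p hp
    rw [low_B, low_B, min_eq_right hp.le, min_eq_right b.le, sub_self, norm_zero]
    positivity
  have hc : ContinuousAt (fun t => Real.exp (β t)) ‖q‖ := by fun_prop
  have h2 : Real.exp (β ‖q‖) < Real.exp (w q) + ε :=
    (Real.exp_le_exp.2 (h q a b)).trans_lt (lt_add_of_pos_right _ hε)
  obtain ⟨δ, hδ, h3⟩ := Metric.eventually_nhds_iff.1 (hc.eventually (gt_mem_nhds h2))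
  filter_upwards [ball_mem_nhds q hδ] with p hp
  have h4 : |‖p‖ - ‖q‖| ≤ ‖p - q‖ := abs_norm_sub_norm_le p q
  refine (low_sub hβ hC fun t ht => (h3 ?_).le).trans (mul_le_mul_of_nonneg_left h4 hC)
  have h5 := (abs_sub_left_of_mem_uIcc ht).trans (low_cl ρ₀ ρ₁ ‖q‖ ‖p‖)
  rw [min_eq_left b, max_eq_right a] at h5
  rw [Real.dist_eq]
  exact (h5.trans h4).trans_lt (mem_ball_iff_norm.1 hp)

theorem low {w : E n → ℝ} (hw : Continuous w) {β : ℝ → ℝ} (hβ : Continuous β) {ρ₀ ρ₁ : ℝ}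
    (h0 : 0 ≤ ρ₀) (h1 : ρ₀ ≤ ρ₁) (h : ∀ q : E n, ρ₀ ≤ ‖q‖ → ‖q‖ ≤ ρ₁ → β ‖q‖ ≤ w q) {x : E n}
    (hx : x ∈ ball (0 : E n) 4) (h2 : ρ₁ ≤ ‖x‖) :
    ∫ t in ρ₀..ρ₁, Real.exp (β t) ≤ dd w 0 x := by
  refine (ENNReal.ofReal_le_iff_le_toReal (cd_fin hw (mem_ball_self (by norm_num)) hx)).1
    (le_iInf₂ fun γ hγ => ?_)
  obtain ⟨⟨K, hK⟩, -, g0, g1⟩ := hγ
  obtain ⟨K', hK'⟩ := low_lip hβ h1
  have h3 : LipschitzOnWith (K' * 1 * K) ((low_B β ρ₀ ρ₁ ∘ norm) ∘ γ) (uIcc 0 1) := by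
    rw [uIcc_of_le zero_le_one]
    exact (hK'.comp lipschitzWith_one_norm).comp_lipschitzOnWith hK
  have h4 := h3.absolutelyContinuousOnInterval.integral_deriv_eq_sub
  have h5 : ∫ t in ρ₀..ρ₁, Real.exp (β t) =
      ∫ t in Ioo (0 : ℝ) 1, deriv ((low_B β ρ₀ ρ₁ ∘ norm) ∘ γ) t := by
    rw [← integral_Ioc_eq_integral_Ioo, ← intervalIntegral.integral_of_le zero_le_one, h4]
    simp only [Function.comp_apply, g0, g1, low_B, norm_zero]
    rw [min_eq_right h2, max_eq_right h1, max_eq_left ((min_le_left _ _).trans h0),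
      intervalIntegral.integral_same, sub_zero]
  rw [h5]
  refine (Real.ofReal_le_enorm _).trans ((enorm_integral_le_lintegral_enorm _).trans ?_)
  refine le_trans ?_ (lintegral_mono_set Ioo_subset_Icc_self)
  refine lintegral_mono_ae ((ae_restrict_iff' measurableSet_Ioo).2 ?_)
  filter_upwards [hK.ae_differentiableWithinAt_of_mem_real] with t ht ht'
  have h6 : DifferentiableAt ℝ γ t :=
    (ht (Ioo_subset_Icc_self ht')).differentiableAt (Icc_mem_nhds ht'.1 ht'.2)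
  rw [← ofReal_norm_eq_enorm]
  refine ENNReal.ofReal_le_ofReal (le_of_forall_pos_le_add fun ε hε => ?_)
  have h7 : 0 < ‖deriv γ t‖ + 1 := by positivity
  have h8 := mta_der (f := (low_B β ρ₀ ρ₁ ∘ norm) ∘ γ) (by positivity) h6
    (h6.continuousAt.eventually (low_loc hβ h1 h (γ t) (div_pos hε h7)))
  have h9 : ε / (‖deriv γ t‖ + 1) * ‖deriv γ t‖ ≤ ε := by
    rw [div_mul_eq_mul_div, div_le_iff₀ h7]
    linarith
  rw [add_mul] at h8
  linarith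

end Vale.Agent.P242
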