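import Vale.Agent.P242R.Uni

/-! P242R Pinch (TASK, owner helper5; helper names start with pin_). Monotone density and pinched scales. `M_mono`: as in the proof of `sc_th` (P242/Scale.lean): `M_eq`, `der_M` with `(v, s) = (0, 1)`, `est_de_pt` gives `0 ≤ de g`, `NL.sc`, `NL.pos`.
`pinch`: `0 ≤ M φ w (0, r) ≤ C` (`est_sign`, `est_L`, `uni_th`). If `de > π₀` on `[κ r₂, r₂]` then `r ↦ M φ w (0, r) - (2 π₀ / (n-1)) log r` is monotone there (`scl_mono`), so `(2 π₀ / (n-1)) log (1/κ) ≤ C`; take `κ = exp (-((n-1) C / π₀))`. -/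

namespace Vale.Agent.P242

open MeasureTheory Set Metric Filter Topology
open scoped ENNReal ContDiff RealInnerProductSpace

variable {n : ℕ}

theorem pin_der (hn : 3 ≤ n) {b : ℝ} {g : ℝ → ℝ} (hg : Prof b g) {w : E n → ℝ}
    (hw : ContDiff ℝ ∞ w) (r : ℝ) :
    r * fderiv ℝ (M g w) (0, r) (0, 1) = 2 / ((n : ℝ) - 1) * de g (sc w 0 r) := by
  rw [der_M hn hg hw, scl_zero, neg_zero, zero_add, one_mul]

theorem pin_nl {w : E n → ℝ} (hw : NL w) {r : ℝ} (h0 : 0 ≤ r) (h1 : r ≤ 1) : NL (sc w 0 r) :=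
  hw.sc h0 (by rw [norm_zero]; linarith)

theorem M_mono (hn : 3 ≤ n) {g : ℝ → ℝ} (hg : Prof 9 g) (g1 : ∀ s, deriv g s ≤ 0) {w : E n → ℝ}
    (hw : NL w) : MonotoneOn (fun r => -I g (lap (sc w 0 r))) (Icc 0 1) := by
  intro a ha b hb hab
  have h1 := scl_mono hab (fun s _ => scl_line (M_smooth hg hw.1) 0 s) fun s hs => by
    have h0 : 0 < s := ha.1.trans_lt hs.1
    have h2 : 0 ≤ de g (sc w 0 s) :=
      integral_nonneg (est_de_pt hg g1 ((pin_nl hw h0.le (hs.2.le.trans hb.2)).pos hn))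
    have h3 : (3 : ℝ) ≤ n := by exact_mod_cast hn
    refine nonneg_of_mul_nonneg_right ?_ h0
    rw [pin_der hn hg hw.1]
    exact mul_nonneg (div_nonneg two_pos.le (by linarith)) h2
  rwa [M_eq _ hw.1, M_eq _ hw.1] at h1

theorem pinch (hn : 3 ≤ n) (K : Kit n) {π₀ : ℝ} (hπ : 0 < π₀) : ∃ κ : ℝ, 0 < κ ∧ κ ≤ 1 ∧
    ∀ w : E n → ℝ, NL w → ∀ r₂ ∈ Ioc (0 : ℝ) 1,
      ∃ r ∈ Icc (κ * r₂) r₂, de K.φ (sc w 0 r) ≤ π₀ := by
  obtain ⟨C1, hC1, h1⟩ := est_L hn K K.hφ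
  obtain ⟨C2, hC2, h2⟩ := uni_th hn K
  have h3 : (3 : ℝ) ≤ n := by exact_mod_cast hn
  have h4 : (0 : ℝ) < n - 1 := by linarith
  have hC : 0 < C1 * C2 := by positivity
  have hκ : Real.exp (-((n - 1) * (C1 * C2) / π₀)) ≤ 1 :=
    Real.exp_le_one_iff.2 (neg_nonpos.2 (by positivity))
  refine ⟨_, Real.exp_pos _, hκ, fun w hw r hr => ?_⟩
  by_contra hc
  have hc' : ∀ s ∈ Icc (Real.exp (-((n - 1) * (C1 * C2) / π₀)) * r) r,
      π₀ ≤ de K.φ (sc w 0 s) := fun s hs => (not_le.1 fun h => hc ⟨s, hs, h⟩).le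
  have h5 : 0 < Real.exp (-((n - 1) * (C1 * C2) / π₀)) * r := mul_pos (Real.exp_pos _) hr.1
  have h6 : Real.exp (-((n - 1) * (C1 * C2) / π₀)) * r ≤ r := mul_le_of_le_one_left hr.1.le hκ
  have h7 := scl_mono h6 (fun s hs => (scl_line (M_smooth K.hφ hw.1) 0 s).sub
    ((Real.hasDerivAt_log (h5.trans_le hs.1).ne').const_mul (2 / ((n : ℝ) - 1) * π₀)))
    fun s hs => by
      have h0 : 0 < s := h5.trans hs.1
      refine nonneg_of_mul_nonneg_right ?_ h0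
      rw [mul_sub, pin_der hn K.hφ hw.1, mul_left_comm s, mul_inv_cancel₀ h0.ne', mul_one,
        sub_nonneg]
      exact mul_le_mul_of_nonneg_left (hc' s (Ioo_subset_Icc_self hs)) (by positivity)
  simp only [Pi.sub_apply, M_eq _ hw.1] at h7
  rw [Real.log_mul (Real.exp_pos _).ne' hr.1.ne', Real.log_exp] at h7
  have h8 := (est_sign hn K ((pin_nl hw h5.le (h6.trans hr.2)).pos hn)).2.2.2
  have h9 := pin_nl hw hr.1.le hr.2
  have h10 := (neg_le_abs _).trans ((h1 _ (h9.pos hn)).trans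
    (mul_le_mul_of_nonneg_left (h2 _ h9) (by linarith)))
  have e : 2 / ((n : ℝ) - 1) * π₀ * ((n - 1) * (C1 * C2) / π₀) = 2 * (C1 * C2) := by field_simp
  linarith

end Vale.Agent.P242
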