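import Vale.Agent.P242R.Nl
import Vale.Agent.P242.Scale
import Vale.Agent.P242.KitE

/-! P242R Uni (TASK, owner helper5; helper names start with uni_). Universal bounds. `uni_th`: take `β` from `kit_step` with `(a, b) = (9, 12)` (P242/KitE.lean) and the profile `β^2`; `I_lap` gives `X := -I (β^2) (lap W) = 4 ∫ eu W * β * deriv β`; `|eu W p| ≤ ‖p‖ sqrt (gsq)` (`D_sq_le`), so `4 |eu W| β |β1| ≤ β^2 gsq / 4 + 16 * 12 * β1^2 ≤ β^2 (-lap W) / 2 + ..` on the support (`NL.grad'`), hence `X ≤ C`; and `χ ≤ c β^2` (`Prof.bdd`, both vanish outside).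
`est_G`: `|D u W p| ≤ (l + gsq / l) ‖u‖ ≤ (l + 2 (-lap) / l) ‖u‖`, `est_chi`, `est_abs` in P242/Est.lean. `th_le_mass`: `sc_th` with `x = 0`, `r = 1`, `sc_one`. `mass_le_shell`: `lap_sc`, `cov` with an indicator function (`integral_indicator`), `C = 8^n`. -/

namespace Vale.Agent.P242

open MeasureTheory Set Metric Filter Topology
open scoped ENNReal ContDiff RealInnerProductSpace

variable {n : ℕ}

theorem uni_mem {p : E n} (hp : ‖p‖ ^ 2 ≤ 12) : p ∈ ball (0 : E n) 4 := by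
  rw [mem_ball_zero_iff]
  by_contra h
  have h1 := not_lt.1 h
  nlinarith

theorem uni_neg (g : ℝ → ℝ) (W : E n → ℝ) :
    -I g (lap W) = ∫ p : E n, -lap W p * g (‖p‖ ^ 2) := by
  unfold I
  rw [← integral_neg]
  simp only [neg_mul]

theorem uni_sq (hn : 3 ≤ n) {β : ℝ → ℝ} (hβ : Prof 12 β) : ∃ A : ℝ, 0 ≤ A ∧
    ∀ W : E n → ℝ, NL W → ∫ p : E n, -lap W p * β (‖p‖ ^ 2) ^ 2 ≤ A := by
  have hg : Prof 12 fun s => β s ^ 2 := ⟨hβ.1.pow 2, fun s hs => by simp [hβ.2 s hs]⟩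
  have hd : ∀ s, deriv (fun s => β s ^ 2) s = 2 * β s * deriv β s := fun s => by
    have h1 := ((hβ.1.differentiable (by simp) s).hasDerivAt.fun_pow 2).deriv
    simpa using h1
  have hi : Integrable fun p : E n => deriv β (‖p‖ ^ 2) * deriv β (‖p‖ ^ 2) :=
    integrable_rad hβ.deriv hβ.deriv.smooth.1.continuous
  refine ⟨384 * ∫ p : E n, deriv β (‖p‖ ^ 2) * deriv β (‖p‖ ^ 2),
    mul_nonneg (by norm_num) (integral_nonneg fun p => mul_self_nonneg _), fun W h => ?_⟩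
  have hX : Integrable fun p : E n => -lap W p * β (‖p‖ ^ 2) ^ 2 :=
    integrable_rad (f := fun p => -lap W p) hg (smooth_lap h.1).continuous.neg
  have h1 := uni_neg (fun s => β s ^ 2) W
  rw [I_lap hg h.1] at h1
  have h2 : 2 * I (deriv fun s => β s ^ 2) (eu W) ≤
      ∫ p : E n, (1 / 2 * (-lap W p * β (‖p‖ ^ 2) ^ 2) +
        192 * (deriv β (‖p‖ ^ 2) * deriv β (‖p‖ ^ 2))) := by
    rw [I, ← integral_const_mul]
    refine integral_mono ((integrable_rad hg.deriv (smooth_eu h.1).continuous).const_mul 2)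
      ((hX.const_mul _).add (hi.const_mul _)) fun p => ?_
    simp only [hd]
    by_cases hp : ‖p‖ ^ 2 ≤ 12
    · have h3 : eu W p ^ 2 ≤ gsq W p * ‖p‖ ^ 2 := D_sq_le W p p
      have h4 := h.grad' hn (uni_mem hp)
      have h5 : eu W p ^ 2 ≤ 24 * -lap W p := by
        have h6 := mul_le_mul h4 hp (sq_nonneg _) ((gsq_nonneg W p).trans h4)
        linarith
      have h7 := mul_le_mul_of_nonneg_right h5 (sq_nonneg (β (‖p‖ ^ 2)))
      nlinarith [sq_nonneg (eu W p * β (‖p‖ ^ 2) - 96 * deriv β (‖p‖ ^ 2))]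
    · rw [hβ.2 _ (not_le.1 hp).le, hβ.deriv.2 _ (not_le.1 hp).le]
      simp
  rw [integral_add (hX.const_mul _) (hi.const_mul _), integral_const_mul, integral_const_mul] at h2
  linarith

theorem uni_th (hn : 3 ≤ n) (K : Kit n) : ∃ C, 1 ≤ C ∧ ∀ W : E n → ℝ, NL W → th K W ≤ C := by
  obtain ⟨β, b1, -, b3, -⟩ := kit_step (a := 9) (b := 12) (by norm_num)
  obtain ⟨A, hA, hb⟩ := uni_sq hn b1
  obtain ⟨c, hc, hχ⟩ := K.hχ.bdd
  have hc0 : 0 ≤ c := zero_le_one.trans hc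
  have hg : Prof 12 fun s => β s ^ 2 := ⟨b1.1.pow 2, fun s hs => by simp [b1.2 s hs]⟩
  refine ⟨c * A + 1, le_add_of_nonneg_left (mul_nonneg hc0 hA), fun W h => ?_⟩
  have h1 : th K W ≤ c * ∫ p : E n, -lap W p * β (‖p‖ ^ 2) ^ 2 := by
    rw [est_th, ← integral_const_mul]
    refine integral_mono (est_th_int K (h.pos hn)) ((integrable_rad (f := fun p => -lap W p) hg
      (smooth_lap h.1).continuous.neg).const_mul c) fun p => ?_
    by_cases hp : ‖p‖ ^ 2 ≤ 12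
    · have h2 : 0 ≤ -lap W p := neg_nonneg.2 (h.lap_le hn p (uni_mem hp))
      have h3 : K.χ (‖p‖ ^ 2) ≤ c * β (‖p‖ ^ 2) ^ 2 := by
        by_cases h9 : ‖p‖ ^ 2 ≤ 9
        · rw [b3 _ h9, one_pow, mul_one]
          exact (le_abs_self _).trans (hχ _ (sq_nonneg _))
        · rw [K.hχ.2 _ (not_le.1 h9).le]
          positivity
      exact (mul_le_mul_of_nonneg_left h3 h2).trans_eq (by ring)
    · have h2 := not_le.1 hp
      simp only [b1.2 _ h2.le, K.hχ.2 (‖p‖ ^ 2) (by linarith)]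
      simp
  have h2 := mul_le_mul_of_nonneg_left (hb W h) hc0
  linarith

theorem est_G (hn : 3 ≤ n) (K : Kit n) {k : ℝ → ℝ} (hk : Prof 4 k) :
    ∃ C, 1 ≤ C ∧ ∀ W : E n → ℝ, NL W → ∀ (u : E n) (l : ℝ), 0 < l →
      |I k (D u W)| ≤ C * (l + th K W / l) * ‖u‖ := by
  obtain ⟨c, hc, hχ⟩ := est_chi K hk
  have hc0 : 0 ≤ c := zero_le_one.trans hc
  have hi : Integrable fun p : E n => K.χ (‖p‖ ^ 2) := by
    simpa using integrable_rad (f := fun _ : E n => (1 : ℝ)) K.hχ continuous_const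
  obtain ⟨A, hA⟩ : ∃ A, A = ∫ p : E n, K.χ (‖p‖ ^ 2) := ⟨_, rfl⟩
  have hA0 : 0 ≤ A := by
    rw [hA]
    exact integral_nonneg fun p => K.χ0 _
  refine ⟨c * (A + 2), one_le_mul_of_one_le_of_one_le hc (by linarith), fun W h u l hl => ?_⟩
  have hP := h.pos hn
  have h1 : |I k (D u W)| ≤ ∫ p : E n, (c * ‖u‖ * l * K.χ (‖p‖ ^ 2) +
      2 * c * ‖u‖ / l * (-lap W p * K.χ (‖p‖ ^ 2))) := by
    refine est_abs ((hi.const_mul _).add ((est_th_int K hP).const_mul _)) fun p => ?_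
    by_cases hp : ‖p‖ ≤ 3
    · have hm : p ∈ ball (0 : E n) 4 := mem_ball_zero_iff.2 (by linarith)
      have h2 : 0 ≤ -lap W p := neg_nonneg.2 (h.lap_le hn p hm)
      have h3 : |D u W p| ≤ (l + 2 * -lap W p / l) * ‖u‖ := by
        refine abs_le_of_sq_le_sq ((D_sq_le W p u).trans ?_) (by positivity)
        rw [mul_pow]
        refine mul_le_mul_of_nonneg_right ((h.grad' hn hm).trans ?_) (sq_nonneg _)
        have h4 : l * (2 * -lap W p / l) = 2 * -lap W p := by field_simp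
        nlinarith [sq_nonneg l, sq_nonneg (2 * -lap W p / l)]
      rw [abs_mul]
      exact (mul_le_mul h3 (hχ _ (sq_nonneg _)) (abs_nonneg _) (by positivity)).trans_eq (by ring)
    · have h9 := est_far hp
      rw [hk.2 _ (by linarith), K.hχ.2 _ h9]
      simp
  rw [integral_add (hi.const_mul _) ((est_th_int K hP).const_mul _), integral_const_mul,
    integral_const_mul, ← est_th, ← hA] at h1
  have h5 : 0 ≤ th K W / l := div_nonneg (est_sign hn K hP).2.2.1 hl.le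
  have h6 : 2 * c * ‖u‖ / l * th K W = 2 * c * ‖u‖ * (th K W / l) := by ring
  have h7 : 0 ≤ c * ‖u‖ := mul_nonneg hc0 (norm_nonneg u)
  rw [h6] at h1
  nlinarith [mul_nonneg h7 hl.le, mul_nonneg (mul_nonneg h7 hA0) h5]

theorem th_le_mass (hn : 3 ≤ n) (K : Kit n) :
    ∃ C, 1 ≤ C ∧ ∀ W : E n → ℝ, NL W → th K W ≤ C * mass W := by
  obtain ⟨C, hC, h⟩ := sc_th hn K
  refine ⟨C, hC, fun W hW => ?_⟩
  have h1 := h W hW.1 (hW.lin hn) 0 (mem_ball_self one_pos) 1 ⟨zero_le_one, le_rfl⟩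
  rwa [sc_one] at h1

theorem mass_nonneg (hn : 3 ≤ n) {W : E n → ℝ} (h : NL W) : 0 ≤ mass W :=
  setIntegral_nonneg measurableSet_ball fun x hx => neg_nonneg.2 (h.lap_le hn x hx)

theorem mass_le_shell (hn : 3 ≤ n) : ∃ C : ℝ, 1 ≤ C ∧ ∀ (c : ℝ) (ψ : ℝ → ℝ) (W : E n → ℝ),
    NL W → 0 ≤ c → Prof 1 ψ → (∀ s, 0 ≤ ψ s) → (∀ s, s ≤ 1 / 2 → c ≤ ψ s) →
      c * mass (sc W 0 (1 / 8)) ≤ C * -I ψ (lap W) := by
  refine ⟨8 ^ n, one_le_pow₀ (by norm_num), fun c ψ W h hc hψ h0 h1 => ?_⟩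
  obtain ⟨F, hF⟩ : ∃ F : E n → ℝ,
      F = (ball (0 : E n) (1 / 2)).indicator fun q => c / 64 * -lap W q := ⟨_, rfl⟩
  have e : c * mass (sc W 0 (1 / 8)) = ∫ p, F (0 + (1 / 8 : ℝ) • p) := by
    rw [mass, ← integral_indicator measurableSet_ball, ← integral_const_mul, lap_sc h.1]
    refine integral_congr_ae (Eventually.of_forall fun p => ?_)
    have hn8 : ‖0 + (1 / 8 : ℝ) • p‖ = ‖p‖ / 8 := by
      rw [zero_add, norm_smul, Real.norm_eq_abs, abs_of_pos (by norm_num)]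
      ring
    by_cases hp : ‖p‖ < 4
    · simp only [hF]
      rw [indicator_of_mem (mem_ball_zero_iff.2 hp),
        indicator_of_mem (mem_ball_zero_iff.2 (by rw [hn8]; linarith)), sc]
      ring
    · simp only [hF]
      rw [indicator_of_notMem (mt mem_ball_zero_iff.1 hp),
        indicator_of_notMem (mt mem_ball_zero_iff.1 (by rw [hn8]; linarith)), mul_zero]
  rw [e, cov F 0 (by norm_num), one_div, inv_pow, inv_inv, uni_neg]
  refine mul_le_mul_of_nonneg_left ((le_abs_self _).trans (est_abs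
    (integrable_rad (f := fun p => -lap W p) hψ (smooth_lap h.1).continuous.neg) fun q => ?_))
    (by positivity)
  by_cases hq : ‖q‖ < 1 / 2
  · have h2 : 0 ≤ -lap W q := neg_nonneg.2 (h.lap_le hn q (mem_ball_zero_iff.2 (by linarith)))
    have h3 := h1 (‖q‖ ^ 2) (by nlinarith [norm_nonneg q])
    rw [hF, indicator_of_mem (mem_ball_zero_iff.2 hq), abs_of_nonneg (by positivity), mul_comm]
    exact mul_le_mul_of_nonneg_left (by linarith) h2
  · rw [hF, indicator_of_notMem (mt mem_ball_zero_iff.1 hq), abs_zero]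
    by_cases h4 : ‖q‖ ^ 2 ≤ 12
    · exact mul_nonneg (neg_nonneg.2 (h.lap_le hn q (uni_mem h4))) (h0 _)
    · rw [hψ.2 _ (by linarith [not_le.1 h4]), mul_zero]

end Vale.Agent.P242
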