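import Vale.Agent.P242R.Mono
import Vale.Agent.P242R.Uni
import Vale.Agent.P242R.Low
import Vale.Agent.P242R.Pinch

/-! P242R TT (TASK, owner helper5; helper names start with tt_). The model distance. `t ↦ aa K w 0 t` is continuous (`av_smooth`) and antitone on `Icc 0 4` (`av_anti`, `NL.lap_le`). `TT_scale`: `TT (l r) = l * ∫ t in 0..r, exp (aa (l t))` (`intervalIntegral.integral_comp_mul_left` or `smul_integral_comp_mul_left`).
`TT_low`: for `0 < ‖q‖ ≤ 1/2`: `w q ≥ aa K w q ‖q‖` (`aa_le`) and `|aa K w q ρ - aa K w 0 ρ| ≤ B` with `ρ = ‖q‖` (`av_lip` on `closedBall 0 ρ`, `est_G` with parameter `1`, `uni_th`, `NL.sc`); `q = 0`: `cor_a0`. Then `low` with `β t = aa K w 0 t - B` on `[0, r/2]` and `TT_scale` with `l = 1/2`.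
`TT_small`: for `0 < t ≤ r`: `|I K.ψ (lap (sc w 0 t))| ≤ C th (sc w 0 t) ≤ 1/2` (`est_L`, `M_mono` for `K.χ`, `th_le_mass`), so `aa (t/2) ≤ aa t + (1/2) log 2` (`av_log_ge`); `exp ((1/2) log 2) ≤ 1.42`; `TT (r/2) ≤ 0.71 TT r` and `TT r - TT (r/2) ≤ (r/2) exp (aa (r/2)) ≤ 0.71 r exp (aa r)`. -/

namespace Vale.Agent.P242

open MeasureTheory Set Metric Filter Topology
open scoped ENNReal ContDiff RealInnerProductSpace

variable {n : ℕ}

variable {w : E n → ℝ}

theorem tt_ca (K : Kit2 n) (hw : ContDiff ℝ ∞ w) : Continuous (aa K w 0) :=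
  (av_smooth K.hψ.eta hw).continuous.comp (Continuous.prodMk_right (0 : E n))

theorem tt_ce (K : Kit2 n) (hw : ContDiff ℝ ∞ w) : Continuous fun t => Real.exp (aa K w 0 t) :=
  Real.continuous_exp.comp (tt_ca K hw)

theorem tt_sc (K : Kit2 n) (w : E n → ℝ) (l r : ℝ) :
    TT K w (l * r) = l * ∫ t in (0 : ℝ)..r, Real.exp (aa K w 0 (l * t)) := by
  have h := intervalIntegral.smul_integral_comp_mul_left (a := 0) (b := r)
    (fun t => Real.exp (aa K w 0 t)) l
  rw [mul_zero, smul_eq_mul] at h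
  exact h.symm

theorem tt_anti (hn : 3 ≤ n) (K : Kit2 n) (hw : NL w) : AntitoneOn (aa K w 0) (Icc 0 4) :=
  av_anti K.hψ K.ψ0 hw.1 (hw.lap_le hn) (by simp)

theorem tt_sub (K : Kit2 n) (hw : ContDiff ℝ ∞ w) (a b : ℝ) :
    TT K w b - TT K w a = ∫ t in a..b, Real.exp (aa K w 0 t) :=
  intervalIntegral.integral_interval_sub_left ((tt_ce K hw).intervalIntegrable _ _)
    ((tt_ce K hw).intervalIntegrable _ _)

theorem TT_cont (K : Kit2 n) (hw : ContDiff ℝ ∞ w) : Continuous (TT K w) := by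
  exact intervalIntegral.continuous_primitive (fun a b => (tt_ce K hw).intervalIntegrable a b) 0

theorem TT_zero (K : Kit2 n) (w : E n → ℝ) : TT K w 0 = 0 := by
  exact intervalIntegral.integral_same

theorem TT_pos (K : Kit2 n) (hw : ContDiff ℝ ∞ w) {r : ℝ} (hr : 0 < r) : 0 < TT K w r := by
  exact intervalIntegral.intervalIntegral_pos_of_pos ((tt_ce K hw).intervalIntegrable _ _)
    (fun _ => Real.exp_pos _) hr

theorem TT_mono (K : Kit2 n) (hw : ContDiff ℝ ∞ w) : Monotone (TT K w) := by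
  intro a b hab
  have h1 := tt_sub K hw a b
  have h2 : 0 ≤ ∫ t in a..b, Real.exp (aa K w 0 t) :=
    intervalIntegral.integral_nonneg hab fun _ _ => (Real.exp_pos _).le
  linarith

theorem TT_scale (hn : 3 ≤ n) (K : Kit2 n) (hw : NL w) {r l : ℝ} (hr : r ∈ Icc (0 : ℝ) 1)
    (hl : l ∈ Icc (0 : ℝ) 1) : l * TT K w r ≤ TT K w (l * r) := by
  rw [tt_sc]
  refine mul_le_mul_of_nonneg_left ?_ hl.1
  refine intervalIntegral.integral_mono_on hr.1 ((tt_ce K hw.1).intervalIntegrable _ _)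
    (((tt_ce K hw.1).comp (continuous_const.mul continuous_id)).intervalIntegrable _ _)
    fun t ht => Real.exp_le_exp.2 ?_
  have h1 : l * t ≤ t := mul_le_of_le_one_left ht.1 hl.2
  have h2 : t ≤ 4 := by linarith [ht.2, hr.2]
  exact tt_anti hn K hw ⟨mul_nonneg hl.1 ht.1, h1.trans h2⟩ ⟨ht.1, h2⟩ h1

theorem TT_low (hn : 3 ≤ n) (K : Kit2 n) : ∃ c : ℝ, 0 < c ∧ ∀ w : E n → ℝ, NL w →
    ∀ r ∈ Ioc (0 : ℝ) 1, ∀ z : E n, ‖z‖ = r / 2 → c * TT K w r ≤ dd w 0 z := by
  obtain ⟨C, hC, hG⟩ := est_G hn K.toKit (est_mono K.hψ.eta (by norm_num : (1 : ℝ) ≤ 4))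
  obtain ⟨C', hC', hU⟩ := uni_th hn K.toKit
  obtain ⟨B, hB⟩ : ∃ B, B = C * (1 + C') := ⟨_, rfl⟩
  have hB0 : 0 ≤ B := by rw [hB]; positivity
  refine ⟨Real.exp (-B) * (1 / 2), by positivity, fun w hw r hr z hz => ?_⟩
  have h1 := low (w := w) hw.1.continuous (β := fun t => -B + aa K w 0 t)
    (continuous_const.add (tt_ca K hw.1)) (ρ₀ := 0) (ρ₁ := r / 2) le_rfl (by linarith [hr.1])
    (fun q _ hq => by
      rcases (norm_nonneg q).eq_or_lt with h | h
      · obtain rfl : q = 0 := norm_eq_zero.1 h.symm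
        have h2 : aa K w 0 0 = w 0 := cor_a0 K.toKit w 0
        rw [norm_zero]
        linarith
      · have h2 := aa_le K hw.1 (hw.lap_le hn) (x := q) h.le (by linarith [hr.2])
        have h3 := av_lip K.hψ.eta hw.1 (convex_closedBall (0 : E n) ‖q‖) (B := B) h
          (fun x hx u => by
            have hx' : ‖x‖ ≤ ‖q‖ := mem_closedBall_zero_iff.1 hx
            have hN : NL (sc w x ‖q‖) := hw.sc h.le (by linarith [hr.2])
            refine (hG _ hN u 1 one_pos).trans (mul_le_mul_of_nonneg_right ?_ (norm_nonneg u))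
            rw [hB, div_one]
            exact mul_le_mul_of_nonneg_left (by linarith [hU _ hN]) (by linarith))
          (x := q) (y := 0) (mem_closedBall_zero_iff.2 le_rfl) (mem_closedBall_self h.le)
        rw [sub_zero, mul_div_assoc, div_self h.ne', mul_one] at h3
        have h4 := (abs_le.1 h3).1
        unfold aa at h2 ⊢
        linarith)
    (x := z) (mem_ball_zero_iff.2 (by linarith [hr.2])) hz.ge
  simp only [Real.exp_add] at h1
  rw [intervalIntegral.integral_const_mul] at h1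
  refine le_trans ?_ h1
  have h5 := TT_scale hn K hw (r := r) (l := 1 / 2) ⟨hr.1.le, hr.2⟩ ⟨by norm_num, by norm_num⟩
  rw [show 1 / 2 * r = r / 2 by ring] at h5
  rw [mul_assoc]
  exact mul_le_mul_of_nonneg_left h5 (Real.exp_pos _).le

theorem TT_small (hn : 3 ≤ n) (K : Kit2 n) : ∃ θ : ℝ, 0 < θ ∧ ∀ w : E n → ℝ, NL w →
    ∀ r ∈ Ioc (0 : ℝ) 1, mass (sc w 0 r) ≤ θ → TT K w r ≤ 3 * (r * Real.exp (aa K w 0 r)) := by
  obtain ⟨C, hC, hL⟩ := est_L hn K.toKit (est_mono K.hψ (by norm_num : (1 : ℝ) ≤ 4))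
  obtain ⟨C', hC', hM⟩ := th_le_mass hn K.toKit
  have hCC : 0 < C * C' := by positivity
  refine ⟨1 / (2 * (C * C')), by positivity, fun w hw r hr hm => ?_⟩
  have h1 : ∀ t ∈ Icc (0 : ℝ) r, -(1 / 2) ≤ I K.ψ (lap (sc w 0 t)) := fun t ht => by
    have hN : NL (sc w 0 t) := hw.sc ht.1 (by rw [norm_zero]; linarith [ht.2, hr.2])
    have hN' : NL (sc w 0 r) := hw.sc hr.1.le (by rw [norm_zero]; linarith [hr.2])
    have h2 := (abs_le.1 (hL _ (hN.pos hn))).1
    have h3 : th K.toKit (sc w 0 t) ≤ th K.toKit (sc w 0 r) :=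
      M_mono hn K.hχ K.χ1 hw ⟨ht.1, ht.2.trans hr.2⟩ ⟨hr.1.le, hr.2⟩ ht.2
    have h4 := (h3.trans (hM _ hN')).trans (mul_le_mul_of_nonneg_left hm (by linarith))
    have h5 := mul_le_mul_of_nonneg_left h4 (by linarith : 0 ≤ C)
    have h6 : C * (C' * (1 / (2 * (C * C')))) = 1 / 2 := by field_simp
    linarith
  have hE : Real.exp (1 / 2 * Real.log 2) ≤ 1.42 := by
    have h2 : Real.exp (1 / 2 * Real.log 2) * Real.exp (1 / 2 * Real.log 2) = 2 := by
      rw [← Real.exp_add, show 1 / 2 * Real.log 2 + 1 / 2 * Real.log 2 = Real.log 2 by ring,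
        Real.exp_log two_pos]
    by_contra hc
    have h3 := not_le.1 hc
    nlinarith
  have h2 : ∀ t ∈ Icc (0 : ℝ) r,
      Real.exp (aa K w 0 (1 / 2 * t)) ≤ 1.42 * Real.exp (aa K w 0 t) := fun t ht => by
    rcases ht.1.eq_or_lt with h | h
    · rw [← h, mul_zero]
      linarith [Real.exp_pos (aa K w 0 0)]
    · have h3 := av_log_ge K.hψ hw.1 (0 : E n) (r₁ := 1 / 2 * t) (r₂ := t) (a := 1 / 2)
        (by positivity) (by linarith) fun s hs => h1 s ⟨by linarith [hs.1], hs.2.trans ht.2⟩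
      rw [show t / (1 / 2 * t) = 2 by field_simp] at h3
      have h4 : aa K w 0 (1 / 2 * t) ≤ 1 / 2 * Real.log 2 + aa K w 0 t := by
        unfold aa
        linarith
      refine (Real.exp_le_exp.2 h4).trans ?_
      rw [Real.exp_add]
      exact mul_le_mul_of_nonneg_right hE (Real.exp_pos _).le
  have h3 : TT K w (1 / 2 * r) ≤ 1 / 2 * (1.42 * TT K w r) := by
    rw [tt_sc, TT, ← intervalIntegral.integral_const_mul (1.42 : ℝ)]
    refine mul_le_mul_of_nonneg_left ?_ (by norm_num)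
    exact intervalIntegral.integral_mono_on hr.1.le
      (((tt_ce K hw.1).comp (continuous_const.mul continuous_id)).intervalIntegrable _ _)
      ((continuous_const.mul (tt_ce K hw.1)).intervalIntegrable _ _) h2
  have h4 : TT K w r - TT K w (1 / 2 * r) ≤ (r - 1 / 2 * r) * Real.exp (aa K w 0 (1 / 2 * r)) := by
    rw [tt_sub K hw.1, ← smul_eq_mul (r - 1 / 2 * r), ← intervalIntegral.integral_const]
    refine intervalIntegral.integral_mono_on (by linarith [hr.1])
      ((tt_ce K hw.1).intervalIntegrable _ _) (continuous_const.intervalIntegrable _ _)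
      fun t ht => Real.exp_le_exp.2 ?_
    exact tt_anti hn K hw ⟨by linarith [hr.1], by linarith [hr.2]⟩
      ⟨by linarith [hr.1, ht.1], by linarith [hr.2, ht.2]⟩ ht.1
  have h5 := mul_le_mul_of_nonneg_left (h2 r ⟨hr.1.le, le_rfl⟩) hr.1.le
  have h6 := mul_pos hr.1 (Real.exp_pos (aa K w 0 r))
  nlinarith

end Vale.Agent.P242
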