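import Vale.Agent.P242R.CdA

/-! P242R Trans (TASK, owner helper5; helper names start with tra_). Transfer of regularity to the approximating metrics. Let `η' = min η 1 / 10`, `t₁` from `Regular` for `η'`, `t₀ = min (t₁ / 2) (s / 4)`, `δ₀ = min (η' c t₀) (η' t₀)`; note `0 ≤ δ` (distortion at `x = y = 0`, `cd_self`) and `δ ≤ η' t`. For `t ∈ [c t₀, t₀]` take `F₀` from `Regular` at the scale `2 t` and `F = F₀ ∘ f`. If `cdist w 0 x < ofReal t` then `dist p (f x) ≤ t + δ < 2 t`. Distortion `≤ 2 η' t + δ`. Surjectivity: for `‖a‖ < t - η t` there is `q ∈ ball p (2t)` with `‖F₀ q - a‖ ≤ 2 η' t`, so `dist p q ≤ ‖a‖ + 4 η' t`; take `x` with `dist (f x) q ≤ δ`; `dd w 0 x ≤ dist p q + 2 δ < t` (`cd_lt_iff`), `‖F x - a‖ ≤ δ + 4 η' t` (if `η > 1` the ball is empty). -/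

namespace Vale.Agent.P242

open MeasureTheory Set Metric Filter Topology
open scoped ENNReal ContDiff RealInnerProductSpace

variable {n : ℕ}

theorem trans {X : Type} [MetricSpace X] {p : X} (hR : Regular n p) {η c s : ℝ} (hη : 0 < η)
    (hc : 0 < c) (hs : 0 < s) : ∃ t₀ δ₀ : ℝ, 0 < t₀ ∧ t₀ ≤ s ∧ 0 < δ₀ ∧
      ∀ (w : E n → ℝ) (f : E n → X) (δ : ℝ), Continuous w → δ ≤ δ₀ → Approx w f p s δ →
        ∀ t ∈ Icc (c * t₀) t₀, ∃ F : E n → E n, Approx w F 0 t (η * t) := by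
  obtain ⟨e, he, he1, he2⟩ : ∃ e : ℝ, 0 < e ∧ 10 * e ≤ η ∧ 10 * e ≤ 1 := by
    refine ⟨min η 1 / 10, by have := lt_min hη one_pos; linarith, ?_, ?_⟩
    · have := min_le_left η 1
      linarith
    · have := min_le_right η 1
      linarith
  obtain ⟨t₁, ht₁, H⟩ := hR e he
  obtain ⟨t₀, ht₀, h01, h02⟩ : ∃ t₀ : ℝ, 0 < t₀ ∧ t₀ ≤ t₁ / 2 ∧ t₀ ≤ s / 4 :=
    ⟨min (t₁ / 2) (s / 4), lt_min (by linarith) (by linarith), min_le_left _ _, min_le_right _ _⟩
  refine ⟨t₀, e * (c * t₀), ht₀, by linarith, by positivity, ?_⟩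
  intro w f δ hw hδ hA t ht
  obtain ⟨hf0, hdis, hsur⟩ := hA
  have ht0 : 0 < t := lt_of_lt_of_le (mul_pos hc ht₀) ht.1
  have hts : t ≤ s / 4 := ht.2.trans h02
  have hδt : δ ≤ e * t := hδ.trans (mul_le_mul_of_nonneg_left ht.1 he.le)
  have het : 0 < e * t := mul_pos he ht0
  have h10 : 10 * (e * t) ≤ η * t := by
    have := mul_le_mul_of_nonneg_right he1 ht0.le
    linarith
  have h11 : 10 * (e * t) ≤ t := by
    have := mul_le_mul_of_nonneg_right he2 ht0.le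
    linarith
  obtain ⟨F₀, hF0, hFd, hFs⟩ := H (2 * t) ⟨by linarith, by linarith [ht.2]⟩
  have h04 : (0 : E n) ∈ ball (0 : E n) 4 := mem_ball_self (by norm_num)
  have h00 : cdist w 0 0 < ENNReal.ofReal s := by
    rw [cd_self w h04]
    exact ENNReal.ofReal_pos.2 hs
  have hle : ENNReal.ofReal t ≤ ENNReal.ofReal s := ENNReal.ofReal_le_ofReal (by linarith)
  have hrad : ∀ x ∈ ball (0 : E n) 4, cdist w 0 x < ENNReal.ofReal s →
      |dist (f x) p - dd w 0 x| ≤ δ := by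
    intro x hx hxs
    have h1 := hdis 0 h04 x hx h00 hxs
    rw [hf0, dist_comm] at h1
    exact h1
  have hin : ∀ x ∈ ball (0 : E n) 4, cdist w 0 x < ENNReal.ofReal t → f x ∈ ball p (2 * t) := by
    intro x hx hxt
    have h1 := (abs_le.1 (hrad x hx (lt_of_lt_of_le hxt hle))).2
    have h2 := (cd_lt_iff hw h04 hx t).1 hxt
    rw [mem_ball]
    linarith
  have hp : p ∈ ball p (2 * t) := mem_ball_self (by linarith)
  refine ⟨fun x => F₀ (f x), ?_, ?_, ?_⟩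
  · change F₀ (f 0) = 0
    rw [hf0, hF0]
  · intro x hx y hy hxt hyt
    have h1 := abs_le.1 (hdis x hx y hy (lt_of_lt_of_le hxt hle) (lt_of_lt_of_le hyt hle))
    have h2 := abs_le.1 (hFd _ (hin x hx hxt) _ (hin y hy hyt))
    change |dist (F₀ (f x)) (F₀ (f y)) - (cdist w x y).toReal| ≤ η * t
    rw [dist_eq_norm, abs_le]
    constructor <;> linarith [h1.1, h1.2, h2.1, h2.2]
  · intro a ha
    rw [mem_ball_zero_iff] at ha
    obtain ⟨q, hq, hqa⟩ := hFs a (by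
      rw [mem_ball_zero_iff]
      nlinarith)
    have h1 := (abs_le.1 (hFd q hq p hp)).1
    rw [hF0, sub_zero] at h1
    have h2 : ‖F₀ q‖ ≤ ‖F₀ q - a‖ + ‖a‖ := by
      have := norm_add_le (F₀ q - a) a
      rwa [sub_add_cancel] at this
    have hq' := mem_ball.1 hq
    obtain ⟨x, hx, hxs, hxq⟩ := hsur q (by
      rw [mem_ball]
      linarith)
    have h3 := (abs_le.1 (hrad x hx hxs)).1
    have h4 := dist_triangle (f x) q p
    have hxt : cdist w 0 x < ENNReal.ofReal t := (cd_lt_iff hw h04 hx t).2 (by linarith)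
    refine ⟨x, hx, hxt, ?_⟩
    have h5 := (abs_le.1 (hFd _ (hin x hx hxt) q hq)).2
    have h6 := dist_triangle (F₀ (f x)) (F₀ q) a
    rw [dist_eq_norm (F₀ (f x)) (F₀ q), dist_eq_norm (F₀ q) a] at h6
    change dist (F₀ (f x)) a ≤ η * t
    linarith

end Vale.Agent.P242
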