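import Vale.Agent.P242R.Cone
import Vale.Agent.P242R.Ray
import Vale.Agent.P242R.TT
import Vale.Agent.P242R.Sep
import Vale.Agent.P242R.Trans
import Vale.Agent.P242.Lim

/-! P242R Main (owner helper5). -/

namespace Vale.Agent.P242

open MeasureTheory Set Metric Filter Topology
open scoped ENNReal ContDiff RealInnerProductSpace

variable {n : ℕ}

theorem eps_reg (hn : 3 ≤ n) : ∃ η c L ρ : ℝ, 0 < η ∧ 0 < c ∧ 1 ≤ L ∧ 0 < ρ ∧
    ∀ (w : E n → ℝ) (s : ℝ), RicNN w → 0 < s → Inside w s →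
      (∀ t ∈ Icc (c * s) s, ∃ F : E n → E n, Approx w F 0 t (η * t)) → Chart w L (ρ * s) := by
  obtain ⟨K⟩ := exists_kit2 n
  obtain ⟨θ1, hθ1, hch⟩ := chart_loc hn K
  obtain ⟨θ2, hθ2, hsm⟩ := TT_small hn K
  obtain ⟨c1, π0, κ1, hc1, hc1', hπ0, hκ1, hκ1', hcone⟩ := cone hn K (lt_min hθ1 hθ2)
  obtain ⟨κ, hκ, hκ', hpin⟩ := pinch hn K.toKit hπ0
  obtain ⟨C, hC, hray⟩ := ray hn K
  obtain ⟨c2, hc2, hlow⟩ := TT_low hn K
  have hC0 : 0 < C := by linarith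
  obtain ⟨η, hη⟩ : ∃ η, η = min (1 / 100) (c1 * c2 / (60 * C)) := ⟨_, rfl⟩
  have hη0 : 0 < η := hη ▸ lt_min (by norm_num) (by positivity)
  have hη1 : η ≤ 1 / 100 := hη ▸ min_le_left _ _
  have hη2 : η * (60 * C) ≤ c1 * c2 :=
    (le_div_iff₀ (by positivity)).1 (hη ▸ min_le_right _ _)
  refine ⟨η, κ, Real.exp 3, κ1 * κ / (180 * C), hη0, hκ, Real.one_le_exp (by norm_num),
    by positivity, fun w s hric hs hin hF => ?_⟩
  have hw := hric.nl
  have hc := hw.1.continuous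
  have b0 : (0 : E n) ∈ ball (0 : E n) 4 := mem_ball_self (by norm_num)
  have hB : ∀ z : E n, ‖z‖ ≤ 1 → z ∈ ball (0 : E n) 4 := fun z hz =>
    mem_ball_zero_iff.2 (by linarith)
  have h1 : ∀ z : E n, ‖z‖ = 1 / 2 → s ≤ dd w 0 z := fun z hz => by
    have hz4 := hB z (by linarith)
    by_contra h
    exact absurd (hin z hz4 ((cd_lt_iff hc b0 hz4 s).2 (not_le.1 h))) (by linarith)
  obtain ⟨r2, hr2, hT2⟩ : ∃ r2 ∈ Icc (0 : ℝ) 1, TT K w r2 = s / (6 * C) := by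
    obtain ⟨z, hz, hd⟩ := hray w hw 1 ⟨one_pos, le_rfl⟩
    refine intermediate_value_Icc zero_le_one (TT_cont K hw.1).continuousOn ⟨?_, ?_⟩
    · rw [TT_zero]; positivity
    · rw [div_le_iff₀ (by positivity)]
      have := TT_pos K hw.1 one_pos
      nlinarith [h1 z hz]
  have hr20 : 0 < r2 := by
    refine hr2.1.lt_of_ne fun h => ?_
    rw [← h, TT_zero] at hT2
    exact absurd hT2 (by positivity)
  obtain ⟨r, hr, hde⟩ := hpin w hw r2 ⟨hr20, hr2.2⟩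
  have hr0 : 0 < r := lt_of_lt_of_le (by positivity) hr.1
  have hr1 : r ≤ 1 := hr.2.trans hr2.2
  have hT0 := TT_pos K hw.1 hr0
  have e2 : 6 * C * TT K w r2 = s := by rw [hT2]; field_simp
  have hTu : 6 * C * TT K w r ≤ s :=
    e2 ▸ mul_le_mul_of_nonneg_left (TT_mono K hw.1 hr.2) (by positivity)
  have hTl : κ * s ≤ 6 * C * TT K w r := by
    have := mul_le_mul_of_nonneg_left ((TT_scale hn K hw hr2 ⟨hκ.le, hκ'⟩).trans
      (TT_mono K hw.1 hr.1)) (show 0 ≤ 6 * C by positivity)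
    rw [← e2]
    linarith
  have hmass : mass (sc w 0 (κ1 * r)) ≤ min θ1 θ2 := by
    by_contra hm
    obtain ⟨J, hJ, hJ1, hJ2⟩ := hcone w hw r ⟨hr0, hr1⟩ hde (not_le.1 hm).le
    obtain ⟨z0, hz0, hd0⟩ := hray w hw r ⟨hr0, hr1⟩
    obtain ⟨F, hF⟩ := hF _ ⟨hTl, hTu⟩
    have hJc := mul_nonneg hc1.le hJ
    obtain ⟨x, y, hx, hy, hxy⟩ := sep hn hc (ϱ := r / 2) (by positivity) (by linarith)
      (by positivity) hη0 hη1 hF (fun z hz => hTu.trans (h1 z hz)) fun z hz => by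
        have k1 := dd_tri hc b0 (hB z0 (by linarith)) (hB z (by linarith))
        linarith [hJ1 z0 hz0, hJ2 z0 z hz0 hz]
    have k1 := hJ2 x y hx hy
    have k2 := mul_le_mul_of_nonneg_left (add_le_add (hJ1 x hx) (hJ1 y hy))
      (show 0 ≤ 1 - c1 by linarith)
    have k3 := mul_le_mul_of_nonneg_left
      (add_le_add (hlow w hw r ⟨hr0, hr1⟩ x hx) (hlow w hw r ⟨hr0, hr1⟩ y hy)) hc1.le
    have k4 := mul_le_mul_of_nonneg_right hη2 hT0.le
    have k5 : 0 < c1 * c2 * TT K w r := by positivity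
    linarith
  have hr' : κ1 * r ∈ Ioc (0 : ℝ) 1 := ⟨by positivity, by nlinarith⟩
  refine (hch w hw _ hr' (hmass.trans (min_le_left _ _))).shrink (Real.exp_pos _)
    (by positivity) ?_
  have k1 := hsm w hw _ hr' (hmass.trans (min_le_right _ _))
  have k2 := TT_scale hn K hw ⟨hr0.le, hr1⟩ ⟨hκ1.le, hκ1'⟩
  have k3 := mul_le_mul_of_nonneg_left hTl hκ1.le
  have k4 := mul_le_mul_of_nonneg_left (k2.trans k1) (show 0 ≤ 6 * C by positivity)
  rw [div_mul_eq_mul_div, div_le_div_iff₀ (by positivity) (by norm_num)]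
  linarith

theorem main2 (n : ℕ) (hn : 3 ≤ n) :
    (∃ η c L ρ : ℝ, 0 < η ∧ 0 < c ∧ 1 ≤ L ∧ 0 < ρ ∧
      ∀ (w : E n → ℝ) (s : ℝ), RicNN w → 0 < s → Inside w s →
        (∀ t ∈ Icc (c * s) s, ∃ F : E n → E n, Approx w F 0 t (η * t)) → Chart w L (ρ * s)) ∧
    ∀ (X : Type) [MetricSpace X] [ProperSpace X] (p : X) (s : ℝ) (w : ℕ → E n → ℝ)
      (f : ℕ → E n → X) (δ : ℕ → ℝ), 0 < s → (∀ k, RicNN (w k)) → (∀ k, Inside (w k) s) →
      Tendsto δ atTop (𝓝 0) → (∀ k, Approx (w k) (f k) p s (δ k)) → Regular n p →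
      HasChart n p := by
  refine ⟨eps_reg hn, fun X _ _ p s w f δ hs hw hin hδ ha hR => ?_⟩
  obtain ⟨η, c, L, ρ, hη, hc, hL, hρ, h⟩ := eps_reg hn
  obtain ⟨t₀, δ₀, ht, hts, hδ0, htr⟩ := trans hR hη hc hs
  obtain ⟨N, hN⟩ := eventually_atTop.1 (hδ.eventually (ge_mem_nhds hδ0))
  refine lim_chart (w := fun k => w (k + N)) (f := fun k => f (k + N)) (δ := fun k => δ (k + N))
    hL (mul_pos hρ ht) hs (fun k => ?_) (hδ.comp (tendsto_add_atTop_nat N)) fun k => ha _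
  exact h _ t₀ (hw _) ht
    (fun x hx hd => hin _ x hx (hd.trans_le (ENNReal.ofReal_le_ofReal hts)))
    (htr _ _ _ (hw _).1.continuous (hN _ (Nat.le_add_left N k)) (ha _))

end Vale.Agent.P242
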