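import Vale.Agent.P242R.Defs

/-! P242R CdA (TASK, owner helper5; helper names start with cda_). Basic facts on the distance. `cd_sub`: for `a < b` use the curve `t ↦ γ (a + (b - a) * t)`; `deriv` of a composition with an affine map needs no differentiability (`deriv_comp_mul_left`, `deriv_comp_const_add`), change of variables by `lintegral_image_eq_lintegral_abs_deriv_mul` or `Measure.map` lemmas (`Real.map_volume_mul_left`, `measurePreserving_add_left`); for `a = b` use the constant curve.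
`dd_seg`: the curve `t ↦ x + t • (y - x)`, `ofReal_integral_eq_lintegral_ofReal`, `intervalIntegral.integral_of_le`, `integral_Icc_eq_integral_Ioc`. `dd_comm`: reflect `t ↦ γ (1 - t)` (`deriv_comp_const_sub`, `lintegral_sub_left_eq_self` with indicators or `Measure.measurePreserving_sub_left`). -/

namespace Vale.Agent.P242

open MeasureTheory Set Metric Filter Topology
open scoped ENNReal ContDiff RealInnerProductSpace

variable {n : ℕ}

variable {w : E n → ℝ} {x y : E n}

theorem cda_aff {γ : ℝ → E n} {K : NNReal} {S : Set ℝ} (a c : ℝ)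
    (hS : (fun t => a + c * t) '' Icc 0 1 = S) (hγ : LipschitzOnWith K γ S)
    (hm : MapsTo γ S (ball 0 4)) : cdist w (γ a) (γ (a + c)) ≤
      ∫⁻ t in S, ENNReal.ofReal (Real.exp (w (γ t)) * ‖deriv γ t‖) := by
  have m1 : MapsTo (fun t => a + c * t) (Icc 0 1) S := hS ▸ mapsTo_image _ _
  have l1 : LipschitzWith ‖c‖₊ fun t => a + c * t := LipschitzWith.of_dist_le_mul fun s t => by
    rw [dist_add_left, Real.dist_eq, ← mul_sub, abs_mul, coe_nnnorm, Real.norm_eq_abs, Real.dist_eq]
  refine (iInf₂_le (fun t => γ (a + c * t)) ⟨⟨_, hγ.comp l1.lipschitzOnWith m1⟩, hm.comp m1,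
    by simp, by simp⟩).trans ?_
  have e : ∀ t, ENNReal.ofReal (Real.exp (w (γ (a + c * t))) * ‖deriv (fun t => γ (a + c * t)) t‖) =
      ENNReal.ofReal |c| * ENNReal.ofReal (Real.exp (w (γ (a + c * t))) * ‖deriv γ (a + c * t)‖) :=
    fun t => by
      rw [deriv_comp_mul_left c (fun s => γ (a + s)) t, deriv_comp_const_add, norm_smul,
        Real.norm_eq_abs, ← ENNReal.ofReal_mul (abs_nonneg c), mul_left_comm]
  simp only [e]
  rcases eq_or_ne c 0 with rfl | hc
  · simp
  · rw [← hS, lintegral_image_eq_lintegral_abs_deriv_mul measurableSet_Icc (f' := fun _ => c)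
      (fun t _ => ?_) fun s _ t _ h => mul_left_cancel₀ hc (add_left_cancel h)]
    simpa using (((hasDerivAt_id t).const_mul c).const_add a).hasDerivWithinAt

theorem cd_sub {γ : ℝ → E n} {K : NNReal} {a b : ℝ} (hab : a ≤ b)
    (hγ : LipschitzOnWith K γ (Icc a b)) (hm : MapsTo γ (Icc a b) (ball 0 4)) :
    cdist w (γ a) (γ b) ≤
      ∫⁻ t in Icc a b, ENNReal.ofReal (Real.exp (w (γ t)) * ‖deriv γ t‖) := by
  have := cda_aff (w := w) a (b - a) (by
    rw [← image_image (fun t => a + t) fun t => (b - a) * t,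
      image_mul_left_Icc (sub_nonneg.2 hab) zero_le_one, image_const_add_Icc]
    simp) hγ hm
  rwa [add_sub_cancel] at this

theorem cd_seg (hw : Continuous w) (hx : x ∈ ball (0 : E n) 4) (hy : y ∈ ball (0 : E n) 4) :
    cdist w x y ≤
      ENNReal.ofReal (‖y - x‖ * ∫ t in (0 : ℝ)..1, Real.exp (w (x + t • (y - x)))) := by
  have d1 : ∀ t : ℝ, HasDerivAt (fun t : ℝ => x + t • (y - x)) (y - x) t := fun t => by
    simpa using ((hasDerivAt_id t).smul_const (y - x)).const_add x
  have l1 : LipschitzWith ‖y - x‖₊ fun t : ℝ => x + t • (y - x) :=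
    LipschitzWith.of_dist_le_mul fun s t => by
      rw [dist_add_left, dist_eq_norm, ← sub_smul, norm_smul, coe_nnnorm, dist_eq_norm, mul_comm]
  refine (iInf₂_le (fun t : ℝ => x + t • (y - x)) ⟨⟨_, l1.lipschitzOnWith⟩,
    fun t ht => (convex_ball 0 4).add_smul_sub_mem hx hy ht, by simp, by simp⟩).trans_eq ?_
  have c1 : Continuous fun t : ℝ => Real.exp (w (x + t • (y - x))) * ‖y - x‖ := by fun_prop
  simp only [fun t => (d1 t).deriv]
  rw [mul_comm, ← intervalIntegral.integral_mul_const, intervalIntegral.integral_of_le zero_le_one,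
    ← integral_Icc_eq_integral_Ioc, ofReal_integral_eq_lintegral_ofReal c1.integrableOn_Icc
      (Eventually.of_forall fun t => by positivity)]

theorem cd_fin (hw : Continuous w) (hx : x ∈ ball (0 : E n) 4) (hy : y ∈ ball (0 : E n) 4) :
    cdist w x y ≠ ⊤ := ne_top_of_le_ne_top ENNReal.ofReal_ne_top (cd_seg hw hx hy)

theorem dd_seg (hw : Continuous w) (hx : x ∈ ball (0 : E n) 4) (hy : y ∈ ball (0 : E n) 4) :
    dd w x y ≤ ‖y - x‖ * ∫ t in (0 : ℝ)..1, Real.exp (w (x + t • (y - x))) :=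
  ENNReal.toReal_le_of_le_ofReal (mul_nonneg (norm_nonneg _)
    (intervalIntegral.integral_nonneg zero_le_one fun _ _ => (Real.exp_pos _).le)) (cd_seg hw hx hy)

theorem dd_nonneg (w : E n → ℝ) (x y : E n) : 0 ≤ dd w x y := ENNReal.toReal_nonneg

theorem cd_self (w : E n → ℝ) (hx : x ∈ ball (0 : E n) 4) : cdist w x x = 0 :=
  le_antisymm ((iInf₂_le (fun _ => x) ⟨⟨0, (LipschitzWith.const x).lipschitzOnWith⟩,
    fun _ _ => hx, rfl, rfl⟩).trans_eq (by simp)) bot_le

theorem cda_comm (w : E n → ℝ) (x y : E n) : cdist w x y ≤ cdist w y x := by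
  refine le_iInf₂ fun γ ⟨⟨K, hK⟩, hm, h0, h1⟩ => ?_
  have := cda_aff (w := w) 1 (-1) (by
    simp only [neg_one_mul, ← sub_eq_add_neg, image_const_sub_Icc, sub_self, sub_zero]) hK hm
  rwa [add_neg_cancel, h0, h1] at this

theorem cd_comm (w : E n → ℝ) (x y : E n) : cdist w x y = cdist w y x :=
  le_antisymm (cda_comm w x y) (cda_comm w y x)

theorem dd_comm (w : E n → ℝ) (x y : E n) : dd w x y = dd w y x := by
  rw [dd, dd, cd_comm]

theorem cd_lt_iff (hw : Continuous w) (hx : x ∈ ball (0 : E n) 4) (hy : y ∈ ball (0 : E n) 4)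
    (s : ℝ) : cdist w x y < ENNReal.ofReal s ↔ dd w x y < s :=
  ENNReal.lt_ofReal_iff_toReal_lt (cd_fin hw hx hy)

theorem dd_le_of_le {s : ℝ} (hs : 0 ≤ s) (h : cdist w x y ≤ ENNReal.ofReal s) :
    dd w x y ≤ s := ENNReal.toReal_le_of_le_ofReal hs h

end Vale.Agent.P242
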