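import Vale.Agent.P242R.CdA

/-! P242R CdB (TASK, owner helper5; helper names start with cdb_). Triangle inequality. Concatenate on `Icc 0 2`: `γ t = if t ≤ 1 then γ₁ t else γ₂ (t - 1)` (or `γ₁ (min t 1) + γ₂ (max t 1 - 1) - y`, a sum of Lipschitz maps), `cd_sub`; off the point `1` the derivative agrees (`Filter.EventuallyEq.deriv_eq`), split the integral (`lintegral_union_le`, `Ioo_ae_eq_Icc`, `setLIntegral_congr`, translation invariance). Then `ENNReal.iInf_add`, `ENNReal.add_iInf` or `ENNReal.le_iInf_add_iInf`.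
`dd_cont`: on a closed ball inside `ball 0 4` the function `exp w` is bounded by `B`, so `|dd x y - dd x z| ≤ dd y z ≤ B ‖z - y‖` (`dd_seg`). -/

namespace Vale.Agent.P242

open MeasureTheory Set Metric Filter Topology
open scoped ENNReal ContDiff RealInnerProductSpace

variable {n : ℕ}

variable {w : E n → ℝ} {x y z : E n}

theorem cd_tri (w : E n → ℝ) (x y z : E n) : cdist w x z ≤ cdist w x y + cdist w y z := by
  refine ENNReal.le_iInf₂_add_iInf₂ ?_
  rintro γ₁ ⟨⟨K₁, l₁⟩, m₁, rfl, e₁⟩ γ₂ ⟨⟨K₂, l₂⟩, m₂, e₂, rfl⟩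
  obtain ⟨γ, hγ⟩ : ∃ γ : ℝ → E n, γ = fun t => γ₁ (min t 1) + γ₂ (max t 1 - 1) - y := ⟨_, rfl⟩
  have a₁ : ∀ t, t ≤ 1 → γ t = γ₁ t := fun t ht => by
    rw [hγ]
    dsimp only
    rw [min_eq_left ht, max_eq_right ht, sub_self, e₂, add_sub_cancel_right]
  have a₂ : ∀ t, 1 ≤ t → γ t = γ₂ (t - 1) := fun t ht => by
    rw [hγ]
    dsimp only
    rw [min_eq_right ht, max_eq_left ht, e₁, add_sub_cancel_left]
  have l : ∃ K, LipschitzOnWith K γ (Icc 0 2) := by
    have b₁ := l₁.comp (s := Icc (0 : ℝ) 2) (LipschitzWith.id.min_const 1).lipschitzOnWith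
      fun t ht => ⟨le_min ht.1 zero_le_one, min_le_right _ _⟩
    have b₂ := l₂.comp (s := Icc (0 : ℝ) 2)
      ((LipschitzWith.id.max_const 1).sub (LipschitzWith.const 1)).lipschitzOnWith
      fun t ht => ⟨sub_nonneg.2 (le_max_right _ _),
        sub_le_iff_le_add.2 (max_le (by linarith [ht.2] : t ≤ 1 + 1) (by norm_num))⟩
    have b₃ := (b₁.add b₂).add (LipschitzWith.const (-y)).lipschitzOnWith
    refine ⟨K₁ * 1 + K₂ * (1 + 0) + 0, fun s hs t ht => ?_⟩
    have b₄ := b₃ hs ht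
    rw [hγ]
    simp only [sub_eq_add_neg] at b₄ ⊢
    exact b₄
  obtain ⟨K, l⟩ := l
  have m : MapsTo γ (Icc 0 2) (ball 0 4) := fun t ht => by
    rcases le_total t 1 with k | k
    · rw [a₁ t k]
      exact m₁ ⟨ht.1, k⟩
    · rw [a₂ t k]
      exact m₂ ⟨by linarith, by linarith [ht.2]⟩
  have h := cd_sub (w := w) (by norm_num) l m
  rw [a₁ 0 zero_le_one, a₂ 2 (by norm_num), show (2 : ℝ) - 1 = 1 by norm_num,
    ← Icc_union_Icc_eq_Icc (zero_le_one' ℝ) one_le_two] at h
  have ne : ∀ᵐ t : ℝ, t ≠ 1 := Measure.ae_ne _ _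
  refine h.trans ((lintegral_union_le _ _ _).trans (add_le_add (le_of_eq ?_) (le_of_eq ?_)))
  · refine setLIntegral_congr_fun_ae measurableSet_Icc (ne.mono fun t ht hm => ?_)
    have ev : γ =ᶠ[𝓝 t] γ₁ :=
      (eventually_lt_nhds (lt_of_le_of_ne hm.2 ht)).mono fun s hs => a₁ s hs.le
    rw [ev.deriv_eq, a₁ t hm.2]
  · rw [← (measurePreserving_sub_right volume (1 : ℝ)).setLIntegral_comp_preimage_emb
      (measurableEmbedding_subRight 1) _ (Icc 0 1), preimage_sub_const_Icc, zero_add, one_add_one_eq_two]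
    refine setLIntegral_congr_fun_ae measurableSet_Icc (ne.mono fun t ht hm => ?_)
    have ev : γ =ᶠ[𝓝 t] fun s => γ₂ (s - 1) :=
      (eventually_gt_nhds (lt_of_le_of_ne hm.1 ht.symm)).mono fun s hs => a₂ s hs.le
    rw [ev.deriv_eq, a₂ t hm.1, deriv_comp_sub_const]

theorem dd_tri (hw : Continuous w) (hx : x ∈ ball (0 : E n) 4) (hy : y ∈ ball (0 : E n) 4)
    (hz : z ∈ ball (0 : E n) 4) : dd w x z ≤ dd w x y + dd w y z :=
  ENNReal.toReal_le_add (cd_tri w x y z) (cd_fin hw hx hy) (cd_fin hw hy hz)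

theorem cdb_le (hw : Continuous w) {r B : ℝ} (hr : r < 4)
    (hB : ∀ p ∈ closedBall (0 : E n) r, Real.exp (w p) ≤ B) (hy : y ∈ closedBall (0 : E n) r)
    (hz : z ∈ closedBall (0 : E n) r) : dd w y z ≤ ‖z - y‖ * B := by
  refine (dd_seg hw (closedBall_subset_ball hr hy) (closedBall_subset_ball hr hz)).trans
    (mul_le_mul_of_nonneg_left ?_ (norm_nonneg _))
  have h1 := intervalIntegral.integral_mono_on (μ := volume)
    (f := fun t : ℝ => Real.exp (w (y + t • (z - y)))) (g := fun _ => B) zero_le_one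
    (Continuous.intervalIntegrable (by fun_prop) _ _) intervalIntegrable_const
    fun t ht => hB _ ((convex_closedBall (0 : E n) r).add_smul_sub_mem hy hz ht)
  simpa using h1

theorem dd_cont (hw : Continuous w) (hx : x ∈ ball (0 : E n) 4) :
    ContinuousOn (dd w x) (ball (0 : E n) 4) := by
  intro y hy
  refine ContinuousAt.continuousWithinAt ?_
  have hy4 : dist y 0 < 4 := mem_ball.1 hy
  obtain ⟨r, r1, r2⟩ := exists_between hy4
  obtain ⟨B, hB⟩ := ((isCompact_closedBall (0 : E n) r).image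
    (Real.continuous_exp.comp hw)).bddAbove
  have hB' : ∀ p ∈ closedBall (0 : E n) r, Real.exp (w p) ≤ B := fun p hp => hB ⟨p, hp, rfl⟩
  have h0 : Tendsto (fun z : E n => ‖z - y‖ * B) (𝓝 y) (𝓝 0) := by
    have h1 : Continuous fun z : E n => ‖z - y‖ * B := by fun_prop
    simpa using h1.tendsto y
  refine tendsto_iff_dist_tendsto_zero.2 (squeeze_zero' (Eventually.of_forall fun _ => dist_nonneg)
    ?_ h0)
  filter_upwards [isOpen_ball.mem_nhds (mem_ball.2 r1)] with z hz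
  have hz' := ball_subset_closedBall hz
  have hz4 := closedBall_subset_ball r2 hz'
  have h1 := cdb_le hw r2 hB' (mem_closedBall.2 r1.le) hz'
  have h2 := dd_tri hw hx hy hz4
  have h3 := dd_tri hw hx hz4 hy
  rw [dd_comm w z y] at h3
  rw [Real.dist_eq, abs_le]
  constructor <;> linarith

end Vale.Agent.P242
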