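import Vale.Agent.P242R.Up2

/-! P242R Chart2 (TASK, owner helper5; helper names start with ch2_). The chart in scaled form; adapt `FlowD.chart` (P242/Met.lean). With `σ = l * exp c` the chart is `a ↦ l • G (Φ 0 + σ⁻¹ • a)`. With `V = fun p => sc w 0 l p - c`: for a curve `γ` the curve `l⁻¹ • γ` has `V`-length `σ⁻¹` times the `w`-length of `γ` (`lintegral_const_mul'`), and `FlowD.curve` applies to every Lipschitz curve (no containment needed). Upper bound: `cdist w (l • x) (l • y) ≤ ofReal σ * cdist V x y` (scale the curves, `l ≤ 1` keeps them in the ball), then `met_up`.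
`Chart.shrink`: same map; if `x = G a` and `cdist 0 x < ρ' / L` then `‖0 - a‖ / L < ρ' / L`. -/

namespace Vale.Agent.P242

open MeasureTheory Set Metric Filter Topology
open scoped ENNReal ContDiff RealInnerProductSpace

variable {n : ℕ}

theorem ch2_len (w : E n → ℝ) {l : ℝ} (c : ℝ) (hl : 0 < l) (γ : ℝ → E n) :
    ∫⁻ t in Icc (0 : ℝ) 1,
        ENNReal.ofReal (Real.exp (w (l • γ t)) * ‖deriv (fun t => l • γ t) t‖) =
      ENNReal.ofReal (l * Real.exp c) * ∫⁻ t in Icc (0 : ℝ) 1,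
        ENNReal.ofReal (Real.exp (sc w 0 l (γ t) - c) * ‖deriv γ t‖) := by
  rw [← lintegral_const_mul' _ _ ENNReal.ofReal_ne_top]
  refine lintegral_congr fun t => ?_
  have e : Real.exp (w (l • γ t)) = Real.exp c * Real.exp (w (l • γ t) - c) := by
    rw [← Real.exp_add, add_sub_cancel]
  rw [← ENNReal.ofReal_mul (by positivity), deriv_fun_const_smul_field, norm_smul,
    Real.norm_of_nonneg hl.le, sc, zero_add, e]
  congr 1
  ring

theorem ch2_lip {γ : ℝ → E n} {K : NNReal} (h : LipschitzOnWith K γ (Icc 0 1)) (l : ℝ) :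
    ∃ K', LipschitzOnWith K' (fun t => l • γ t) (Icc 0 1) :=
  ⟨_, (lipschitzWith_smul l).comp_lipschitzOnWith h⟩

theorem ch2_len' (w : E n → ℝ) {l : ℝ} (c : ℝ) (hl : 0 < l) (γ : ℝ → E n) :
    ∫⁻ t in Icc (0 : ℝ) 1, ENNReal.ofReal (Real.exp (w (γ t)) * ‖deriv γ t‖) =
      ENNReal.ofReal (l * Real.exp c) * ∫⁻ t in Icc (0 : ℝ) 1,
        ENNReal.ofReal (Real.exp (sc w 0 l (l⁻¹ • γ t) - c) * ‖deriv (fun t => l⁻¹ • γ t) t‖) := by
  have h := ch2_len w c hl fun t => l⁻¹ • γ t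
  simp only [smul_inv_smul₀ hl.ne'] at h
  exact h

theorem ch2_cd (w : E n → ℝ) {l : ℝ} (c : ℝ) (hl : 0 < l) (hl1 : l ≤ 1) (x y : E n) :
    cdist w (l • x) (l • y) ≤
      ENNReal.ofReal (l * Real.exp c) * cdist (fun p => sc w 0 l p - c) x y := by
  have h0 : ENNReal.ofReal (l * Real.exp c) ≠ 0 := (ENNReal.ofReal_pos.2 (by positivity)).ne'
  unfold cdist
  simp only [ENNReal.mul_iInf_of_ne h0 ENNReal.ofReal_ne_top]
  refine le_iInf₂ fun γ ⟨⟨K, hK⟩, hm, e0, e1⟩ => iInf₂_le_of_le (fun t => l • γ t)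
    ⟨ch2_lip hK l, fun t ht => ?_, by simp only [e0], by simp only [e1]⟩ (ch2_len w c hl γ).le
  have h1 := mem_ball_zero_iff.1 (hm ht)
  rw [mem_ball_zero_iff, norm_smul, Real.norm_of_nonneg hl.le]
  exact (mul_le_of_le_one_left (norm_nonneg _) hl1).trans_lt h1

theorem FlowD.chart2 {w : E n → ℝ} {l c A η : ℝ} {Φ G : E n → E n}
    (h : FlowD (fun p => sc w 0 l p - c) A η Φ G) (hw : Continuous w) (hA : 1 ≤ A) (hη : 0 < η)
    (hl : 0 < l) (hl1 : l ≤ 1) : Chart w A (l * Real.exp c / 10) := by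
  have hV : Continuous fun p => sc w 0 l p - c := by
    unfold sc
    fun_prop
  have hA0 : 0 < A := by linarith
  obtain ⟨σ, hσ⟩ : ∃ σ, σ = l * Real.exp c := ⟨_, rfl⟩
  have hσ0 : 0 < σ := by
    rw [hσ]
    positivity
  have hp : ‖Φ 0‖ ≤ 1 / 10 := by simpa using (h.mv 0 (mem_ball_self (by norm_num))).1
  have b0 : ∀ a ∈ ball (0 : E n) (σ / 10), ‖σ⁻¹ • a‖ < 1 / 10 := fun a ha => by
    rw [norm_smul, norm_inv, Real.norm_of_nonneg hσ0.le, inv_mul_lt_iff₀ hσ0]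
    linarith [mem_ball_zero_iff.1 ha]
  have b1 : ∀ a ∈ ball (0 : E n) (σ / 10), Φ 0 + σ⁻¹ • a ∈ ball (0 : E n) (1 / 5) := fun a ha => by
    rw [mem_ball_zero_iff]
    linarith [norm_add_le (Φ 0) (σ⁻¹ • a), b0 a ha]
  have b2 : ∀ a ∈ ball (0 : E n) (σ / 10), ‖G (Φ 0 + σ⁻¹ • a)‖ ≤ 3 / 10 := fun a ha => by
    have h1 := (h.mv _ (ball_subset_ball (by norm_num) (b1 a ha))).2
    have h2 := mem_ball_zero_iff.1 (b1 a ha)
    linarith [norm_le_insert' (G (Φ 0 + σ⁻¹ • a)) (Φ 0 + σ⁻¹ • a)]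
  have b3 : ∀ a ∈ ball (0 : E n) (σ / 10), Φ (G (Φ 0 + σ⁻¹ • a)) = Φ 0 + σ⁻¹ • a := fun a ha =>
    (h.inv _ (ball_subset_ball (by norm_num) (b1 a ha))).2
  have b4 : ∀ a b : E n, ‖a - b‖ = σ * ‖σ⁻¹ • a - σ⁻¹ • b‖ := fun a b => by
    rw [← smul_sub, norm_smul, norm_inv, Real.norm_of_nonneg hσ0.le, mul_inv_cancel_left₀ hσ0.ne']
  rw [← hσ]
  refine ⟨fun a => l • G (Φ 0 + σ⁻¹ • a), ?_, fun a ha => ?_,
    fun a ha b hb => ⟨le_iInf₂ fun γ ⟨⟨K, hK⟩, _, h0, h1⟩ => ?_, ?_⟩, fun x _ hx => ?_⟩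
  · simp [(h.inv 0 (mem_ball_self (by norm_num))).1]
  · rw [mem_ball_zero_iff, norm_smul, Real.norm_of_nonneg hl.le]
    linarith [mul_le_of_le_one_left (norm_nonneg (G (Φ 0 + σ⁻¹ • a))) hl1, b2 a ha]
  · obtain ⟨K', hK'⟩ := ch2_lip hK l⁻¹
    have e0 : l⁻¹ • γ 0 = G (Φ 0 + σ⁻¹ • a) := by rw [h0, inv_smul_smul₀ hl.ne']
    have e1 : l⁻¹ • γ 1 = G (Φ 0 + σ⁻¹ • b) := by rw [h1, inv_smul_smul₀ hl.ne']
    rw [ENNReal.ofReal_div_of_pos hA0, ch2_len' w c hl γ, ← hσ, b4, ENNReal.ofReal_mul hσ0.le]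
    refine ENNReal.div_le_of_le_mul' ?_
    rw [mul_left_comm]
    refine mul_le_mul_right ?_ _
    rcases h.curve hV hA0.le hη hK' (by simp only [e0]; exact b2 a ha)
      (by simp only [e0, b3 a ha]; exact (mem_ball_zero_iff.1 (b1 a ha)).le) with h2 | ⟨-, h2⟩
    · refine (ENNReal.ofReal_le_ofReal ?_).trans h2
      linarith [norm_sub_le (σ⁻¹ • a) (σ⁻¹ • b), b0 a ha, b0 b hb]
    · simp only [e0, e1, b3 a ha, b3 b hb, add_sub_add_left_eq_sub] at h2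
      rwa [norm_sub_rev] at h2
  · have h1 := met_up h hV hA0.le hη (b1 a ha) (b1 b hb)
    rw [add_sub_add_left_eq_sub] at h1
    refine (ch2_cd w c hl hl1 _ _).trans ?_
    rw [← hσ, b4 a b, mul_left_comm, ENNReal.ofReal_mul hσ0.le]
    exact mul_le_mul_right h1 _
  · obtain ⟨γ, hγ⟩ := iInf_lt_iff.1 hx
    obtain ⟨⟨⟨K, hK⟩, -, h0, h1⟩, h2⟩ := iInf_lt_iff.1 hγ
    obtain ⟨K', hK'⟩ := ch2_lip hK l⁻¹
    rw [ENNReal.ofReal_div_of_pos hA0, ch2_len' w c hl γ, ← hσ] at h2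
    have h3 := ENNReal.mul_lt_of_lt_div' h2
    rw [mul_left_comm, show σ / 10 = σ * (1 / 10) by ring, ENNReal.ofReal_mul hσ0.le] at h3
    replace h3 := lt_of_mul_lt_mul_left' h3
    rcases h.curve hV hA0.le hη hK' (by simp only [h0, smul_zero, norm_zero]; norm_num)
      (by simp only [h0, smul_zero]; linarith) with h4 | ⟨h4, h5⟩
    · have h5 := (ENNReal.ofReal_lt_ofReal_iff (by norm_num)).1 (h4.trans_lt h3)
      norm_num at h5
    · have h6 := (ENNReal.ofReal_lt_ofReal_iff (by norm_num)).1 (h5.trans_lt h3)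
      simp only [h0, h1, smul_zero] at h4 h6
      refine ⟨σ • (Φ (l⁻¹ • x) - Φ 0), ?_, ?_⟩
      · rw [mem_ball_zero_iff, norm_smul, Real.norm_of_nonneg hσ0.le]
        nlinarith
      · simp only [inv_smul_smul₀ hσ0.ne', add_sub_cancel, (h.inv _ (mem_ball_zero_iff.2 h4)).1,
          smul_inv_smul₀ hl.ne']

theorem Chart.shrink {w : E n → ℝ} {L ρ ρ' : ℝ} (h : Chart w L ρ) (hL : 0 < L) (h0 : 0 < ρ')
    (h1 : ρ' ≤ ρ) : Chart w L ρ' := by
  obtain ⟨G, g0, g1, g2, g3⟩ := h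
  have hs : ball (0 : E n) ρ' ⊆ ball 0 ρ := ball_subset_ball h1
  refine ⟨G, g0, g1.mono_left hs, fun a ha b hb => g2 a (hs ha) b (hs hb), fun x hx hd => ?_⟩
  obtain ⟨a, ha, rfl⟩ := g3 x hx (hd.trans_le (ENNReal.ofReal_le_ofReal (by gcongr)))
  have h2 := (g2 0 (mem_ball_self (h0.trans_le h1)) a ha).1
  rw [g0, zero_sub, norm_neg] at h2
  have h3 := (ENNReal.ofReal_lt_ofReal_iff (div_pos h0 hL)).1 (h2.trans_lt hd)
  exact ⟨a, mem_ball_zero_iff.2 ((div_lt_div_iff_of_pos_right hL).1 h3), rfl⟩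

end Vale.Agent.P242
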