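import Vale.Agent.P242R.Defs

/-! P242R Rot (TASK, owner helper5; helper names start with rot_). A real variable estimate. `h = a / 64`, `q s = m + s • (x - m) = (1 - s) • m + s • x`, `‖q s‖^2 = (1-s)^2 h^2 ϱ^2 + s^2 ϱ^2`, `‖x - m‖ ≤ ϱ (1 + h^2 / 2)`. `F = exp ∘ b` is antitone on the interval. For `s ≤ h/4`: `‖q s‖ ≥ 3 h ϱ / 4`; for `s ≥ h/4`: `‖q s‖ ≥ s ϱ`. So `∫ s in 0..1 ≤ (h/4) F (3hϱ/4) + ϱ⁻¹ I₂`, `I₂ = ∫ t in hϱ/4..ϱ, F t` (`intervalIntegral.integral_comp_mul_right`). With `I₁ = ∫ t in ρ..hϱ/4, F t ≥ (hϱ/4)(1 - a/8) F (hϱ/4)` and `exp (-a) ≤ 1 - a/2` (from `Real.add_one_le_exp`): `(hϱ/4) F (3hϱ/4) ≤ (1 - 3a/8) I₁`; `I₂ ≤ ϱ F (hϱ/4)` gives `h (I₁ + I₂) ≤ 5 I₁`. Isolate the final inequality as a lemma on real numbers. -/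

namespace Vale.Agent.P242

open MeasureTheory Set Metric Filter Topology
open scoped ENNReal ContDiff RealInnerProductSpace

variable {n : ℕ}

theorem rot_sq {x m : E n} (hp : ⟪m, x⟫ = 0) (s : ℝ) :
    ‖m + s • (x - m)‖ ^ 2 = (1 - s) ^ 2 * ‖m‖ ^ 2 + s ^ 2 * ‖x‖ ^ 2 := by
  have e : m + s • (x - m) = (1 - s) • m + s • x := by module
  rw [e, norm_add_sq_real, real_inner_smul_left, real_inner_smul_right, hp, norm_smul, norm_smul,
    mul_pow, mul_pow, Real.norm_eq_abs, Real.norm_eq_abs, sq_abs, sq_abs]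
  ring

theorem rot_sub {x m : E n} (hp : ⟪m, x⟫ = 0) : ‖x - m‖ ^ 2 = ‖x‖ ^ 2 + ‖m‖ ^ 2 := by
  rw [norm_sub_sq_real, real_inner_comm, hp]
  ring

theorem rot_fin {a G I₁ I₂ T : ℝ} (ha : 0 < a) (ha1 : a ≤ 1) (hG : 0 ≤ G)
    (h1 : a / 256 * (1 - a / 8) * G ≤ I₁) (h2 : I₂ ≤ G)
    (h3 : T ≤ a / 256 * (1 - a / 2) * G + I₂) :
    (1 + a ^ 2 / 8192) * T ≤ (1 - a ^ 2 / 4096) * (I₁ + I₂) := by
  have k0 : a ^ 2 ≤ a := by nlinarith
  have k1 : a / 4 ≤ (1 - a ^ 2 / 4096) * (1 - a / 8) - (1 + a ^ 2 / 8192) * (1 - a / 2) := by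
    have : 0 ≤ a ^ 3 := by positivity
    nlinarith
  have k2 := mul_le_mul_of_nonneg_left h3 (show 0 ≤ 1 + a ^ 2 / 8192 by positivity)
  have k3 := mul_le_mul_of_nonneg_left h1 (show 0 ≤ 1 - a ^ 2 / 4096 by linarith)
  have k4 := mul_le_mul_of_nonneg_left h2 (show 0 ≤ 3 * a ^ 2 / 8192 by positivity)
  have k5 := mul_le_mul_of_nonneg_left k1 (show 0 ≤ a / 256 * G by positivity)
  have k6 : 0 ≤ a ^ 2 * G := by positivity
  nlinarith

theorem rot_norm {a ϱ : ℝ} (ha : 0 < a) (ha1 : a ≤ 1) (hϱ : 0 < ϱ) {x m : E n} (hx : ‖x‖ = ϱ)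
    (hm : ‖m‖ = a / 64 * ϱ) (hp : ⟪m, x⟫ = 0) :
    ϱ ≤ ‖x - m‖ ∧ ∀ s ∈ Icc (0 : ℝ) 1,
      a / 128 * ϱ ≤ ‖m + s • (x - m)‖ ∧ ‖m + s • (x - m)‖ ≤ ϱ := by
  have hq : 0 < ϱ ^ 2 := by positivity
  refine ⟨?_, fun s hs => ⟨?_, ?_⟩⟩
  · refine (abs_le_of_sq_le_sq' ?_ (norm_nonneg _)).2
    rw [rot_sub hp, hx]
    nlinarith [sq_nonneg ‖m‖]
  · refine (abs_le_of_sq_le_sq' ?_ (norm_nonneg _)).2
    rw [rot_sq hp, hx, hm]
    have h1 : (a / 128) ^ 2 ≤ (1 - s) ^ 2 * (a / 64) ^ 2 + s ^ 2 := by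
      have h2 : 0 ≤ a ^ 2 := by positivity
      have h3 : a ^ 2 ≤ 1 := by nlinarith
      rcases le_total s (1 / 2) with h | h
      · have h4 : 1 / 4 ≤ (1 - s) ^ 2 := by nlinarith
        nlinarith [sq_nonneg s, mul_le_mul_of_nonneg_right h4 h2]
      · have h4 : 1 / 4 ≤ s ^ 2 := by nlinarith
        nlinarith [mul_nonneg (sq_nonneg (1 - s)) h2]
    nlinarith [mul_le_mul_of_nonneg_right h1 hq.le]
  · refine (abs_le_of_sq_le_sq' ?_ hϱ.le).2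
    rw [rot_sq hp, hx, hm]
    have h1 : (1 - s) ^ 2 * (a / 64) ^ 2 + s ^ 2 ≤ 1 := by
      have h3 : (a / 64) ^ 2 ≤ 1 := by nlinarith
      nlinarith [mul_le_mul_of_nonneg_left h3 (sq_nonneg (1 - s)),
        mul_nonneg hs.1 (sub_nonneg.2 hs.2)]
    nlinarith [mul_le_mul_of_nonneg_right h1 hq.le]

theorem rot {b : ℝ → ℝ} (hb : Continuous b) {a ϱ : ℝ} (ha : 0 < a) (ha1 : a ≤ 1) (hϱ : 0 < ϱ)
    (hanti : AntitoneOn b (Icc (a ^ 2 / 2048 * ϱ) ϱ))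
    (hdrop : b (3 * (a / 256 * ϱ)) ≤ b (a / 256 * ϱ) - a) {x m : E n} (hx : ‖x‖ = ϱ)
    (hm : ‖m‖ = a / 64 * ϱ) (hp : ⟪m, x⟫ = 0) :
    ‖x - m‖ * ∫ s in (0 : ℝ)..1, Real.exp (b ‖m + s • (x - m)‖) ≤
      (1 - a ^ 2 / 4096) * ∫ t in (a ^ 2 / 2048 * ϱ)..ϱ, Real.exp (b t) := by
  obtain ⟨-, hn⟩ := rot_norm ha ha1 hϱ hx hm hp
  obtain ⟨F, hF⟩ : ∃ F : ℝ → ℝ, F = fun t => Real.exp (b t) := ⟨_, rfl⟩
  have hFe : ∀ t, Real.exp (b t) = F t := fun t => by rw [hF]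
  have hFc : Continuous F := by
    rw [hF]
    fun_prop
  have hF0 : ∀ t, 0 < F t := fun t => hFe t ▸ Real.exp_pos _
  have hFa : ∀ s t, a ^ 2 / 2048 * ϱ ≤ s → s ≤ t → t ≤ ϱ → F t ≤ F s := fun s t h1 h2 h3 => by
    rw [← hFe, ← hFe]
    exact Real.exp_le_exp.2 (hanti ⟨h1, h2.trans h3⟩ ⟨h1.trans h2, h3⟩ h2)
  have hd : F (3 * (a / 256 * ϱ)) ≤ (1 - a / 2) * F (a / 256 * ϱ) := by
    have h1 : F (3 * (a / 256 * ϱ)) * Real.exp a ≤ F (a / 256 * ϱ) := by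
      rw [← hFe, ← hFe, ← Real.exp_add]
      exact Real.exp_le_exp.2 (by linarith)
    have h2 := Real.add_one_le_exp a
    have h3 := hF0 (3 * (a / 256 * ϱ))
    have h4 : F (3 * (a / 256 * ϱ)) * (a + 1) ≤ F (a / 256 * ϱ) :=
      (mul_le_mul_of_nonneg_left h2 h3.le).trans h1
    have h5 := mul_le_mul_of_nonneg_left h4 (show 0 ≤ 1 - a / 2 by linarith)
    have h6 : 0 ≤ F (3 * (a / 256 * ϱ)) * (a * (1 - a)) :=
      mul_nonneg h3.le (mul_nonneg ha.le (by linarith))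
    nlinarith
  simp only [hFe]
  have haϱ : 0 < a * ϱ := mul_pos ha hϱ
  have haϱ1 : a * ϱ ≤ ϱ := mul_le_of_le_one_left hϱ.le ha1
  have ha2 : a ^ 2 * ϱ ≤ a * ϱ := by nlinarith
  have t1 : a ^ 2 / 2048 * ϱ ≤ a / 256 * ϱ := by linarith
  have t2 : a / 256 * ϱ ≤ ϱ := by linarith
  have hq : Continuous fun s : ℝ => F ‖m + s • (x - m)‖ := by fun_prop
  have hr : Continuous fun s : ℝ => F (s * ϱ) := by fun_prop
  have i1 : a / 256 * (1 - a / 8) * (ϱ * F (a / 256 * ϱ)) ≤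
      ∫ t in (a ^ 2 / 2048 * ϱ)..(a / 256 * ϱ), F t := by
    have h1 := intervalIntegral.integral_mono_on t1
      (continuous_const.intervalIntegrable (μ := volume) _ _) (hFc.intervalIntegrable _ _)
      (f := fun _ => F (a / 256 * ϱ)) fun t ht => hFa _ _ ht.1 ht.2 t2
    rw [intervalIntegral.integral_const, smul_eq_mul] at h1
    linarith
  have i2 : ∫ t in (a / 256 * ϱ)..ϱ, F t ≤ ϱ * F (a / 256 * ϱ) := by
    have h1 := intervalIntegral.integral_mono_on t2 (hFc.intervalIntegrable (μ := volume) _ _)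
      (continuous_const.intervalIntegrable _ _)
      (g := fun _ => F (a / 256 * ϱ)) fun t ht => hFa _ _ t1 ht.1 ht.2
    rw [intervalIntegral.integral_const, smul_eq_mul] at h1
    have h2 := mul_pos haϱ (hF0 (a / 256 * ϱ))
    linarith
  have j1 : ∫ s in (0 : ℝ)..(a / 256), F ‖m + s • (x - m)‖ ≤
      a / 256 * F (3 * (a / 256 * ϱ)) := by
    have h1 := intervalIntegral.integral_mono_on (show (0 : ℝ) ≤ a / 256 by positivity)
      (hq.intervalIntegrable (μ := volume) _ _) (continuous_const.intervalIntegrable _ _)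
      (g := fun _ => F (3 * (a / 256 * ϱ))) fun s hs => by
        refine hFa _ _ (by linarith) ?_ (hn s ⟨hs.1, by linarith [hs.2]⟩).2
        refine (abs_le_of_sq_le_sq' ?_ (norm_nonneg _)).2
        rw [rot_sq hp, hx, hm]
        have h2 : (3 / 4) ^ 2 ≤ (1 - s) ^ 2 :=
          pow_le_pow_left₀ (by norm_num) (by linarith [hs.2]) 2
        have h3 := mul_le_mul_of_nonneg_right h2 (sq_nonneg (a / 64 * ϱ))
        nlinarith [mul_nonneg (sq_nonneg s) (sq_nonneg ϱ)]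
    rwa [intervalIntegral.integral_const, smul_eq_mul, sub_zero] at h1
  have j2 : ϱ * ∫ s in (a / 256)..1, F ‖m + s • (x - m)‖ ≤ ∫ t in (a / 256 * ϱ)..ϱ, F t := by
    have h1 := intervalIntegral.integral_mono_on (show a / 256 ≤ 1 by linarith)
      (hq.intervalIntegrable (μ := volume) _ _) (hr.intervalIntegrable _ _) fun s hs => by
        refine hFa _ _ (t1.trans (mul_le_mul_of_nonneg_right hs.1 hϱ.le)) ?_
          (hn s ⟨by linarith [hs.1], hs.2⟩).2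
        refine (abs_le_of_sq_le_sq' ?_ (norm_nonneg _)).2
        rw [rot_sq hp, hx]
        nlinarith [mul_nonneg (sq_nonneg (1 - s)) (sq_nonneg ‖m‖)]
    have h2 := mul_le_mul_of_nonneg_left h1 hϱ.le
    rwa [intervalIntegral.integral_comp_mul_right F hϱ.ne', smul_eq_mul, one_mul,
      mul_inv_cancel_left₀ hϱ.ne'] at h2
  have hN : ‖x - m‖ ≤ (1 + a ^ 2 / 8192) * ϱ := by
    refine (abs_le_of_sq_le_sq' ?_ (by positivity)).2
    rw [rot_sub hp, hx, hm]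
    nlinarith [sq_nonneg (a ^ 2 * ϱ)]
  have hJ : 0 ≤ ∫ s in (0 : ℝ)..1, F ‖m + s • (x - m)‖ :=
    intervalIntegral.integral_nonneg zero_le_one fun s _ => (hF0 _).le
  refine (mul_le_mul_of_nonneg_right hN hJ).trans ?_
  rw [mul_assoc, ← intervalIntegral.integral_add_adjacent_intervals (b := a / 256 * ϱ)
    (hFc.intervalIntegrable _ _) (hFc.intervalIntegrable _ _)]
  refine rot_fin ha ha1 (mul_pos hϱ (hF0 _)).le i1 i2 ?_
  rw [← intervalIntegral.integral_add_adjacent_intervals (b := a / 256)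
    (hq.intervalIntegrable _ _) (hq.intervalIntegrable _ _), mul_add]
  have h7 := mul_le_mul_of_nonneg_left j1 hϱ.le
  have h8 := mul_le_mul_of_nonneg_left hd haϱ.le
  linarith

end Vale.Agent.P242
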