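import Vale.Agent.P242R.CdB

/-! P242R Seg (TASK, owner helper5; helper names start with seg_). Chains along a segment. `q s = m + s • (x - m)`, `ℓ = ‖x - m‖`, `J = ⌈ℓ / κ⌉₊ ≥ 1`, so `κ / 2 ≤ ℓ / J ≤ κ`. For `s ∈ [j/J, (j+1)/J]`: `dd (q ((j+1)/J)) (q (j/J)) ≤ exp (β (q s)) (1 + 2 ζ) ℓ / J`; integrate in `s` (`intervalIntegral.integral_mono_on` against a constant): `dd ≤ (1 + 2 ζ) ℓ ∫ s in j/J..(j+1)/J`. Induction on `j ≤ J` with `dd_tri`, `intervalIntegral.integral_add_adjacent_intervals`, `cd_self`. -/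

namespace Vale.Agent.P242

open MeasureTheory Set Metric Filter Topology
open scoped ENNReal ContDiff RealInnerProductSpace

variable {n : ℕ}

theorem seg_norm (x m : E n) (a b : ℝ) :
    ‖m + a • (x - m) - (m + b • (x - m))‖ = |a - b| * ‖x - m‖ := by
  rw [add_sub_add_left_eq_sub, ← sub_smul, norm_smul, Real.norm_eq_abs]

theorem seg_step {w β : E n → ℝ} (hβ : Continuous β) {x m : E n} {κ ζ a b : ℝ} (hζ : 0 ≤ ζ)
    (h : ∀ s ∈ Icc (0 : ℝ) 1, ∀ u ∈ closedBall (m + s • (x - m)) κ,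
      ∀ v ∈ closedBall (m + s • (x - m)) κ,
        dd w u v ≤ Real.exp (β (m + s • (x - m))) * (‖u - v‖ + ζ * κ))
    (ha : 0 ≤ a) (hab : a < b) (hb : b ≤ 1) (h1 : (b - a) * ‖x - m‖ ≤ κ)
    (h2 : κ ≤ 2 * ((b - a) * ‖x - m‖)) :
    dd w (m + b • (x - m)) (m + a • (x - m)) ≤
      (1 + 2 * ζ) * (‖x - m‖ * ∫ s in a..b, Real.exp (β (m + s • (x - m)))) := by
  have h0 : 0 < b - a := sub_pos.2 hab
  have hc : Continuous fun s : ℝ => Real.exp (β (m + s • (x - m))) := by fun_prop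
  have h3 : ∫ _ in a..b, dd w (m + b • (x - m)) (m + a • (x - m)) ≤
      ∫ s in a..b, Real.exp (β (m + s • (x - m))) * ((1 + 2 * ζ) * ((b - a) * ‖x - m‖)) := by
    refine intervalIntegral.integral_mono_on hab.le intervalIntegrable_const
      ((hc.mul continuous_const).intervalIntegrable _ _) fun s hs => ?_
    refine (h s ⟨ha.trans hs.1, hs.2.trans hb⟩ _ ?_ _ ?_).trans
      (mul_le_mul_of_nonneg_left ?_ (Real.exp_pos _).le)
    · rw [mem_closedBall_iff_norm, seg_norm, abs_of_nonneg (sub_nonneg.2 hs.2)]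
      exact (mul_le_mul_of_nonneg_right (by linarith [hs.1]) (norm_nonneg _)).trans h1
    · rw [mem_closedBall_iff_norm, seg_norm, abs_sub_comm, abs_of_nonneg (sub_nonneg.2 hs.1)]
      exact (mul_le_mul_of_nonneg_right (by linarith [hs.2]) (norm_nonneg _)).trans h1
    · rw [seg_norm, abs_of_pos h0]
      nlinarith [mul_le_mul_of_nonneg_left h2 hζ]
  rw [intervalIntegral.integral_const, intervalIntegral.integral_mul_const, smul_eq_mul] at h3
  refine le_of_mul_le_mul_left (h3.trans_eq ?_) h0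
  ring

theorem seg_sum {w β : E n → ℝ} (hw : Continuous w) (hβ : Continuous β) {x m : E n}
    (hx : x ∈ ball (0 : E n) 4) (hm : m ∈ ball (0 : E n) 4) {κ ζ : ℝ} (hκ : 0 < κ) (hζ : 0 ≤ ζ)
    (hl : κ ≤ ‖x - m‖) (h : ∀ s ∈ Icc (0 : ℝ) 1, ∀ u ∈ closedBall (m + s • (x - m)) κ,
      ∀ v ∈ closedBall (m + s • (x - m)) κ,
        dd w u v ≤ Real.exp (β (m + s • (x - m))) * (‖u - v‖ + ζ * κ)) :
    dd w x m ≤ (1 + 2 * ζ) * (‖x - m‖ * ∫ s in (0 : ℝ)..1, Real.exp (β (m + s • (x - m)))) := by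
  have hc : Continuous fun s : ℝ => Real.exp (β (m + s • (x - m))) := by fun_prop
  have h1 : 1 ≤ ‖x - m‖ / κ := (one_le_div hκ).2 hl
  have h2 : ‖x - m‖ / κ ≤ (⌈‖x - m‖ / κ⌉₊ : ℝ) := Nat.le_ceil _
  have h3 : (⌈‖x - m‖ / κ⌉₊ : ℝ) < ‖x - m‖ / κ + 1 := Nat.ceil_lt_add_one (by linarith)
  generalize ⌈‖x - m‖ / κ⌉₊ = J at h2 h3
  have hJ : (0 : ℝ) < J := by linarith
  have h4 : 1 / J * ‖x - m‖ ≤ κ := by
    rw [div_le_iff₀ hκ] at h2
    rw [one_div, inv_mul_le_iff₀ hJ]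
    exact h2
  have h5 : κ ≤ 2 * (1 / J * ‖x - m‖) := by
    have h6 : (J : ℝ) ≤ 2 * ‖x - m‖ / κ := by
      rw [mul_div_assoc]
      linarith
    rw [le_div_iff₀ hκ] at h6
    rw [one_div, ← mul_assoc, mul_comm 2, mul_assoc, le_inv_mul_iff₀ hJ]
    exact h6
  have hq : ∀ s : ℝ, 0 ≤ s → s ≤ 1 → m + s • (x - m) ∈ ball (0 : E n) 4 := fun s h0 h1 =>
    (convex_ball (0 : E n) 4).add_smul_sub_mem hm hx ⟨h0, h1⟩
  have key : ∀ j : ℕ, j ≤ J → dd w (m + ((j : ℝ) / J) • (x - m)) m ≤ (1 + 2 * ζ) *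
      (‖x - m‖ * ∫ s in (0 : ℝ)..((j : ℝ) / J), Real.exp (β (m + s • (x - m)))) := by
    intro j
    induction j with
    | zero =>
      intro _
      simp [dd, cd_self w hm]
    | succ j ih =>
      intro hj
      have hj' : ((j + 1 : ℕ) : ℝ) / J ≤ 1 := (div_le_one hJ).2 (Nat.cast_le.2 hj)
      have h0 : 0 ≤ (j : ℝ) / J := by positivity
      have e : ((j + 1 : ℕ) : ℝ) / J - j / J = 1 / J := by
        push_cast
        ring
      have hlt : (j : ℝ) / J < ((j + 1 : ℕ) : ℝ) / J := by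
        have := one_div_pos.2 hJ
        linarith
      have h7 := seg_step (w := w) hβ hζ h h0 hlt hj' (e ▸ h4) (e ▸ h5)
      have h8 := dd_tri hw (hq _ (h0.trans hlt.le) hj') (hq _ h0 (hlt.le.trans hj')) hm
      rw [← intervalIntegral.integral_add_adjacent_intervals (b := (j : ℝ) / J)
        (hc.intervalIntegrable _ _) (hc.intervalIntegrable _ _)]
      have h9 := ih (Nat.le_of_succ_le hj)
      linarith
  have h10 := key J le_rfl
  rwa [div_self hJ.ne', one_smul, add_sub_cancel] at h10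

end Vale.Agent.P242
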