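import Vale.Agent.P242R.Nl
import Vale.Agent.P242.Scale
import Vale.Agent.P242.Core

/-! P242R Mono (TASK, owner helper5; helper names start with mon_). Behaviour of the averages. `av_lip`: `av_fderiv` with `s = 0`, `Y_inner` (both parts give `r * av k (D u w) (x, r) = I k (D u (sc w x r))`), mean value inequality for `t ↦ av k w (y + t • (x - y), r)` on `[0,1]` or `Convex.norm_image_sub_le_of_norm_hasFDerivWithin_le`.
`av_log_le`, `av_log_ge`: `der_a` with `(v, s) = (0, 1)` (`scl_line`, `scl_zero`, `scl_mono` in P242/Scale.lean) for `t ↦ av .. (x, t) + a * log t`. `av_anti`: same with `lap_sc`, the kernel vanishes unless `‖p‖ < 1`; `antitoneOn_of_deriv_nonpos`. `aa_le`: `av_anti` and `cor_a0`. `av_sub`: `integral_sub`, `integrable_rad`. -/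

namespace Vale.Agent.P242

open MeasureTheory Set Metric Filter Topology
open scoped ENNReal ContDiff RealInnerProductSpace

variable {n : ℕ}

variable {w : E n → ℝ} {k ψ : ℝ → ℝ} {b : ℝ}

theorem av_lip (hk : Prof b k) (hw : ContDiff ℝ ∞ w) {S : Set (E n)} (hS : Convex ℝ S) {r B : ℝ}
    (hr : 0 < r) (hB : ∀ x ∈ S, ∀ u, |I k (D u (sc w x r))| ≤ B * ‖u‖) {x y : E n} (hx : x ∈ S)
    (hy : y ∈ S) : |av k w (x, r) - av k w (y, r)| ≤ B * ‖x - y‖ / r := by
  have hd : ∀ t : ℝ, HasDerivAt (fun t : ℝ => av k w (y + t • (x - y), r))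
      (fderiv ℝ (av k w) (y + t • (x - y), r) (x - y, 0)) t := fun t => by
    have h1 : HasDerivAt (fun t : ℝ => (y + t • (x - y), r)) (x - y, (0 : ℝ)) t := by
      have h2 := (((hasDerivAt_id t).smul_const (x - y)).const_add y).prodMk
        (hasDerivAt_const t r)
      rwa [one_smul] at h2
    exact ((av_smooth hk hw).differentiable (by simp) _).hasFDerivAt.comp_hasDerivAt t h1
  have h2 := norm_image_sub_le_of_norm_deriv_le_segment_01' (C := B * ‖x - y‖ / r)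
    (fun t _ => (hd t).hasDerivWithinAt) fun t ht => by
      have h3 := hB _ (hS.add_smul_sub_mem hy hx (Ico_subset_Icc_self ht)) (x - y)
      rw [← (Y_inner hk hw _ _ r).2, (Y_inner hk hw _ _ r).1, abs_mul, abs_of_pos hr] at h3
      rw [av_fderiv hk hw, zero_mul, add_zero, Real.norm_eq_abs, le_div_iff₀ hr, mul_comm]
      exact h3
  simpa only [one_smul, zero_smul, add_zero, add_sub_cancel, Real.norm_eq_abs] using h2

theorem mon_der (h : Prof b ψ) (hw : ContDiff ℝ ∞ w) (x : E n) (a : ℝ) {t : ℝ} (ht : 0 < t) :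
    HasDerivAt (fun t => av (eta ψ) w (x, t) + a * Real.log t)
      ((I ψ (lap (sc w x t)) + a) / t) t := by
  have h1 := (scl_line (av_smooth h.eta hw) x t).add ((Real.hasDerivAt_log ht.ne').const_mul a)
  have h2 := der_a h hw x 0 t 1
  rw [scl_zero, zero_add, one_mul] at h2
  have h3 : (I ψ (lap (sc w x t)) + a) / t =
      fderiv ℝ (av (eta ψ) w) (x, t) (0, 1) + a * t⁻¹ := by
    rw [← h2]
    field_simp
  rw [h3]
  exact h1

theorem av_log_le (h : Prof b ψ) (hw : ContDiff ℝ ∞ w) (x : E n) {r₁ r₂ a : ℝ} (h1 : 0 < r₁)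
    (h2 : r₁ ≤ r₂) (ha : ∀ t ∈ Icc r₁ r₂, I ψ (lap (sc w x t)) ≤ -a) :
    av (eta ψ) w (x, r₂) ≤ av (eta ψ) w (x, r₁) - a * Real.log (r₂ / r₁) := by
  have h3 := scl_mono h2 (fun t ht => (mon_der h hw x a (h1.trans_le ht.1)).neg) fun t ht =>
    neg_nonneg.2 (div_nonpos_of_nonpos_of_nonneg (by linarith [ha t (Ioo_subset_Icc_self ht)])
      (h1.trans ht.1).le)
  simp only [Pi.neg_apply] at h3
  rw [Real.log_div (h1.trans_le h2).ne' h1.ne']
  linarith

theorem av_log_ge (h : Prof b ψ) (hw : ContDiff ℝ ∞ w) (x : E n) {r₁ r₂ a : ℝ} (h1 : 0 < r₁)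
    (h2 : r₁ ≤ r₂) (ha : ∀ t ∈ Icc r₁ r₂, -a ≤ I ψ (lap (sc w x t))) :
    av (eta ψ) w (x, r₁) - a * Real.log (r₂ / r₁) ≤ av (eta ψ) w (x, r₂) := by
  have h3 := scl_mono h2 (fun t ht => mon_der h hw x a (h1.trans_le ht.1)) fun t ht =>
    div_nonneg (by linarith [ha t (Ioo_subset_Icc_self ht)]) (h1.trans ht.1).le
  rw [Real.log_div (h1.trans_le h2).ne' h1.ne']
  linarith

theorem av_anti (h : Prof 1 ψ) (h0 : ∀ s, 0 ≤ ψ s) (hw : ContDiff ℝ ∞ w)
    (hl : ∀ x ∈ ball (0 : E n) 4, lap w x ≤ 0) {x : E n} {ρ : ℝ} (hx : ‖x‖ + ρ ≤ 4) :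
    AntitoneOn (fun r => av (eta ψ) w (x, r)) (Icc 0 ρ) := by
  intro r₁ h1 r₂ h2 h12
  have h3 := scl_mono h12 (fun t _ => (scl_line (av_smooth h.eta hw) x t).neg) fun t ht => by
    have ht0 : 0 < t := h1.1.trans_lt ht.1
    have h4 := der_a h hw x 0 t 1
    rw [scl_zero, zero_add, one_mul] at h4
    refine neg_nonneg.2 (nonpos_of_mul_nonpos_right ?_ ht0)
    rw [h4, lap_sc hw]
    refine integral_nonpos fun p => ?_
    by_cases hp : ‖p‖ ≤ 1
    · refine mul_nonpos_of_nonpos_of_nonneg (mul_nonpos_of_nonneg_of_nonpos (sq_nonneg _)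
        (hl _ (mem_ball_zero_iff.2 ?_))) (h0 _)
      have h5 := norm_add_le x (t • p)
      rw [norm_smul, Real.norm_of_nonneg ht0.le] at h5
      nlinarith [ht.2, h2.2]
    · simp only [h.2 (‖p‖ ^ 2) (by nlinarith), mul_zero, Pi.zero_apply, le_refl]
  simpa only [Pi.neg_apply, neg_le_neg_iff] using h3

theorem aa_le (K : Kit2 n) (hw : ContDiff ℝ ∞ w) (hl : ∀ x ∈ ball (0 : E n) 4, lap w x ≤ 0)
    {x : E n} {r : ℝ} (hr : 0 ≤ r) (hx : ‖x‖ + r ≤ 4) : aa K w x r ≤ w x :=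
  (av_anti K.hψ K.ψ0 hw hl hx (left_mem_Icc.2 hr) (right_mem_Icc.2 hr) hr).trans_eq
    (cor_a0 K.toKit w x)

theorem mon_sub (h : Prof b k) (h1 : I k (fun _ : E n => 1) = 1) {f : E n → ℝ}
    (hf : Continuous f) (c : ℝ) : I k (fun p => f p - c) = I k f - c := by
  have h2 := I_mul k c (fun _ : E n => 1)
  rw [h1, mul_one] at h2
  conv_rhs => rw [← h2]
  simp only [I, sub_mul]
  exact integral_sub (integrable_rad h hf) (integrable_rad h continuous_const)

theorem av_sub (h : Prof b k) (h1 : I k (fun _ : E n => 1) = 1) (hw : Continuous w) (c : ℝ)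
    (q : E n × ℝ) : av k (fun p => w p - c) q = av k w q - c :=
  mon_sub h h1 (f := sc w q.1 q.2) (hw.comp (by fun_prop)) c

theorem I_near (h : Prof b k) (h0 : ∀ s, 0 ≤ k s) (h1 : I k (fun _ : E n => 1) = 1)
    {f : E n → ℝ} (hf : Continuous f) {c δ : ℝ}
    (hc : ∀ p : E n, k (‖p‖ ^ 2) ≠ 0 → |f p - c| ≤ δ) : |I k f - c| ≤ δ := by
  have h2 := I_mul k δ (fun _ : E n => 1)
  rw [h1, mul_one] at h2
  rw [← mon_sub h h1 hf c, ← h2]
  refine (Real.norm_eq_abs _).symm.trans_le (norm_integral_le_of_norm_le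
    (integrable_rad h continuous_const) (Eventually.of_forall fun p => ?_))
  rw [Real.norm_eq_abs, abs_mul, abs_of_nonneg (h0 _)]
  by_cases hp : k (‖p‖ ^ 2) = 0
  · simp only [hp, mul_zero, le_refl]
  · exact mul_le_mul_of_nonneg_right (hc p hp) (h0 _)

end Vale.Agent.P242
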