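import Vale.Agent.P242R.Uni
import Vale.Agent.P242R.Mono

/-! P242R Core2 (TASK, owner helper5; helper names start with co2_). Gauge data with small constants; adapt the proof of `core` in P242/Core.lean. `R = min δ (1/2)`, `Z = Y (kap n K.ψ) V`, `a = av (eta K.ψ) V`, `L = fun q => C₀ / δ * Ly K.toKit V q` with `C₀` from `key` (so `δ * dL = C₀ * dLy`, `fderiv_const_mul`). `th (sc V x r) ≤ C₁ θ` by `sc_th`.
For `k = eta K.ψ` or `kap n K.ψ`: `‖Y k V (x, r)‖ ≤ B := C (l + C₁ θ / l)` by `Y_inner` with `u = Y`, `est_G` (`est_mono` for `Prof 4`), `NL.sc`; take `θ = l^2 / C₁` and `l` small. `aR`: `|a (x, R) - a (0, R)| ≤ B / R` by `av_lip` on `ball 0 1`, `|a (0, R) - a (0, 1)| ≤ C l^2 log (1/R) ≤ C l^2 / R` by `av_log_le`, `av_log_ge`, `est_L`. -/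

namespace Vale.Agent.P242

open MeasureTheory Set Metric Filter Topology
open scoped ENNReal ContDiff RealInnerProductSpace

variable {n : ℕ}

theorem co2_Y {k : ℝ → ℝ} {b B r : ℝ} (hk : Prof b k) {w : E n → ℝ} (hw : ContDiff ℝ ∞ w)
    {x : E n} (hB : 0 ≤ B) (h : ∀ u, |I k (D u (sc w x r))| ≤ B * ‖u‖) : ‖Y k w (x, r)‖ ≤ B := by
  have h1 := (Y_inner hk hw x (Y k w (x, r)) r).2
  have h2 := (le_abs_self _).trans (h (Y k w (x, r)))
  rw [← h1, real_inner_self_eq_norm_sq] at h2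
  by_contra hn
  have h3 := not_le.1 hn
  nlinarith

theorem core2 (hn : 3 ≤ n) (K : Kit2 n) {δ : ℝ} (hδ : 0 < δ) : ∃ θ R : ℝ, 0 < θ ∧ R ≤ δ ∧
    ∀ V : E n → ℝ, NL V → mass V ≤ θ → aa K V 0 1 = 0 → ∃ Z a L, Gauge V R δ Z a L := by
  obtain ⟨θ0, C0, hθ0, hC0, hkey⟩ := key hn K.toKit
  obtain ⟨C1, hC1, h1⟩ := sc_th hn K.toKit
  obtain ⟨C2, hC2, h2⟩ := est_G hn K.toKit (est_mono K.hψ.eta (by norm_num))
  obtain ⟨C3, hC3, h3⟩ := est_G hn K.toKit (est_mono (K.hψ.kap (n := n)) (by norm_num))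
  obtain ⟨C4, hC4, h4⟩ := est_L hn K.toKit (est_mono K.hψ (by norm_num))
  obtain ⟨C5, hC5, h5⟩ := est_L hn K.toKit K.hφ
  obtain ⟨S, hS⟩ : ∃ S, S = C2 + C3 + C4 + C5 := ⟨_, rfl⟩
  have hS0 : 0 < S := by linarith
  obtain ⟨R, hRp, hRδ, hR2⟩ : ∃ R : ℝ, 0 < R ∧ R ≤ δ ∧ R ≤ 1 / 2 :=
    ⟨min δ (1 / 2), lt_min hδ (by norm_num), min_le_left _ _, min_le_right _ _⟩
  have hR1 : R ≤ 1 := by linarith
  obtain ⟨τ, τ0, τ1, τ2, τ3⟩ : ∃ τ : ℝ, 0 < τ ∧ τ ≤ 1 / 10 ∧ τ ≤ δ / C0 ∧ τ ≤ δ * R :=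
    ⟨min (1 / 10) (min (δ / C0) (δ * R)), lt_min (by norm_num) (lt_min (by positivity)
      (by positivity)), min_le_left _ _, (min_le_right _ _).trans (min_le_left _ _),
      (min_le_right _ _).trans (min_le_right _ _)⟩
  obtain ⟨l, l0, l1, l2, l3⟩ : ∃ l : ℝ, 0 < l ∧ l ≤ 1 ∧ l ≤ θ0 ∧ 3 * (S * l) ≤ τ := by
    refine ⟨min (min 1 θ0) (τ / (3 * S)), lt_min (lt_min one_pos hθ0) (by positivity),
      (min_le_left _ _).trans (min_le_left _ _), (min_le_left _ _).trans (min_le_right _ _), ?_⟩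
    have a1 : min (min 1 θ0) (τ / (3 * S)) ≤ τ / (3 * S) := min_le_right _ _
    rw [le_div_iff₀ (by positivity)] at a1
    linarith
  have hSl : 0 < S * l := mul_pos hS0 l0
  have hl2 : l ^ 2 ≤ l := by nlinarith
  refine ⟨l ^ 2 / C1, R, by positivity, hRδ, fun V hV hm ha =>
    ⟨Y (kap n K.ψ) V, av (eta K.ψ) V, fun q => C0 / δ * Ly K.toKit V q, ?_⟩⟩
  have hw := hV.1
  have hl := hV.lin hn
  have hth : ∀ x ∈ ball (0 : E n) 1, ∀ r ∈ Icc (0 : ℝ) 1, th K.toKit (sc V x r) ≤ l ^ 2 := by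
    intro x hx r hr
    refine (h1 V hw hl x hx r hr).trans ?_
    calc C1 * ∫ z in ball (0 : E n) 4, -lap V z ≤ C1 * (l ^ 2 / C1) :=
          mul_le_mul_of_nonneg_left hm (by linarith)
      _ = l ^ 2 := by field_simp
  have hI : ∀ r ∈ Icc 0 R, r ∈ Icc (0 : ℝ) 1 := fun r hr => ⟨hr.1, hr.2.trans hR1⟩
  have hG : ∀ (k : ℝ → ℝ) (C : ℝ), C ≤ S → (∀ W : E n → ℝ, NL W → ∀ (u : E n) (l : ℝ),
      0 < l → |I k (D u W)| ≤ C * (l + th K.toKit W / l) * ‖u‖) → 0 ≤ C →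
      ∀ x ∈ ball (0 : E n) 1, ∀ r ∈ Icc 0 R, ∀ u,
        |I k (D u (sc V x r))| ≤ 2 * (S * l) * ‖u‖ := by
    intro k C hC h hC' x hx r hr u
    have a0 := mem_ball_zero_iff.1 hx
    refine (h _ (hV.sc hr.1 (by linarith [hr.2])) u l l0).trans
      (mul_le_mul_of_nonneg_right ?_ (norm_nonneg u))
    have a1 : th K.toKit (sc V x r) / l ≤ l := by
      rw [div_le_iff₀ l0, ← sq]
      exact hth x hx r (hI r hr)
    calc C * (l + th K.toKit (sc V x r) / l) ≤ C * (l + l) :=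
          mul_le_mul_of_nonneg_left (by linarith) hC'
      _ ≤ S * (l + l) := mul_le_mul_of_nonneg_right hC (by linarith)
      _ = 2 * (S * l) := by ring
  have g2 := hG _ C2 (by linarith) h2 (by linarith)
  have g3 := hG _ C3 (by linarith) h3 (by linarith)
  have hy : ∀ x ∈ ball (0 : E n) 1, ∀ r ∈ Icc 0 R, ‖Y (eta K.ψ) V (x, r)‖ ≤ 2 * (S * l) :=
    fun x hx r hr => co2_Y K.hψ.eta hw (by linarith) (g2 x hx r hr)
  have hz : ∀ x ∈ ball (0 : E n) 1, ∀ r ∈ Icc 0 R, ‖Y (kap n K.ψ) V (x, r)‖ ≤ 2 * (S * l) :=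
    fun x hx r hr => co2_Y (K.hψ.kap (n := n)) hw (by linarith) (g3 x hx r hr)
  have hL : ∀ (k : ℝ → ℝ) (C : ℝ), C ≤ S → (∀ W : E n → ℝ, Pos W →
      |I k (lap W)| ≤ C * th K.toKit W) → 0 ≤ C → ∀ x ∈ ball (0 : E n) 1, ∀ r ∈ Icc (0 : ℝ) 1,
        |I k (lap (sc V x r))| ≤ S * l := by
    intro k C hC h hC' x hx r hr
    refine (h _ (pos_sc hw hl hx hr)).trans ?_
    exact (mul_le_mul_of_nonneg_left ((hth x hx r hr).trans hl2) hC').trans
      (mul_le_mul_of_nonneg_right hC l0.le)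
  have g4 := hL _ C4 (by linarith) h4 (by linarith)
  have g5 := hL _ C5 (by linarith) h5 (by linarith)
  have hYs := Y_smooth (K.hψ.kap (n := n)) hw
  have hLs : ContDiff ℝ ∞ (Ly K.toKit V) :=
    ((M_smooth K.hφ hw).add ((Y_smooth K.hψ.eta hw).norm_sq ℝ)).add (hYs.norm_sq ℝ)
  refine ⟨hRp, hR1, hδ.le, hYs.of_le (WithTop.coe_le_coe.2 (le_top : (2 : ℕ∞) ≤ ⊤)),
    (av_smooth K.hψ.eta hw).of_le (by exact_mod_cast le_top),
    (contDiff_const.mul hLs).of_le (by exact_mod_cast le_top), cor_a0 K.toKit V,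
    fun x hx => ?_, fun x hx r hr => (hz x hx r hr).trans (by linarith), fun x hx r hr => ?_,
    fun x hx r hr v => ?_⟩
  · have z0 : (0 : E n) ∈ ball (0 : E n) 1 := mem_ball_self one_pos
    have a1 := av_lip K.hψ.eta hw (convex_ball (0 : E n) 1) hRp
      (fun x hx u => g2 x hx R ⟨hRp.le, le_rfl⟩ u) hx z0
    have a2 := av_log_le K.hψ hw 0 hRp hR1 (a := -(S * l)) fun t ht => by
      rw [neg_neg]
      exact (abs_le.1 (g4 0 z0 t ⟨hRp.le.trans ht.1, ht.2⟩)).2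
    have a3 := av_log_ge K.hψ hw 0 hRp hR1 (a := S * l) fun t ht =>
      (abs_le.1 (g4 0 z0 t ⟨hRp.le.trans ht.1, ht.2⟩)).1
    have a4 : av (eta K.ψ) V (0, 1) = 0 := ha
    have a5 : Real.log (1 / R) ≤ 1 / R := by
      linarith [Real.log_le_sub_one_of_pos (show 0 < 1 / R by positivity)]
    have a6 : S * l * Real.log (1 / R) ≤ S * l * (1 / R) := mul_le_mul_of_nonneg_left a5 hSl.le
    have a7 : 2 * (S * l) * ‖x - 0‖ / R ≤ 2 * (S * l * (1 / R)) := by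
      rw [sub_zero, div_le_iff₀ hRp]
      have b1 := mul_le_mul_of_nonneg_left (mem_ball_zero_iff.1 hx).le hSl.le
      have b2 : 2 * (S * l * (1 / R)) * R = 2 * (S * l * 1) := by field_simp
      rw [b2]
      linarith
    have a8 : 3 * (S * l * (1 / R)) ≤ δ := by
      have b2 : 3 * (S * l * (1 / R)) = 3 * (S * l) / R := by field_simp
      rw [b2, div_le_iff₀ hRp]
      linarith
    obtain ⟨a9, a10⟩ := abs_le.1 (a1.trans a7)
    rw [a4] at a2 a3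
    exact abs_le.2 ⟨by linarith, by linarith⟩
  · have hP := pos_sc hw hl hx (hI r hr)
    obtain ⟨-, -, -, hs⟩ := est_sign hn K.toKit hP
    have a1 := hy x hx r hr
    have a2 := hz x hx r hr
    have a3 := (abs_le.1 (g5 x hx r (hI r hr))).1
    have a6 := pow_le_pow_left₀ (norm_nonneg _) a1 2
    have a7 := pow_le_pow_left₀ (norm_nonneg _) a2 2
    have a8 : (2 * (S * l)) ^ 2 ≤ S * l := by nlinarith
    have a9 : 0 ≤ Ly K.toKit V (x, r) := by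
      rw [Ly, M_eq _ hw]
      have b1 := sq_nonneg ‖Y (eta K.ψ) V (x, r)‖
      have b2 := sq_nonneg ‖Y (kap n K.ψ) V (x, r)‖
      linarith
    have a10 : Ly K.toKit V (x, r) ≤ δ / C0 := by
      rw [Ly, M_eq _ hw]
      linarith
    refine ⟨by positivity, (mul_le_mul_of_nonneg_left a10 (by positivity)).trans (le_of_eq ?_)⟩
    field_simp
  · have hr' : r ∈ Icc (0 : ℝ) 1 := hI r ⟨hr.1.le, hr.2.le⟩
    have hP := pos_sc hw hl hx hr'
    have k := hkey V hw x r hr.1 hP ((hth x hx r hr').trans (hl2.trans l2))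
    refine (k v).trans (le_of_eq ?_)
    rw [fderiv_const_mul (hLs.differentiable (by simp) _), ContinuousLinearMap.smul_apply,
      smul_eq_mul]
    field_simp

end Vale.Agent.P242
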