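import Vale.Agent.P242R.Defs
import Vale.Agent.P242.Flow

/-! P242R Flow2 (TASK, owner helper5; helper names start with fl2_). Sharper constants. `two2`: copy the proof of `Gauge.two` (P242/FlowB.lean) without using `R ≤ 1`. `Traj.move`: mean value inequality with `bZ`. `flow2`: copy the proof of `Gauge.flow` (P242/Flow.lean). -/

namespace Vale.Agent.P242

open MeasureTheory Set Metric Filter Topology
open scoped ENNReal ContDiff RealInnerProductSpace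

variable {n : ℕ}

variable {w : E n → ℝ} {R C : ℝ} {Z : E n × ℝ → E n} {a L : E n × ℝ → ℝ}

theorem Gauge.two2 (h : Gauge w R C Z a L) : ∃ η : ℝ, 0 < η ∧ ∀ x y, Traj Z R x → Traj Z R y →
    (∀ r ∈ Icc 0 R, ‖x r - y r‖ ≤ η) →
      ‖x R - y R‖ ≤ Real.exp (2 * C + R) * Real.exp (w (x 0)) * ‖x 0 - y 0‖ ∧
      Real.exp (w (x 0)) * ‖x 0 - y 0‖ ≤ Real.exp (2 * C + R) * ‖x R - y R‖ := by
  obtain ⟨K, K1, hK⟩ := h.lip
  have K0 : 0 < K := by linarith
  refine ⟨1 / K, by positivity, fun x y hx hy hc => ?_⟩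
  have hc' : ∀ r ∈ Icc 0 R, K * ‖y r - x r‖ ≤ 1 := fun r hr => by
    have := hc r hr
    rwa [le_div_iff₀ K0, mul_comm, norm_sub_rev] at this
  have m0 : (0 : ℝ) ∈ Icc 0 R := left_mem_Icc.2 h.R0.le
  have mR : R ∈ Icc 0 R := right_mem_Icc.2 h.R0.le
  have b0 : x 0 ∈ ball (0 : E n) 1 := mem_ball_zero_iff.2 (by linarith [hx.mem 0 m0])
  have bR : x R ∈ ball (0 : E n) 1 := mem_ball_zero_iff.2 (by linarith [hx.mem R mR])
  have a1 := flb_anti h (Or.inl rfl) (fun r hr x y h1 h2 => (hK r hr x y h1 h2).2) hx hy hc'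
    m0 mR h.R0.le
  have a2 := flb_anti h (Or.inr rfl) (fun r hr x y h1 h2 => (hK r hr x y h1 h2).2) hx hy hc'
    m0 mR h.R0.le
  simp only [one_mul, h.a0] at a1
  simp only [neg_one_mul, neg_le_neg_iff, h.a0] at a2
  have l0 := mul_nonneg h.C0 (h.bL _ b0 0 m0).1
  have lR := mul_le_mul_of_nonneg_left (h.bL _ bR R mR).2 h.C0
  have aR := abs_le.1 (h.aR _ bR)
  rw [norm_sub_rev (x R), norm_sub_rev (x 0)]
  constructor
  · have := flb_sq (γ := 0) (δ := 2 * C + R + w (x 0)) (norm_nonneg _) a1 (by linarith [aR.1])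
    rwa [Real.exp_zero, one_mul, Real.exp_add] at this
  · exact flb_sq (norm_nonneg _) a2 (by linarith [aR.2])

theorem Gauge.move (h : Gauge w R C Z a L) {x : ℝ → E n} (hx : Traj Z R x) :
    ‖x R - x 0‖ ≤ R := by
  have h1 := (convex_Icc (0 : ℝ) R).norm_image_sub_le_of_norm_hasDerivWithin_le (C := 1) hx.der
    (fun r hr => (h.bZ (x r) (mem_ball_zero_iff.2 (by linarith [hx.mem r hr])) r hr).trans
      (by norm_num)) (left_mem_Icc.2 h.R0.le) (right_mem_Icc.2 h.R0.le)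
  rwa [one_mul, sub_zero, Real.norm_of_nonneg h.R0.le] at h1

theorem Gauge.flow2 (h : Gauge w R C Z a L) : ∃ η : ℝ, 0 < η ∧ ∃ Φ G,
    FlowD w (Real.exp (2 * C + R)) η Φ G ∧ ∀ x ∈ ball (0 : E n) (4 / 5), ‖Φ x - x‖ ≤ R := by
  have h0 : (0 : ℝ) ∈ Icc 0 R := ⟨le_rfl, h.R0.le⟩
  have hR : R ∈ Icc 0 R := ⟨h.R0.le, le_rfl⟩
  have eT : ∀ x₀ : E n, x₀ ∈ ball (0 : E n) (4 / 5) →
      ∃ x, Traj Z R x ∧ x 0 = x₀ ∧ ∀ r ∈ Icc 0 R, ‖x r - x₀‖ ≤ 1 / 10 :=
    fun x₀ hx => h.exists_traj h0 hx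
  have eS : ∀ x₀ : E n, x₀ ∈ ball (0 : E n) (4 / 5) →
      ∃ x, Traj Z R x ∧ x R = x₀ ∧ ∀ r ∈ Icc 0 R, ‖x r - x₀‖ ≤ 1 / 10 :=
    fun x₀ hx => h.exists_traj hR hx
  choose! T hT hT0 hTm using eT
  choose! S hS hSR hSm using eS
  obtain ⟨B, hB, hcl⟩ := h.close
  obtain ⟨η, hη, htwo⟩ := h.two2
  have hB0 : 0 < B := lt_of_lt_of_le one_pos hB
  have hsub : ∀ x y : E n, x ∈ ball (0 : E n) (3 / 5) → ‖y - x‖ ≤ 1 / 10 →
      y ∈ ball (0 : E n) (4 / 5) := by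
    intro x y hx hy
    rw [mem_ball_zero_iff] at hx ⊢
    have h1 : ‖y‖ ≤ ‖y - x‖ + ‖x‖ := by
      have := norm_add_le (y - x) x
      rwa [sub_add_cancel] at this
    linarith
  have hsub' : ∀ x : E n, x ∈ ball (0 : E n) (3 / 5) → x ∈ ball (0 : E n) (4 / 5) := by
    intro x hx
    rw [mem_ball_zero_iff] at hx ⊢
    linarith
  refine ⟨η / B, div_pos hη hB0, fun x => T x R, fun x => S x 0, ⟨?_, ?_, ?_, ?_⟩,
    fun x hx => ?_⟩
  · intro x hx
    exact ⟨hTm x hx R hR, hSm x hx 0 h0⟩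
  · intro x hx
    have hx' := hsub' x hx
    constructor
    · have hy : T x R ∈ ball (0 : E n) (4 / 5) := hsub x _ hx (hTm x hx' R hR)
      have h1 := (hcl (S (T x R)) (T x) (hS _ hy) (hT x hx') 0 h0).2
      rw [hSR _ hy, sub_self, norm_zero, mul_zero, hT0 x hx'] at h1
      exact sub_eq_zero.1 (norm_le_zero_iff.1 h1)
    · have hy : S x 0 ∈ ball (0 : E n) (4 / 5) := hsub x _ hx (hSm x hx' 0 h0)
      have h1 := (hcl (T (S x 0)) (S x) (hT _ hy) (hS x hx') R hR).1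
      rw [hT0 _ hy, sub_self, norm_zero, mul_zero, hSR x hx'] at h1
      exact sub_eq_zero.1 (norm_le_zero_iff.1 h1)
  · intro x hx y hy hxy
    have h1 : ∀ r ∈ Icc 0 R, ‖T x r - T y r‖ ≤ η := by
      intro r hr
      have h2 := (hcl (T x) (T y) (hT x hx) (hT y hy) r hr).1
      rw [hT0 x hx, hT0 y hy] at h2
      have h3 : B * ‖x - y‖ ≤ B * (η / B) := mul_le_mul_of_nonneg_left hxy hB0.le
      rw [mul_div_cancel₀ _ hB0.ne'] at h3
      exact h2.trans h3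
    have h4 := (htwo (T x) (T y) (hT x hx) (hT y hy) h1).1
    rw [hT0 x hx, hT0 y hy] at h4
    exact h4
  · intro x hx y hy hxy
    have h1 : ∀ r ∈ Icc 0 R, ‖S x r - S y r‖ ≤ η := by
      intro r hr
      have h2 := (hcl (S x) (S y) (hS x hx) (hS y hy) r hr).2
      rw [hSR x hx, hSR y hy] at h2
      have h3 : B * ‖x - y‖ ≤ B * (η / B) := mul_le_mul_of_nonneg_left hxy hB0.le
      rw [mul_div_cancel₀ _ hB0.ne'] at h3
      exact h2.trans h3
    have h4 := (htwo (S x) (S y) (hS x hx) (hS y hy) h1).2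
    rw [hSR x hx, hSR y hy] at h4
    exact h4
  · have h1 := h.move (hT x hx)
    rwa [hT0 x hx] at h1

end Vale.Agent.P242
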