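import Vale.Agent.P242R.Chart2
import Vale.Agent.P242R.Core2
import Vale.Agent.P242R.Flow2

/-! P242R Up3 (TASK, owner helper5; helper names start with up3_). Assembly. Put `c = aa K w z l`, `V = fun p => sc w z l p - c`; `NL.sc`, `NL.sub`, `lap_sub_const` (mass is unchanged), `av_sub` with `K.one`, `av_sc` give the hypotheses of `core2` (use `δ / 3`, respectively `1`); then `flow2`, `up2`, `dd_le_of_le`, `chart2`. A chart with constant `exp (2 + R)`, `R ≤ 1`: either prove monotonicity of `FlowD` in `A` or use `Gauge.flow` (constant `exp (2 * 1 + 1)`). -/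

namespace Vale.Agent.P242

open MeasureTheory Set Metric Filter Topology
open scoped ENNReal ContDiff RealInnerProductSpace

variable {n : ℕ}

theorem up3_hyp (K : Kit2 n) {w : E n → ℝ} (hw : NL w) {z : E n} {l : ℝ} (hl : 0 < l)
    (hz : ‖z‖ + 4 * l ≤ 4) : NL (fun p => sc w z l p - aa K w z l) ∧
      mass (fun p => sc w z l p - aa K w z l) = mass (sc w z l) ∧
      aa K (fun p => sc w z l p - aa K w z l) 0 1 = 0 := by
  have h1 := hw.sc hl.le hz
  refine ⟨h1.sub _, ?_, ?_⟩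
  · rw [mass, mass, lap_sub_const]
  · rw [aa, av_sub K.hψ.eta K.one h1.1.continuous, av_sc, smul_zero, add_zero, mul_one, aa,
      sub_self]

theorem up_loc (hn : 3 ≤ n) (K : Kit2 n) {δ : ℝ} (hδ : 0 < δ) : ∃ θ : ℝ, 0 < θ ∧
    ∀ w : E n → ℝ, NL w → ∀ (z : E n) (l : ℝ), 0 < l → ‖z‖ + 4 * l ≤ 4 →
      mass (sc w z l) ≤ θ → ∀ u ∈ ball z (l / 2), ∀ v ∈ ball z (l / 2),
        dd w u v ≤ Real.exp (aa K w z l + δ) * (‖u - v‖ + δ * l) := by
  obtain ⟨θ, R, hθ, hR, H⟩ := core2 hn K (δ := δ / 3) (by positivity)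
  refine ⟨θ, hθ, fun w hw z l hl hz hm u hu v hv => ?_⟩
  obtain ⟨h1, h2, h3⟩ := up3_hyp K hw hl hz
  obtain ⟨Z, a, L, hG⟩ := H _ h1 (h2.trans_le hm) h3
  obtain ⟨η, hη, Φ, G, hF, hmv⟩ := hG.flow2
  have r0 := hG.R0
  have h4 := hF.up2 hw.1.continuous (Real.exp_pos _).le hη hl (by linarith) hmv hu hv
  refine (dd_le_of_le (by positivity) h4).trans ?_
  rw [← Real.exp_add]
  refine mul_le_mul (Real.exp_le_exp.2 (by linarith)) ?_ (by positivity) (Real.exp_pos _).le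
  have h5 : 2 * R * l ≤ δ * l := mul_le_mul_of_nonneg_right (by linarith) hl.le
  linarith

theorem chart_loc (hn : 3 ≤ n) (K : Kit2 n) : ∃ θ : ℝ, 0 < θ ∧
    ∀ w : E n → ℝ, NL w → ∀ l ∈ Ioc (0 : ℝ) 1, mass (sc w 0 l) ≤ θ →
      Chart w (Real.exp 3) (l * Real.exp (aa K w 0 l) / 10) := by
  obtain ⟨θ, R, hθ, -, H⟩ := core2 hn K (δ := 1) one_pos
  refine ⟨θ, hθ, fun w hw l hl hm => ?_⟩
  obtain ⟨h1, h2, h3⟩ := up3_hyp K hw (z := 0) hl.1 (by rw [norm_zero]; linarith [hl.2])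
  obtain ⟨Z, a, L, hG⟩ := H _ h1 (h2.trans_le hm) h3
  obtain ⟨η, hη, Φ, G, hF⟩ := hG.flow
  have h4 : (2 * 1 + 1 : ℝ) = 3 := by norm_num
  rw [h4] at hF
  exact hF.chart2 hw.1.continuous (Real.one_le_exp (by norm_num)) hη hl.1 hl.2

end Vale.Agent.P242
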