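import Vale.Agent.P242R.Prf
import Vale.Agent.P242R.Rot
import Vale.Agent.P242R.Up3
import Vale.Agent.P242R.Low
import Vale.Agent.P242R.Seg
import Vale.Agent.P242R.Pinch

/-! P242R Cone (owner helper5; helper names start with con_). Assembly at a pinched scale. -/

namespace Vale.Agent.P242

open MeasureTheory Set Metric Filter Topology
open scoped ENNReal ContDiff RealInnerProductSpace

variable {n : ℕ}

theorem con_real {ρ : ℝ} (h0 : 0 < ρ) (h1 : ρ ≤ 1 / 2) :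
    (1 + 2 * (4 * (ρ / 100))) * Real.exp (2 * (ρ / 100)) * (1 - ρ) ≤
      (1 - ρ / 2) * Real.exp (-(ρ / 100)) := by
  have e1 : Real.exp (2 * (ρ / 100)) = Real.exp (3 * (ρ / 100)) * Real.exp (-(ρ / 100)) := by
    rw [← Real.exp_add]; congr 1; ring
  have h2 := Real.add_one_le_exp (-(3 * (ρ / 100)))
  have h3 : Real.exp (3 * (ρ / 100)) * Real.exp (-(3 * (ρ / 100))) = 1 := by
    rw [← Real.exp_add]; simp
  have h4 := Real.exp_pos (3 * (ρ / 100))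
  have h5 : Real.exp (3 * (ρ / 100)) ≤ 1 + 6 * (ρ / 100) := by
    have := mul_le_mul_of_nonneg_left h2 h4.le
    nlinarith
  rw [e1, mul_right_comm, ← mul_assoc]
  refine mul_le_mul_of_nonneg_right ?_ (Real.exp_pos _).le
  have h6 : 0 ≤ (1 + 2 * (4 * (ρ / 100))) * (1 - ρ) := mul_nonneg (by positivity) (by linarith)
  refine (mul_le_mul_of_nonneg_left h5 h6).trans ?_
  nlinarith [mul_pos h0 h0, mul_pos (mul_pos h0 h0) h0]

/-- The geometric part: a radial profile `b` approximating the local averages. -/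
theorem con_geo (hn : 3 ≤ n) {w : E n → ℝ} (hw : Continuous w) {b : ℝ → ℝ} (hb : Continuous b)
    {a ϱ κ : ℝ} (ha : 0 < a) (ha1 : a ≤ 1) (hϱ : 0 < ϱ) (hϱ1 : ϱ ≤ 1) (hκ : 0 < κ) (hκ1 : κ ≤ ϱ)
    (hanti : AntitoneOn b (Icc (a ^ 2 / 2048 * ϱ) ϱ))
    (hdrop : b (3 * (a / 256 * ϱ)) ≤ b (a / 256 * ϱ) - a)
    (hlo : ∀ q : E n, a ^ 2 / 2048 * ϱ ≤ ‖q‖ → ‖q‖ ≤ ϱ → b ‖q‖ - a ^ 2 / 4096 / 100 ≤ w q)
    (hup : ∀ q : E n, a ^ 2 / 2048 * ϱ ≤ ‖q‖ → ‖q‖ ≤ ϱ → ∀ u ∈ closedBall q κ,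
      ∀ v ∈ closedBall q κ, dd w u v ≤ Real.exp (b ‖q‖ + 2 * (a ^ 2 / 4096 / 100)) *
        (‖u - v‖ + 4 * (a ^ 2 / 4096 / 100) * κ)) :
    ∃ J : ℝ, 0 ≤ J ∧ (∀ z : E n, ‖z‖ = ϱ → J ≤ dd w 0 z) ∧
      ∀ x y : E n, ‖x‖ = ϱ → ‖y‖ = ϱ → dd w x y ≤ 2 * (1 - a ^ 2 / 4096 / 2) * J := by
  have ha2 : a ^ 2 ≤ a := by nlinarith
  have hρ : a ^ 2 / 2048 * ϱ ≤ a / 128 * ϱ := mul_le_mul_of_nonneg_right (by linarith) hϱ.le
  have hρ1 : a ^ 2 / 2048 * ϱ ≤ ϱ := by nlinarith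
  have hI : 0 ≤ ∫ t in (a ^ 2 / 2048 * ϱ)..ϱ, Real.exp (b t) :=
    intervalIntegral.integral_nonneg hρ1 fun t _ => (Real.exp_pos _).le
  have hB : ∀ z : E n, ‖z‖ ≤ ϱ → z ∈ ball (0 : E n) 4 := fun z hz =>
    mem_ball_zero_iff.2 (by linarith)
  have e : ∫ t in (a ^ 2 / 2048 * ϱ)..ϱ, Real.exp (b t - a ^ 2 / 4096 / 100) =
      Real.exp (-(a ^ 2 / 4096 / 100)) * ∫ t in (a ^ 2 / 2048 * ϱ)..ϱ, Real.exp (b t) := by
    rw [← intervalIntegral.integral_const_mul]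
    refine intervalIntegral.integral_congr fun t _ => ?_
    rw [← Real.exp_add]; congr 1; ring
  refine ⟨∫ t in (a ^ 2 / 2048 * ϱ)..ϱ, Real.exp (b t - a ^ 2 / 4096 / 100), ?_, fun z hz => ?_,
    fun x y hx hy => ?_⟩
  · rw [e]; positivity
  · exact low hw (β := fun t => b t - a ^ 2 / 4096 / 100) (hb.sub continuous_const)
      (by positivity) hρ1 hlo (hB z hz.le) hz.ge
  · obtain ⟨m, hm, hmx, hmy⟩ := exists_perp hn x y (h := a / 64 * ϱ) (by positivity)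
    have hm4 : m ∈ ball (0 : E n) 4 := hB m (by rw [hm]; nlinarith)
    have key : ∀ x : E n, ‖x‖ = ϱ → ⟪m, x⟫ = 0 → dd w x m ≤ (1 - a ^ 2 / 4096 / 2) *
        ∫ t in (a ^ 2 / 2048 * ϱ)..ϱ, Real.exp (b t - a ^ 2 / 4096 / 100) := by
      intro x hx hp
      obtain ⟨n1, n2⟩ := rot_norm ha ha1 hϱ hx hm hp
      have h1 := seg_sum hw (β := fun q => b ‖q‖ + 2 * (a ^ 2 / 4096 / 100))
        ((hb.comp continuous_norm).add continuous_const) (hB x hx.le) hm4 hκ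
        (ζ := 4 * (a ^ 2 / 4096 / 100)) (by positivity) (hκ1.trans n1)
        fun s hs => hup _ (hρ.trans (n2 s hs).1) (n2 s hs).2
      have h2 := rot hb ha ha1 hϱ hanti hdrop hx hm hp
      have e2 : ∫ s in (0 : ℝ)..1, Real.exp (b ‖m + s • (x - m)‖ + 2 * (a ^ 2 / 4096 / 100)) =
          Real.exp (2 * (a ^ 2 / 4096 / 100)) *
            ∫ s in (0 : ℝ)..1, Real.exp (b ‖m + s • (x - m)‖) := by
        rw [← intervalIntegral.integral_const_mul]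
        refine intervalIntegral.integral_congr fun t _ => ?_
        rw [← Real.exp_add]; congr 1; ring
      have h3 := mul_le_mul_of_nonneg_right
        (con_real (ρ := a ^ 2 / 4096) (by positivity) (by linarith)) hI
      have h4 := mul_le_mul_of_nonneg_left h2 (show 0 ≤ (1 + 2 * (4 * (a ^ 2 / 4096 / 100))) *
        Real.exp (2 * (a ^ 2 / 4096 / 100)) by positivity)
      rw [e2] at h1
      rw [e]
      linarith
    have h1 := dd_tri hw (hB x hx.le) hm4 (hB y hy.le)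
    rw [dd_comm w m y] at h1
    linarith [key x hx hmx, key y hy hmy]

theorem cone (hn : 3 ≤ n) (K : Kit2 n) {ε : ℝ} (hε : 0 < ε) : ∃ c π₀ κ : ℝ, 0 < c ∧ c ≤ 1 ∧
    0 < π₀ ∧ 0 < κ ∧ κ ≤ 1 ∧ ∀ w : E n → ℝ, NL w → ∀ r ∈ Ioc (0 : ℝ) 1,
      de K.φ (sc w 0 r) ≤ π₀ → ε ≤ mass (sc w 0 (κ * r)) → ∃ J : ℝ, 0 ≤ J ∧
        (∀ z : E n, ‖z‖ = r / 2 → J ≤ dd w 0 z) ∧
        ∀ x y : E n, ‖x‖ = r / 2 → ‖y‖ = r / 2 → dd w x y ≤ 2 * (1 - c) * J := by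
  obtain ⟨c0, hc0, hsh⟩ := exists_shell hn
  obtain ⟨Cm, hCm, hm⟩ := mass_le_shell hn
  obtain ⟨a, hdef⟩ : ∃ a, a = min 1 (c0 * ε / Cm) := ⟨_, rfl⟩
  have ha : 0 < a := hdef ▸ lt_min one_pos (by positivity)
  have ha1 : a ≤ 1 := hdef ▸ min_le_left _ _
  have ha2 : a ≤ c0 * ε / Cm := hdef ▸ min_le_right _ _
  have ha3 : a ^ 2 ≤ a := by nlinarith
  have hρ0 : 0 < a ^ 2 / 4096 := by positivity
  have hρ1 : a ^ 2 / 4096 ≤ 1 / 2 := by linarith
  obtain ⟨l1, hl1, hl1', hprf⟩ := prf hn K hρ0 hρ1 (δ := a ^ 2 / 4096 / 100) (by positivity)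
  obtain ⟨ψ, hψ⟩ := hsh l1 hl1 hl1'
  obtain ⟨l0, hl0, hprf⟩ := hprf c0 ψ hψ
  obtain ⟨C1, hC1, hloc⟩ := loc hn K.toKit hρ0 hρ1
  obtain ⟨θ, hθ, hup⟩ := up_loc hn K (δ := a ^ 2 / 4096 / 100) (by positivity)
  obtain ⟨l, hl⟩ : ∃ l, l = min (min l0 (a ^ 2 / 4096 / 10)) (θ / C1) := ⟨_, rfl⟩
  have l0' : 0 < l := hl ▸ lt_min (lt_min hl0 (by positivity)) (by positivity)
  have l1' : l ≤ l0 := hl ▸ (min_le_left _ _).trans (min_le_left _ _)
  have l2' : l ≤ a ^ 2 / 4096 / 10 := hl ▸ (min_le_left _ _).trans (min_le_right _ _)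
  have l3' : l ≤ θ / C1 := hl ▸ min_le_right _ _
  have l4' : C1 * l ^ 2 ≤ θ := by
    rw [le_div_iff₀ (by linarith)] at l3'
    nlinarith [mul_le_mul_of_nonneg_left (show l ≤ 1 by linarith) (show 0 ≤ C1 * l by positivity)]
  obtain ⟨π1, hπ1, hprf⟩ := hprf l l0' l1'
  obtain ⟨π2, hπ2, hloc⟩ := hloc l l0' l2'
  refine ⟨a ^ 2 / 4096 / 2, min π1 π2, a ^ 2 / 4096 / 8, by positivity, by linarith,
    lt_min hπ1 hπ2, by positivity, by linarith, fun w hw r hr hde hmass => ?_⟩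
  have hr0 := hr.1
  have hr1 := hr.2
  have hW : NL (sc w 0 r) := hw.sc hr0.le (by rw [norm_zero]; linarith)
  have hlap := hw.lap_le hn
  have hrl : 0 < r * l := by positivity
  have hrl1 : r * l ≤ l := by nlinarith
  have fact : ∀ q : E n, a ^ 2 / 2048 * (r / 2) ≤ ‖q‖ → ‖q‖ ≤ r / 2 →
      |aa K w q (r * l) - av (eta ψ) w (0, ‖q‖)| ≤ a ^ 2 / 4096 / 100 ∧
        mass (sc w q (r * l)) ≤ θ := by
    intro q h1 h2
    have e1 : ‖r⁻¹ • q‖ = r⁻¹ * ‖q‖ := by rw [norm_smul, Real.norm_of_nonneg (by positivity)]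
    have e2 : (0 : E n) + r • r⁻¹ • q = q := by rw [zero_add, smul_inv_smul₀ hr0.ne']
    have b1 : a ^ 2 / 4096 ≤ ‖r⁻¹ • q‖ := by
      rw [e1, ← div_eq_inv_mul, le_div_iff₀ hr0]; linarith
    have b2 : ‖r⁻¹ • q‖ ≤ 1 / 2 := by
      rw [e1, ← div_eq_inv_mul, div_le_iff₀ hr0]; linarith
    have k1 := hprf _ hW (hde.trans (min_le_left _ _)) _ b1 b2
    have k2 := hloc _ hW (hde.trans (min_le_right _ _)) _ b1 b2
    rw [aa, av_sc, av_sc, e2, e1, smul_zero, add_zero, mul_inv_cancel_left₀ hr0.ne'] at k1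
    rw [sc_sc, e2] at k2
    exact ⟨k1, k2.trans l4'⟩
  have hρr : 0 < a ^ 2 / 4096 * r := by positivity
  have hρr1 : a ^ 2 / 4096 * r ≤ 1 := by nlinarith
  have hexp : ∀ t, a ^ 2 / 4096 * r ≤ t → t ≤ 1 → I ψ (lap (sc w 0 t)) ≤ -a := by
    intro t h1 h2
    have k1 := hm c0 ψ _ (hw.sc hρr.le (z := 0) (by rw [norm_zero]; linarith)) hc0.le hψ.prof
      hψ.p0 hψ.low
    rw [sc_sc, smul_zero, add_zero,
      show a ^ 2 / 4096 * r * (1 / 8) = a ^ 2 / 4096 / 8 * r by ring] at k1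
    have k2 : -I ψ (lap (sc w 0 (a ^ 2 / 4096 * r))) ≤ -I ψ (lap (sc w 0 t)) :=
      M_mono hn (scl_prof hψ.prof) hψ.p1 hw ⟨hρr.le, hρr1⟩ ⟨hρr.le.trans h1, h2⟩ h1
    have k3 := mul_le_mul_of_nonneg_left hmass hc0.le
    rw [le_div_iff₀ (by linarith)] at ha2
    have k4 : Cm * a ≤ Cm * -I ψ (lap (sc w 0 (a ^ 2 / 4096 * r))) := by linarith
    have k5 := le_of_mul_le_mul_left k4 (by linarith)
    linarith
  refine con_geo hn hw.1.continuous (b := fun t => av (eta ψ) w (0, t))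
    ((av_smooth hψ.prof.eta hw.1).continuous.comp (continuous_const.prodMk continuous_id))
    ha ha1 (by positivity) (by linarith) (κ := r * l / 4) (by positivity) (by nlinarith) ?_ ?_ ?_ ?_
  · refine (av_anti hψ.prof hψ.p0 hw.1 hlap (x := 0) (ρ := 1) (by simp)).mono
      (Icc_subset_Icc (by positivity) (by linarith))
  · have h0 : 0 < a / 256 * (r / 2) := by positivity
    have k := av_log_le hψ.prof hw.1 0 (a := a) h0
      (show a / 256 * (r / 2) ≤ 3 * (a / 256 * (r / 2)) by linarith)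
      fun t ht => hexp t (le_trans (by nlinarith) ht.1) (ht.2.trans (by nlinarith))
    rw [mul_div_assoc, div_self h0.ne', mul_one] at k
    have k2 : 1 ≤ Real.log 3 := by
      rw [Real.le_log_iff_exp_le (by norm_num)]
      linarith [Real.exp_one_lt_d9]
    nlinarith
  · intro q h1 h2
    have k1 := (abs_le.1 (fact q h1 h2).1).1
    have k2 := aa_le K hw.1 hlap hrl.le (x := q) (by linarith)
    linarith
  · intro q h1 h2 u hu v hv
    obtain ⟨k1, k2⟩ := fact q h1 h2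
    have hs : closedBall q (r * l / 4) ⊆ ball q (r * l / 2) := closedBall_subset_ball (by linarith)
    refine (hup w hw q (r * l) hrl (by linarith) k2 u (hs hu) v (hs hv)).trans ?_
    rw [show 4 * (a ^ 2 / 4096 / 100) * (r * l / 4) = a ^ 2 / 4096 / 100 * (r * l) by ring]
    refine mul_le_mul_of_nonneg_right (Real.exp_le_exp.2 ?_) (by positivity)
    linarith [(abs_le.1 k1).2]

end Vale.Agent.P242
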