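import Vale.Agent.P242.Stmt

namespace Vale.Agent.P242

open MeasureTheory Set Metric
open scoped ENNReal ContDiff

variable {n : ℕ}

/-- Smooth conformal factor with nonnegative Ricci curvature on the ball of radius 4. -/
def RicNN (w : E n → ℝ) : Prop :=
  ContDiff ℝ ∞ w ∧ ∀ x ∈ ball (0 : E n) 4, ∀ v : E n, 0 ≤ ∑ i, ∑ j, ric (cm w) i j x * v i * v j

/-- The Riemannian ball of radius `s` about the origin lies in the Euclidean ball of radius 1/2. -/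
def Inside (w : E n → ℝ) (s : ℝ) : Prop :=
  ∀ x ∈ ball (0 : E n) 4, cdist w 0 x < ENNReal.ofReal s → ‖x‖ < 1 / 2

/-- The rescalings of `X` at `p` converge to Euclidean space in the pointed Gromov-Hausdorff
sense. -/
def Regular (n : ℕ) {X : Type} [MetricSpace X] (p : X) : Prop :=
  ∀ η : ℝ, 0 < η → ∃ t₀ : ℝ, 0 < t₀ ∧ ∀ t ∈ Ioc 0 t₀, ∃ F : X → E n, F p = 0 ∧
    (∀ x ∈ ball p t, ∀ y ∈ ball p t, |‖F x - F y‖ - dist x y| ≤ η * t) ∧
    ∀ a ∈ ball (0 : E n) ((1 - η) * t), ∃ x ∈ ball p t, ‖F x - a‖ ≤ η * t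

end Vale.Agent.P242
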