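import Vale.Agent.P242.Defs
import Vale.Agent.P242R.Stmt

/-! P242R Defs (owner helper5, overview notes/P242.md). -/

namespace Vale.Agent.P242

open MeasureTheory Set Metric
open scoped ENNReal ContDiff RealInnerProductSpace

noncomputable section

variable {n : ℕ}

/-- Squared norm of the gradient. -/
def gsq (W : E n → ℝ) (x : E n) : ℝ := ∑ i, pd i W x ^ 2

/-- Smooth, with the nonlinear inequality (nonnegative Ricci curvature) on the ball of radius 4. -/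
def NL (W : E n → ℝ) : Prop := ContDiff ℝ ∞ W ∧ ∀ x ∈ ball (0 : E n) 4, ∀ v,
  ((n : ℝ) - 2) * (gsq W x * ‖v‖ ^ 2 - D v W x ^ 2) ≤ mu W x v v

/-- Mass of minus the Laplacian. -/
def mass (W : E n → ℝ) : ℝ := ∫ x in ball (0 : E n) 4, -lap W x

/-- The real valued distance. -/
def dd (w : E n → ℝ) (x y : E n) : ℝ := (cdist w x y).toReal

/-- Profiles with signs. -/
structure Kit2 (n : ℕ) extends Kit n where
  c : ℝ
  c0 : 0 < c
  ψ0 : ∀ s, 0 ≤ ψ s
  ψ1 : ∀ s, deriv ψ s ≤ 0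
  ψ2 : ∀ s, s ≤ 1 / 2 → c ≤ -deriv ψ s

/-- A profile whose averaging kernel lives in a thin shell. -/
structure Shell (n : ℕ) (c l : ℝ) (ψ : ℝ → ℝ) : Prop where
  prof : Prof 1 ψ
  p0 : ∀ s, 0 ≤ ψ s
  p1 : ∀ s, deriv ψ s ≤ 0
  p2 : ∀ s, s ≤ 1 - l → deriv ψ s = 0
  one : I (eta ψ) (fun _ : E n => 1) = 1
  low : ∀ s, s ≤ 1 / 2 → c ≤ ψ s

/-- The average at the point `x` and scale `r`. -/
def aa (K : Kit2 n) (w : E n → ℝ) (x : E n) (r : ℝ) : ℝ := av (eta K.ψ) w (x, r)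

/-- The model radial distance. -/
def TT (K : Kit2 n) (w : E n → ℝ) (r : ℝ) : ℝ := ∫ t in (0 : ℝ)..r, Real.exp (aa K w 0 t)

end

end Vale.Agent.P242
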