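import Vale.Agent.P242R.Mono

/-! P242R Exp1 (TASK, owner helper5; helper names start with ex1_). Exponential integrability, small exponents. `u = fun p => exp (β * V p)` has `lap u = u * (β * lap V + β^2 * gsq V)` (`lap_exp`: `pd i u = β * u * pd i V` as functions, product rule), which is `≤ 0` on `ball 0 4` by `NL.grad`. Take `q` minimising `V` on `closedBall 0 1` (`IsCompact.exists_isMinOn`); `V q ≤ aa K V 0 1` (`eta K.ψ ≥ 0`, `K.one`, `integral_mono`). `aa_le` for `u` at `(q, 3)`: `av η u (q, 3) ≤ u q`, and `av η u (q, 3) ≥ 2 c ∫ p, indicator (ball 0 (11/10)) u (q + 3 • p) = 2 c (3^n)⁻¹ ∫ ..` (`cov`; if `q + 3 p ∈ ball 0 (11/10)` then `‖p‖ < 7/10`, `K.ψ2`). -/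

namespace Vale.Agent.P242

open MeasureTheory Set Metric Filter Topology
open scoped ENNReal ContDiff RealInnerProductSpace

variable {n : ℕ}

theorem lap_exp {V : E n → ℝ} (hV : ContDiff ℝ ∞ V) (β : ℝ) (x : E n) :
    lap (fun p => Real.exp (β * V p)) x =
      Real.exp (β * V x) * (β * lap V x + β ^ 2 * gsq V x) := by
  have hd : ∀ p, HasFDerivAt (fun p => Real.exp (β * V p))
      (Real.exp (β * V p) • β • fderiv ℝ V p) p := fun p =>
    ((hV.differentiable (by simp) p).hasFDerivAt.const_mul β).exp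
  have h1 : ∀ i, pd i (fun p => Real.exp (β * V p)) =
      fun p => Real.exp (β * V p) * (β * pd i V p) := fun i => funext fun p => by
    rw [pd, (hd p).fderiv]
    rfl
  have h2 : ∀ i, pd i (pd i fun p => Real.exp (β * V p)) x =
      Real.exp (β * V x) * (β * pd i (pd i V) x + β ^ 2 * pd i V x ^ 2) := fun i => by
    have h3 : HasFDerivAt (pd i V) (fderiv ℝ (pd i V) x) x :=
      ((smooth_D hV (EuclideanSpace.single i 1)).differentiable (by simp) x).hasFDerivAt
    rw [h1, pd, ((hd x).fun_mul (h3.const_mul β)).fderiv]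
    simp only [ContinuousLinearMap.add_apply, ContinuousLinearMap.smul_apply, smul_eq_mul, pd]
    ring
  simp only [lap, gsq, h2, Finset.mul_sum, ← Finset.sum_add_distrib]

theorem exp1 (hn : 3 ≤ n) (K : Kit2 n) : ∃ C : ℝ, 1 ≤ C ∧ ∀ (V : E n → ℝ) (β : ℝ), NL V →
    0 < β → β ≤ ((n : ℝ) - 2) / 2 →
      ∫ p in ball (0 : E n) (11 / 10), Real.exp (β * V p) ≤ C * Real.exp (β * aa K V 0 1) := by
  have hc := K.c0
  refine ⟨max 1 (3 ^ n / (2 * K.c)), le_max_left _ _, fun V β hV h0 h1 => ?_⟩
  have hu : ContDiff ℝ ∞ fun p => Real.exp (β * V p) := (contDiff_const.mul hV.1).exp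
  have hη : ∀ s, 0 ≤ eta K.ψ s := fun s => by
    have := K.ψ1 s
    rw [eta]
    linarith
  obtain ⟨q, hq, hm⟩ := (isCompact_closedBall (0 : E n) 1).exists_isMinOn
    ⟨0, mem_closedBall_self zero_le_one⟩ hV.1.continuous.continuousOn
  rw [mem_closedBall_zero_iff] at hq
  have a1 : V q ≤ aa K V 0 1 := by
    have h2 := I_mul (eta K.ψ) (V q) (fun _ : E n => 1)
    rw [K.one, mul_one] at h2
    rw [← h2, aa, av, sc_one]
    refine integral_mono (integrable_rad K.hψ.eta continuous_const)
      (integrable_rad K.hψ.eta hV.1.continuous) fun p => ?_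
    by_cases hp : ‖p‖ ≤ 1
    · exact mul_le_mul_of_nonneg_right (hm (mem_closedBall_zero_iff.2 hp)) (hη _)
    · simp only [K.hψ.eta.2 (‖p‖ ^ 2) (by nlinarith), mul_zero, le_refl]
  have a2 := aa_le K hu (fun x hx => by
    rw [lap_exp hV.1]
    refine mul_nonpos_of_nonneg_of_nonpos (Real.exp_pos _).le ?_
    have b1 := hV.grad hn hx
    have b2 := mul_le_mul_of_nonneg_right h1 (gsq_nonneg V x)
    have b3 : lap V x + β * gsq V x ≤ 0 := by linarith
    nlinarith) (x := q) (r := 3) (by norm_num) (by linarith)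
  have a3 : 2 * K.c * ∫ p, (ball (0 : E n) (11 / 10)).indicator (fun p => Real.exp (β * V p))
      (q + (3 : ℝ) • p) ≤ aa K (fun p => Real.exp (β * V p)) q 3 := by
    rw [← integral_const_mul]
    refine integral_mono_of_nonneg (Eventually.of_forall fun p => mul_nonneg (by positivity)
      (indicator_nonneg (fun _ _ => (Real.exp_pos _).le) _))
      (integrable_rad K.hψ.eta (smooth_sc hu q 3).continuous) (Eventually.of_forall fun p => ?_)
    by_cases hp : q + (3 : ℝ) • p ∈ ball (0 : E n) (11 / 10)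
    · have b1 := norm_sub_le (q + (3 : ℝ) • p) q
      rw [add_sub_cancel_left, norm_smul, Real.norm_ofNat] at b1
      have b2 := mem_ball_zero_iff.1 hp
      have b3 := K.ψ2 (‖p‖ ^ 2) (by nlinarith [norm_nonneg p])
      simp only [indicator_of_mem hp, sc, eta]
      nlinarith [Real.exp_pos (β * V (q + (3 : ℝ) • p))]
    · simp only [indicator_of_notMem hp, mul_zero]
      exact mul_nonneg (Real.exp_pos _).le (hη _)
  rw [cov _ q (by norm_num), integral_indicator measurableSet_ball] at a3
  have a4 : Real.exp (β * V q) ≤ Real.exp (β * aa K V 0 1) :=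
    Real.exp_le_exp.2 (mul_le_mul_of_nonneg_left a1 h0.le)
  refine le_trans ?_ (mul_le_mul_of_nonneg_right (le_max_right _ _) (Real.exp_pos _).le)
  rw [div_mul_eq_mul_div, le_div_iff₀ (by positivity), ← inv_mul_le_iff₀ (by positivity)]
  linarith

end Vale.Agent.P242
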