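import Vale.Agent.P242R.Exp1
import Vale.Agent.P242.KitE

/-! P242R Exp3 (TASK, owner helper5; helper names start with ex3_). One Moser step in dimension 3. `φ p = β₀ (‖p‖^2)` with `kit_step` for `(1, 6/5)` (`6/5 < (11/10)^2`), `g = exp (V / 3)`, `f = φ * exp (V / 6)`, smooth with compact support. `lap_exp` and `NL.grad'` give `g * gsq V / 18 ≤ -lap g` on `ball 0 4`, so `∫ φ^2 g gsq V ≤ -18 ∫ lap g * φ^2 = -18 ∫ g * lap (φ^2) ≤ C J`, `J = ∫ p in ball 0 (11/10), g` (`ibp_lap`; `lap (φ^2)` is bounded and vanishes off the ball). `‖fderiv f p‖^2 = gsq f p ≤ 2 gsq φ * g + 2 φ^2 g gsq V / 36` (only `‖fderiv f p‖^2 ≤ gsq f p` is needed: `ContinuousLinearMap.opNorm_le_bound`, `D_sq_le`). Sobolev: `MeasureTheory.eLpNorm_le_eLpNorm_fderiv_of_eq` (or the `_inner` version) with `p = 2`, `p' = 6`, `finrank = 3`; convert with `MemLp.eLpNorm_eq_integral_rpow_norm` or `eLpNorm_eq_lintegral_rpow_enorm_toReal` and `ofReal_integral_eq_lintegral_ofReal`;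 `f^6 = exp V` on `ball 0 1`. Split into helper lemmas: (1) Sobolev in the form `∫ f^6 ≤ C (∫ gsq f)^3` for smooth compactly supported `f`, (2) the rest. -/

namespace Vale.Agent.P242

open MeasureTheory Set Metric Filter Topology
open scoped ENNReal ContDiff RealInnerProductSpace

variable {n : ℕ}

theorem ex3_norm (f : E n → ℝ) (x : E n) : ‖fderiv ℝ f x‖ ^ 2 ≤ gsq f x := by
  have h0 := gsq_nonneg f x
  have h : ‖fderiv ℝ f x‖ ≤ √(gsq f x) := by
    refine ContinuousLinearMap.opNorm_le_bound _ (Real.sqrt_nonneg _) fun v => ?_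
    have h1 : (fderiv ℝ f x v) ^ 2 ≤ (√(gsq f x) * ‖v‖) ^ 2 := by
      rw [mul_pow, Real.sq_sqrt h0]
      exact D_sq_le f x v
    rw [Real.norm_eq_abs]
    exact abs_le_of_sq_le_sq' h1 (by positivity) |> abs_le.2
  calc ‖fderiv ℝ f x‖ ^ 2 ≤ √(gsq f x) ^ 2 := by gcongr
    _ = gsq f x := Real.sq_sqrt h0

theorem ex3_pd0 {U : Set (E n)} (hU : IsOpen U) {ψ : E n → ℝ} (h : ∀ p ∈ U, ψ p = 0)
    (i : Fin n) : ∀ p ∈ U, pd i ψ p = 0 := by
  intro p hp
  have h1 : ψ =ᶠ[𝓝 p] fun _ => (0 : ℝ) := by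
    filter_upwards [hU.mem_nhds hp] with q hq using h q hq
  unfold pd
  rw [h1.fderiv_eq]
  simp

theorem ex3_gcs {f : E n → ℝ} (hc : HasCompactSupport f) : HasCompactSupport (gsq f) := by
  refine HasCompactSupport.intro hc fun x hx => ?_
  have h := fun i => ex3_pd0 (isClosed_tsupport f).isOpen_compl
    (fun p hp => image_eq_zero_of_notMem_tsupport hp) i x hx
  simp [gsq, h]

theorem ex3_sob : ∃ S : ℝ, 0 ≤ S ∧ ∀ f : E 3 → ℝ, ContDiff ℝ ∞ f → HasCompactSupport f →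
    ∫ p, f p ^ 6 ≤ S * (∫ p, gsq f p) ^ 3 := by
  set S := eLpNormLESNormFDerivOfEqInnerConst (volume : Measure (E 3)) ((2 : NNReal) : ℝ)
    with hS
  refine ⟨(S : ℝ) ^ 6, by positivity, fun f hf hc => ?_⟩
  have hr : Module.finrank ℝ (E 3) = 3 := by simp
  have h := eLpNorm_le_eLpNorm_fderiv_of_eq_inner (volume : Measure (E 3))
    (hf.of_le (by exact_mod_cast le_top)) hc (p := 2) (p' := 6) (by norm_num) (by rw [hr]; norm_num)
    (by rw [hr]; norm_num)
  rw [← hS] at h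
  have h6 := eLpNorm_nnreal_pow_eq_lintegral (f := f) (μ := (volume : Measure (E 3)))
    (p := 6) (by norm_num)
  have h2 := eLpNorm_nnreal_pow_eq_lintegral (f := fderiv ℝ f) (μ := (volume : Measure (E 3)))
    (p := 2) (by norm_num)
  have hgi : Integrable (gsq f) := (gsq_cont hf).integrable_of_hasCompactSupport (ex3_gcs hc)
  have hG : 0 ≤ ∫ p, gsq f p := integral_nonneg fun p => gsq_nonneg f p
  have hfi : Integrable (fun p => f p ^ 6) := by
    refine (hf.continuous.pow 6).integrable_of_hasCompactSupport ?_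
    refine HasCompactSupport.intro hc fun x hx => ?_
    simp [image_eq_zero_of_notMem_tsupport hx]
  have e6 : ENNReal.ofReal (∫ p, f p ^ 6) = eLpNorm f (6 : NNReal) volume ^ (6 : ℕ) := by
    rw [ofReal_integral_eq_lintegral_ofReal hfi (Eventually.of_forall fun p => by positivity),
      ← ENNReal.rpow_natCast]
    have : (((6 : ℕ) : ℝ)) = ((6 : NNReal) : ℝ) := by norm_num
    rw [this, h6]
    refine lintegral_congr fun p => ?_
    rw [← this, ENNReal.rpow_natCast, ← ofReal_norm,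
      ← ENNReal.ofReal_pow (norm_nonneg _), Real.norm_eq_abs, Even.pow_abs (by norm_num)]
  have e2 : eLpNorm (fderiv ℝ f) (2 : NNReal) volume ^ (2 : ℕ) ≤
      ENNReal.ofReal (∫ p, gsq f p) := by
    rw [ofReal_integral_eq_lintegral_ofReal hgi (Eventually.of_forall fun p => gsq_nonneg f p),
      ← ENNReal.rpow_natCast]
    have : (((2 : ℕ) : ℝ)) = ((2 : NNReal) : ℝ) := by norm_num
    rw [this, h2]
    refine lintegral_mono fun p => ?_
    rw [← this, ENNReal.rpow_natCast, ← ofReal_norm,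
      ← ENNReal.ofReal_pow (norm_nonneg _)]
    exact ENNReal.ofReal_le_ofReal (ex3_norm f p)
  rw [← ENNReal.ofReal_le_ofReal_iff (by positivity), e6, ENNReal.ofReal_mul (by positivity),
    ENNReal.ofReal_pow hG, ENNReal.ofReal_pow S.coe_nonneg, ENNReal.ofReal_coe_nnreal]
  calc eLpNorm f (6 : NNReal) volume ^ (6 : ℕ)
      ≤ ((S : ℝ≥0∞) * eLpNorm (fderiv ℝ f) (2 : NNReal) volume) ^ (6 : ℕ) := by gcongr
    _ = (S : ℝ≥0∞) ^ 6 * (eLpNorm (fderiv ℝ f) (2 : NNReal) volume ^ (2 : ℕ)) ^ 3 := by ring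
    _ ≤ _ := by gcongr

theorem ex3_bd {k : E n → ℝ} (hk : Continuous k) {r : ℝ}
    (h0 : ∀ p, p ∉ ball (0 : E n) r → k p = 0) : ∃ M : ℝ, 0 ≤ M ∧ ∀ g : E n → ℝ,
      Continuous g → (∀ p, 0 ≤ g p) → ∫ p, g p * k p ≤ M * ∫ p in ball (0 : E n) r, g p := by
  have hc : HasCompactSupport k := HasCompactSupport.intro (isCompact_closedBall (0 : E n) r)
    fun x hx => h0 x fun h => hx (ball_subset_closedBall h)
  obtain ⟨M, hM⟩ := hk.bounded_above_of_compact_support hc
  refine ⟨M, (norm_nonneg _).trans (hM 0), fun g hg hg0 => ?_⟩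
  rw [← setIntegral_eq_integral_of_forall_compl_eq_zero (s := ball (0 : E n) r)
    (fun p hp => by rw [h0 p hp, mul_zero]), ← integral_const_mul]
  have hgi : IntegrableOn g (ball (0 : E n) r) :=
    (hg.continuousOn.integrableOn_compact (isCompact_closedBall (0 : E n) r)).mono_set
      ball_subset_closedBall
  refine setIntegral_mono_on (ibp_int hg hk hc).integrableOn (hgi.const_mul M)
    measurableSet_ball fun p _ => ?_
  rw [mul_comm M]
  exact mul_le_mul_of_nonneg_left ((le_abs_self _).trans (hM p)) (hg0 p)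

theorem ex3_pd {φ V : E n → ℝ} (hφ : ContDiff ℝ ∞ φ) (hV : ContDiff ℝ ∞ V) (c : ℝ)
    (i : Fin n) (p : E n) : pd i (fun q => φ q * Real.exp (c * V q)) p =
      Real.exp (c * V p) * (pd i φ p + c * φ p * pd i V p) := by
  have h1 := (hφ.differentiable (by simp) p).hasFDerivAt
  have h2 := (((hV.differentiable (by simp) p).hasFDerivAt).const_mul c).exp
  have h3 : HasFDerivAt (fun q => φ q * Real.exp (c * V q)) _ p := h1.mul h2
  unfold pd
  rw [h3.fderiv]
  simp only [add_apply, smul_apply, smul_eq_mul]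
  ring

theorem ex3_gsq {φ V : E n → ℝ} (hφ : ContDiff ℝ ∞ φ) (hV : ContDiff ℝ ∞ V) (p : E n) :
    gsq (fun q => φ q * Real.exp (1 / 6 * V q)) p ≤
      Real.exp (1 / 3 * V p) * (2 * gsq φ p + 1 / 18 * φ p ^ 2 * gsq V p) := by
  have he : Real.exp (1 / 6 * V p) ^ 2 = Real.exp (1 / 3 * V p) := by
    rw [← Real.exp_nat_mul]; congr 1; push_cast; ring
  unfold gsq
  rw [Finset.mul_sum, Finset.mul_sum, ← Finset.sum_add_distrib, Finset.mul_sum]
  refine Finset.sum_le_sum fun i _ => ?_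
  rw [ex3_pd hφ hV, mul_pow, he]
  refine mul_le_mul_of_nonneg_left ?_ (Real.exp_pos _).le
  nlinarith [sq_nonneg (pd i φ p - 1 / 6 * φ p * pd i V p)]

theorem ex3_pt {φ V : E 3 → ℝ} (hφ : ContDiff ℝ ∞ φ) (hV : NL V)
    (h0 : ∀ p, p ∉ ball (0 : E 3) 4 → φ p = 0) (p : E 3) :
    gsq (fun q => φ q * Real.exp (1 / 6 * V q)) p ≤
      Real.exp (1 / 3 * V p) * (2 * gsq φ p) -
        lap (fun q => Real.exp (1 / 3 * V q)) p * φ p ^ 2 := by
  refine (ex3_gsq hφ hV.1 p).trans ?_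
  by_cases hp : p ∈ ball (0 : E 3) 4
  · have h1 := NL.grad' le_rfl hV hp
    rw [lap_exp hV.1]
    have h2 : 0 ≤ Real.exp (1 / 3 * V p) * φ p ^ 2 := by positivity
    nlinarith [mul_le_mul_of_nonneg_left h1 h2]
  · simp [h0 p hp]

theorem ex3_int {φ V : E 3 → ℝ} (hφ : ContDiff ℝ ∞ φ) (hc : HasCompactSupport φ) (hV : NL V)
    (h0 : ∀ p, p ∉ ball (0 : E 3) 4 → φ p = 0) :
    ∫ p, gsq (fun q => φ q * Real.exp (1 / 6 * V q)) p ≤
      ∫ p, Real.exp (1 / 3 * V p) * (2 * gsq φ p - lap (fun q => φ q ^ 2) p) := by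
  have hg : ContDiff ℝ ∞ fun q => Real.exp (1 / 3 * V q) := (contDiff_const.mul hV.1).exp
  have hf : ContDiff ℝ ∞ fun q => φ q * Real.exp (1 / 6 * V q) :=
    hφ.mul (contDiff_const.mul hV.1).exp
  have hfc : HasCompactSupport fun q => φ q * Real.exp (1 / 6 * V q) := hc.mul_right
  have h2 : ContDiff ℝ ∞ fun q => φ q ^ 2 := hφ.pow 2
  have h2c : HasCompactSupport fun q => φ q ^ 2 := by
    refine HasCompactSupport.intro hc fun x hx => ?_
    simp [image_eq_zero_of_notMem_tsupport hx]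
  have hlc : HasCompactSupport (lap fun q => φ q ^ 2) := by
    refine HasCompactSupport.intro h2c fun x hx => ?_
    have hU := (isClosed_tsupport fun q => φ q ^ 2).isOpen_compl
    have h := fun i => ex3_pd0 hU (ex3_pd0 hU
      (fun p hp => image_eq_zero_of_notMem_tsupport hp) i) i x hx
    simp [lap, h]
  have i1 : Integrable fun p => Real.exp (1 / 3 * V p) * (2 * gsq φ p) :=
    ibp_int hg.continuous (continuous_const.mul (gsq_cont hφ)) (ex3_gcs hc).mul_left
  have i2 : Integrable fun p => lap (fun q => Real.exp (1 / 3 * V q)) p * φ p ^ 2 :=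
    ibp_int (smooth_lap hg).continuous h2.continuous h2c
  have i3 : Integrable fun p => Real.exp (1 / 3 * V p) * lap (fun q => φ q ^ 2) p :=
    ibp_int hg.continuous (smooth_lap h2).continuous hlc
  calc _ ≤ ∫ p, (Real.exp (1 / 3 * V p) * (2 * gsq φ p) -
        lap (fun q => Real.exp (1 / 3 * V q)) p * φ p ^ 2) :=
        integral_mono ((gsq_cont hf).integrable_of_hasCompactSupport (ex3_gcs hfc))
          (i1.sub i2) (ex3_pt hφ hV h0)
    _ = _ := by
        rw [integral_sub i1 i2, ibp_lap hg h2 h2c, ← integral_sub i1 i3]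
        refine integral_congr_ae (Eventually.of_forall fun p => ?_)
        simp only [mul_sub]

theorem exp3 : ∃ C : ℝ, 1 ≤ C ∧ ∀ V : E 3 → ℝ, NL V → ∫ p in ball (0 : E 3) 1, Real.exp (V p) ≤
    C * (∫ p in ball (0 : E 3) (11 / 10), Real.exp (1 / 3 * V p)) ^ 3 := by
  obtain ⟨β, hβ, -, hβ1, -⟩ := kit_step (a := 1) (b := 6 / 5) (by norm_num)
  obtain ⟨hφ, hc⟩ := hβ.smooth (n := 3)
  set φ : E 3 → ℝ := fun p => β (‖p‖ ^ 2) with hφd
  have hU : IsOpen {p : E 3 | 6 / 5 < ‖p‖ ^ 2} := isOpen_lt continuous_const (by fun_prop)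
  have hφ0 : ∀ p ∈ {p : E 3 | 6 / 5 < ‖p‖ ^ 2}, φ p = 0 := fun p hp => hβ.2 _ (le_of_lt hp)
  have hm : ∀ p, p ∉ ball (0 : E 3) (11 / 10) → p ∈ {p : E 3 | 6 / 5 < ‖p‖ ^ 2} := by
    intro p hp
    rw [mem_ball_zero_iff, not_lt] at hp
    show 6 / 5 < ‖p‖ ^ 2
    nlinarith
  have h20 : ∀ p ∈ {p : E 3 | 6 / 5 < ‖p‖ ^ 2}, φ p ^ 2 = 0 := fun p hp => by simp [hφ0 p hp]
  obtain ⟨M, hM0, hM⟩ := ex3_bd (k := fun p => 2 * gsq φ p - lap (fun q => φ q ^ 2) p)
    ((continuous_const.mul (gsq_cont hφ)).sub (smooth_lap (hφ.pow 2)).continuous) (r := 11 / 10)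
    (fun p hp => by
      have h1 := fun i => ex3_pd0 hU hφ0 i p (hm p hp)
      have h2 := fun i => ex3_pd0 hU (ex3_pd0 hU h20 i) i p (hm p hp)
      simp [gsq, lap, h1, h2])
  obtain ⟨S, hS0, hS⟩ := ex3_sob
  refine ⟨1 + S * M ^ 3, le_add_of_nonneg_right (by positivity), fun V hV => ?_⟩
  have hf : ContDiff ℝ ∞ fun q => φ q * Real.exp (1 / 6 * V q) :=
    hφ.mul (contDiff_const.mul hV.1).exp
  have hfc : HasCompactSupport fun q => φ q * Real.exp (1 / 6 * V q) := hc.mul_right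
  have h1 := ex3_int hφ hc hV fun p hp => hφ0 p (hm p fun h =>
    hp (ball_subset_ball (by norm_num) h))
  have h2 := hM (fun p => Real.exp (1 / 3 * V p)) (contDiff_const.mul hV.1).exp.continuous
    fun p => (Real.exp_pos _).le
  have h3 := hS _ hf hfc
  have hJ : 0 ≤ ∫ p in ball (0 : E 3) (11 / 10), Real.exp (1 / 3 * V p) :=
    integral_nonneg fun p => (Real.exp_pos _).le
  have hG : 0 ≤ ∫ p, gsq (fun q => φ q * Real.exp (1 / 6 * V q)) p :=
    integral_nonneg fun p => gsq_nonneg _ p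
  have hfi : Integrable (fun p => (φ p * Real.exp (1 / 6 * V p)) ^ 6) := by
    refine (hf.continuous.pow 6).integrable_of_hasCompactSupport ?_
    refine HasCompactSupport.intro hc fun x hx => ?_
    simp [image_eq_zero_of_notMem_tsupport hx]
  have h4 : ∫ p in ball (0 : E 3) 1, Real.exp (V p) ≤
      ∫ p, (φ p * Real.exp (1 / 6 * V p)) ^ 6 := by
    refine le_trans (le_of_eq ?_) (setIntegral_le_integral (s := ball (0 : E 3) 1) hfi
      (Eventually.of_forall fun p => by positivity))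
    refine setIntegral_congr_fun measurableSet_ball fun p hp => ?_
    rw [mem_ball_zero_iff] at hp
    have : φ p = 1 := hβ1 _ (by nlinarith [norm_nonneg p])
    simp only [this, one_mul]
    rw [← Real.exp_nat_mul]; congr 1; push_cast; ring
  set J := ∫ p in ball (0 : E 3) (11 / 10), Real.exp (1 / 3 * V p)
  calc _ ≤ _ := h4
    _ ≤ _ := h3
    _ ≤ S * (M * J) ^ 3 := by gcongr; exact h1.trans h2
    _ ≤ (1 + S * M ^ 3) * J ^ 3 := by nlinarith [pow_nonneg hJ 3]

end Vale.Agent.P242
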