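import Vale.Agent.P242R.Star
import Vale.Agent.P242R.Uni

/-! P242R Loc (TASK, owner helper5; helper names start with loc_). Small density in the annulus at a pinched scale. Let `β` be from `kit_step` with `(a, b) = (16, 25)` (`0 ≤ β ≤ 1`, antitone), `k₀ p = β (‖p‖^2)`, `k q = k₀ (l⁻¹ • (q - z))`; on the support `‖q - z‖ ≤ 5 l ≤ ρ / 2`, so `ρ / 2 ≤ ‖q‖ < 1`. `mass (sc W z l) ≤ l^2 ∫ (-lap W) (z + l p) k₀ p = l^2 (l^n)⁻¹ X`, `X = ∫ k * (-lap W)` (`lap_sc`, `cov`).
From `star`: `(n-1) (ρ^2/4) X ≤ π + (n-2)(n-1) ∫ k |eu W| + (n-2) (l' ∫ gsq k + π / l')` with `π = de K.φ W` (`mu_le_de`, `star_pt`; integrands vanish off `ball 0 1`), `|eu W q| ≤ m * gsq W q + 1 / m ≤ 2 m (-lap W q) + 1 / m` (`D_sq_le`, `NL.grad'`) with `2 m (n-2) = ρ^2 / 8`, `∫ k = l^n ∫ k₀`, `∫ gsq k = l^n * l⁻¹^2 * ∫ gsq k₀` (`cov`, `gsq_sc` since `k₀ = sc k z l`). Choose `l' = l^2` and `π₀ = l^n * l^2`, everything is at most a constant times `l^n`. -/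

namespace Vale.Agent.P242

open MeasureTheory Set Metric Filter Topology
open scoped ENNReal ContDiff RealInnerProductSpace

variable {n : ℕ}

theorem loc_int {F : E n → ℝ} {z : E n} {r : ℝ} (hF : Continuous F)
    (h0 : ∀ q, q ∉ closedBall z r → F q = 0) : Integrable F :=
  hF.integrable_of_hasCompactSupport (HasCompactSupport.intro (isCompact_closedBall z r) h0)

theorem loc_abs {a g m : ℝ} (hm : 0 < m) (h : a ^ 2 ≤ g) : -a ≤ m * g + 1 / m := by
  have h1 : -a * m ≤ (m * g + 1 / m) * m := by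
    rw [add_mul, one_div, inv_mul_cancel₀ hm.ne']
    nlinarith [sq_nonneg (m * a + 1), mul_le_mul_of_nonneg_left h (sq_nonneg m), sq_nonneg (m * a)]
  exact le_of_mul_le_mul_right h1 hm

theorem loc_main (hn : 3 ≤ n) (K : Kit n) {ρ m l' r : ℝ} (h0 : 0 < ρ) (hm : 0 < m) (hl : 0 < l')
    {k W : E n → ℝ} {z : E n} (hW : NL W) (hk : ContDiff ℝ ∞ k) (k0 : ∀ q, 0 ≤ k q)
    (k1 : ∀ q, k q ≤ 1) (ks : ∀ q, q ∉ closedBall z r → k q = 0)
    (hB : ∀ q ∈ closedBall z r, ρ / 2 ≤ ‖q‖ ∧ ‖q‖ < 1) :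
    ((n : ℝ) - 1) * (ρ ^ 2 / 4 * ∫ q, k q * -lap W q) ≤ de K.φ W +
      ((n : ℝ) - 2) * ((n : ℝ) - 1) * (2 * m * (∫ q, k q * -lap W q) + 1 / m * ∫ q, k q) +
        ((n : ℝ) - 2) * (l' * (∫ q, gsq k q) + de K.φ W / l') := by
  have hN : (3 : ℝ) ≤ n := by exact_mod_cast hn
  have hc : HasCompactSupport k := HasCompactSupport.intro (isCompact_closedBall z r) ks
  have hst := star hW.1 hk hc
  have hde := mu_le_de hn K hW
  have h4 : ∀ q ∈ closedBall z r, q ∈ ball (0 : E n) 4 := fun q hq =>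
    mem_ball_zero_iff.2 (by linarith [(hB q hq).2])
  have hfd : ∀ q, q ∉ closedBall z r → fderiv ℝ k q = 0 := by
    intro q hq
    have : k =ᶠ[𝓝 q] fun _ => 0 :=
      Filter.mem_of_superset (isClosed_closedBall.isOpen_compl.mem_nhds hq) fun x hx => ks x hx
    rw [this.fderiv_eq]
    simp
  have hpd : ∀ i q, q ∉ closedBall z r → pd i k q = 0 := fun i q hq => by simp [pd, hfd q hq]
  have heu : ∀ q, q ∉ closedBall z r → eu k q = 0 := fun q hq => by simp [eu, hfd q hq]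
  have ck := hk.continuous
  have cl := (smooth_lap hW.1).continuous
  have cm := (smooth_mu hW.1 0).1.continuous
  have ce := (smooth_eu hW.1).continuous
  have cek := (smooth_eu hk).continuous
  have cp : ∀ i, Continuous (pd i W) := fun i => (smooth_D hW.1 _).continuous
  have cpk : ∀ i, Continuous (pd i k) := fun i => (smooth_D hk _).continuous
  have iX : Integrable fun q => k q * -lap W q :=
    loc_int (z := z) (r := r) (ck.mul cl.neg) fun q hq => by rw [ks q hq, zero_mul]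
  have iK : Integrable k := loc_int ck ks
  have iG : Integrable (gsq k) := loc_int (z := z) (r := r) (gsq_cont hk) fun q hq => by
    simp [gsq, hpd _ q hq]
  have iI : Integrable ((ball (0 : E n) 1).indicator fun q => mu W q q q) :=
    (integrable_indicator_iff measurableSet_ball).2
      ((cm.continuousOn.integrableOn_compact (isCompact_closedBall 0 1)).mono_set ball_subset_closedBall)
  have eI : ∫ q, (ball (0 : E n) 1).indicator (fun q => mu W q q q) q =
      ∫ q in ball (0 : E n) 1, mu W q q q := integral_indicator measurableSet_ball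
  have I0 : ∀ q, 0 ≤ (ball (0 : E n) 1).indicator (fun q => mu W q q q) q := fun q =>
    indicator_nonneg (fun x hx => hW.lin hn x (ball_subset_ball (by norm_num) hx) x) q
  have I1 : ∀ q ∈ closedBall z r, (ball (0 : E n) 1).indicator (fun q => mu W q q q) q =
      mu W q q q := fun q hq => indicator_of_mem (mem_ball_zero_iff.2 (hB q hq).2) _
  have b1 : ρ ^ 2 / 4 * ∫ q, k q * -lap W q ≤ ∫ q, k q * ‖q‖ ^ 2 * -lap W q := by
    rw [← integral_const_mul]
    refine integral_mono (iX.const_mul _) (loc_int (z := z) (r := r)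
      ((ck.mul (continuous_norm.pow 2)).mul cl.neg) fun q hq => by rw [ks q hq, zero_mul, zero_mul])
      fun q => ?_
    dsimp only
    by_cases hq : q ∈ closedBall z r
    · have a1 : 0 ≤ k q * -lap W q := mul_nonneg (k0 q) (by linarith [hW.lap_le hn q (h4 q hq)])
      have a2 : ρ ^ 2 / 4 ≤ ‖q‖ ^ 2 := by nlinarith [(hB q hq).1]
      nlinarith [mul_le_mul_of_nonneg_right a2 a1]
    · rw [ks q hq]; simp
  have b2 : ∫ q, k q * mu W q q q ≤ de K.φ W := by
    refine le_trans (integral_mono (loc_int (z := z) (r := r) (ck.mul cm)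
      fun q hq => by rw [ks q hq, zero_mul]) iI fun q => ?_) (eI.trans_le hde)
    dsimp only
    by_cases hq : q ∈ closedBall z r
    · rw [I1 q hq]
      exact mul_le_of_le_one_left (hW.lin hn q (h4 q hq) q) (k1 q)
    · rw [ks q hq, zero_mul]; exact I0 q
  have b3 : -∫ q, k q * eu W q ≤ 2 * m * (∫ q, k q * -lap W q) + 1 / m * ∫ q, k q := by
    rw [← integral_neg, ← integral_const_mul, ← integral_const_mul,
      ← integral_add (iX.const_mul _) (iK.const_mul _)]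
    refine integral_mono (loc_int (z := z) (r := r) (ck.mul ce).neg
      fun q hq => by simp [ks q hq]) ((iX.const_mul _).add (iK.const_mul _)) fun q => ?_
    dsimp only
    by_cases hq : q ∈ closedBall z r
    · have a1 : eu W q ^ 2 ≤ gsq W q * ‖q‖ ^ 2 := D_sq_le W q q
      have a2 : ‖q‖ ^ 2 ≤ 1 := by nlinarith [(hB q hq).2, norm_nonneg q]
      have a3 : eu W q ^ 2 ≤ 2 * -lap W q :=
        (a1.trans (mul_le_of_le_one_right (gsq_nonneg W q) a2)).trans (hW.grad' hn (h4 q hq))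
      nlinarith [mul_le_mul_of_nonneg_left (loc_abs hm a3) (k0 q)]
    · rw [ks q hq]; simp
  have b4 : ∫ q, (‖q‖ ^ 2 * (∑ i, pd i k q * pd i W q) - eu k q * eu W q) ≤
      l' * (∫ q, gsq k q) + de K.φ W / l' := by
    refine le_trans ?_ (add_le_add le_rfl (div_le_div_of_nonneg_right (eI.trans_le hde) hl.le))
    rw [← integral_const_mul, ← integral_div, ← integral_add (iG.const_mul _) (iI.div_const _)]
    refine integral_mono (loc_int (z := z) (r := r) (((continuous_norm.pow 2).mul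
      (continuous_finsetSum _ fun i _ => (cpk i).mul (cp i))).sub (cek.mul ce))
      fun q hq => by simp [hpd _ q hq, heu q hq]) ((iG.const_mul _).add (iI.div_const _)) fun q => ?_
    dsimp only
    by_cases hq : q ∈ closedBall z r
    · rw [I1 q hq]
      have a2 : ‖q‖ ^ 2 ≤ 1 := by nlinarith [(hB q hq).2, norm_nonneg q]
      have a3 := mul_le_mul_of_nonneg_left (mul_le_of_le_one_left (gsq_nonneg k q) a2) hl.le
      linarith [le_abs_self (‖q‖ ^ 2 * (∑ i, pd i k q * pd i W q) - eu k q * eu W q),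
        star_pt hn hW k (h4 q hq) hl]
    · simp only [hpd _ q hq, heu q hq, zero_mul, Finset.sum_const_zero, mul_zero, sub_zero]
      exact add_nonneg (mul_nonneg hl.le (gsq_nonneg k q)) (div_nonneg (I0 q) hl.le)
  have c1 := mul_le_mul_of_nonneg_left b1 (by linarith : (0 : ℝ) ≤ (n : ℝ) - 1)
  have c3 := mul_le_mul_of_nonneg_left b3
    (mul_nonneg (by linarith) (by linarith) : (0 : ℝ) ≤ ((n : ℝ) - 2) * ((n : ℝ) - 1))
  have c4 := mul_le_mul_of_nonneg_left b4 (by linarith : (0 : ℝ) ≤ (n : ℝ) - 2)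
  linarith

theorem loc (hn : 3 ≤ n) (K : Kit n) {ρ : ℝ} (h0 : 0 < ρ) (h1 : ρ ≤ 1 / 2) : ∃ C : ℝ, 1 ≤ C ∧
    ∀ l : ℝ, 0 < l → l ≤ ρ / 10 → ∃ π₀ : ℝ, 0 < π₀ ∧ ∀ W : E n → ℝ, NL W → de K.φ W ≤ π₀ →
      ∀ z : E n, ρ ≤ ‖z‖ → ‖z‖ ≤ 1 / 2 → mass (sc W z l) ≤ C * l ^ 2 := by
  have hN : (3 : ℝ) ≤ n := by exact_mod_cast hn
  obtain ⟨β, hβ, β0, β1, βa⟩ := kit_step (by norm_num : (16 : ℝ) < 25)
  obtain ⟨s0, -⟩ := hβ.smooth (n := n)
  set k₀ : E n → ℝ := fun p => β (‖p‖ ^ 2) with hk₀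
  set m : ℝ := ρ ^ 2 / (16 * ((n : ℝ) - 2)) with hm
  have n2 : (0 : ℝ) < (n : ℝ) - 2 := by linarith
  have n1 : (0 : ℝ) < (n : ℝ) - 1 := by linarith
  have m0 : 0 < m := by positivity
  have hm2 : ((n : ℝ) - 2) * (2 * m) = ρ ^ 2 / 8 := by rw [hm]; field_simp; ring
  set C₀ : ℝ := 1 + ((n : ℝ) - 2) * ((n : ℝ) - 1) * (1 / m * ∫ p, k₀ p) +
    ((n : ℝ) - 2) * ((∫ p, gsq k₀ p) + 1) with hC₀
  refine ⟨max 1 (C₀ / (((n : ℝ) - 1) * (ρ ^ 2 / 8))), le_max_left _ _, fun l l0 l1 =>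
    ⟨l ^ n * l ^ 2, by positivity, fun W hW hπ z z0 z1 => ?_⟩⟩
  set k : E n → ℝ := sc k₀ (-(l⁻¹ • z)) l⁻¹ with hk
  have sk : ContDiff ℝ ∞ k := smooth_sc s0 _ _
  have e0 : sc k z l = k₀ := by
    rw [hk, sc_sc, neg_add_cancel, inv_mul_cancel₀ l0.ne', sc_one]
  have e1 : ∀ p, k (z + l • p) = k₀ p := fun p => congrFun e0 p
  have kv : ∀ q, k q = β ((l⁻¹ * ‖q - z‖) ^ 2) := by
    intro q
    show β (‖-(l⁻¹ • z) + l⁻¹ • q‖ ^ 2) = _
    rw [neg_add_eq_sub, ← smul_sub, norm_smul, Real.norm_of_nonneg (inv_nonneg.2 l0.le)]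
  have k0 : ∀ q, 0 ≤ k q := fun q => β0 _
  have k1 : ∀ q, k q ≤ 1 := fun q => by
    rw [kv, ← β1 0 (by norm_num)]
    exact βa (sq_nonneg _)
  have ks : ∀ q, q ∉ closedBall z (5 * l) → k q = 0 := by
    intro q hq
    rw [mem_closedBall, dist_eq_norm, not_le] at hq
    rw [kv]
    refine hβ.2 _ ?_
    have : 5 ≤ l⁻¹ * ‖q - z‖ := by
      rw [le_inv_mul_iff₀ l0]
      linarith
    nlinarith
  have hB : ∀ q ∈ closedBall z (5 * l), ρ / 2 ≤ ‖q‖ ∧ ‖q‖ < 1 := by
    intro q hq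
    rw [mem_closedBall, dist_eq_norm] at hq
    have a1 := norm_sub_norm_le q z
    have a2 := norm_sub_norm_le z q
    rw [norm_sub_rev] at a2
    constructor <;> linarith
  have hmain := loc_main hn K h0 m0 (pow_pos l0 2) hW sk k0 k1 ks hB
  have L0 : 0 < l ^ n := pow_pos l0 n
  have e2 : ∫ q, k q = l ^ n * ∫ p, k₀ p := by
    have := cov k z l0
    simp only [e1] at this
    rw [this, ← mul_assoc, mul_inv_cancel₀ L0.ne', one_mul]
  have e3 : l ^ 2 * ∫ q, gsq k q = l ^ n * ∫ p, gsq k₀ p := by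
    have a1 := cov (gsq k) z l0
    have a2 : ∫ p, gsq k₀ p = l ^ 2 * ∫ p, gsq k (z + l • p) := by
      rw [← integral_const_mul, ← e0]
      exact integral_congr_ae (Eventually.of_forall fun p => gsq_sc sk z p l)
    rw [a2, a1]
    field_simp
  have a1 : de K.φ W ≤ l ^ n := hπ.trans (mul_le_of_le_one_right L0.le (by nlinarith))
  have a2 : de K.φ W / l ^ 2 ≤ l ^ n := by rwa [div_le_iff₀ (pow_pos l0 2)]
  set X := ∫ q, k q * -lap W q with hX
  have hXle : X ≤ l ^ n * (C₀ / (((n : ℝ) - 1) * (ρ ^ 2 / 8))) := by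
    rw [← mul_div_assoc, le_div_iff₀ (by positivity), hC₀]
    rw [e2, e3] at hmain
    have a3 := mul_le_mul_of_nonneg_left a2 n2.le
    have a4 : ((n : ℝ) - 2) * ((n : ℝ) - 1) * (2 * m * X) = ((n : ℝ) - 1) * (ρ ^ 2 / 8 * X) := by
      rw [← hm2]; ring
    nlinarith
  have cl := (smooth_lap hW.1).continuous
  have hmass : mass (sc W z l) ≤ l ^ 2 * ((l ^ n)⁻¹ * X) := by
    rw [hX, ← cov (fun q => k q * -lap W q) z l0, ← integral_const_mul]
    have cz : Continuous fun p : E n => z + l • p := by fun_prop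
    have iG : Integrable fun p : E n => l ^ 2 * (k (z + l • p) * -lap W (z + l • p)) := by
      refine loc_int (z := 0) (r := 5)
        (continuous_const.mul ((sk.continuous.comp cz).mul (cl.comp cz).neg)) fun p hp => ?_
      rw [mem_closedBall_zero_iff, not_le] at hp
      rw [e1, show k₀ p = 0 from hβ.2 _ (by nlinarith), zero_mul, mul_zero]
    refine le_trans (le_of_eq ?_) (setIntegral_le_integral (s := ball (0 : E n) 4) iG
      (Eventually.of_forall fun p => ?_))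
    · refine setIntegral_congr_fun measurableSet_ball fun p hp => ?_
      rw [mem_ball_zero_iff] at hp
      rw [e1, show k₀ p = 1 from β1 _ (by nlinarith [norm_nonneg p]), lap_sc hW.1]
      simp [sc]
    · by_cases hq : z + l • p ∈ closedBall z (5 * l)
      · exact mul_nonneg (sq_nonneg l) (mul_nonneg (k0 _) (by
          linarith [hW.lap_le hn _ (mem_ball_zero_iff.2 (by linarith [(hB _ hq).2] : ‖z + l • p‖ < 4))]))
      · simp [ks _ hq]
  calc mass (sc W z l) ≤ l ^ 2 * ((l ^ n)⁻¹ * (l ^ n * (C₀ / (((n : ℝ) - 1) * (ρ ^ 2 / 8))))) :=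
        hmass.trans (mul_le_mul_of_nonneg_left
          (mul_le_mul_of_nonneg_left hXle (inv_nonneg.2 L0.le)) (sq_nonneg l))
    _ = C₀ / (((n : ℝ) - 1) * (ρ ^ 2 / 8)) * l ^ 2 := by
        rw [← mul_assoc (l ^ n)⁻¹, inv_mul_cancel₀ L0.ne', one_mul, mul_comm]
    _ ≤ _ := mul_le_mul_of_nonneg_right (le_max_right _ _) (sq_nonneg l)

end Vale.Agent.P242
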