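import Vale.Agent.P242R.Defs
import Vale.Agent.P242.Ricci
import Vale.Agent.P242.Psd

/-! P242R Nl (TASK, owner helper5; helper names start with nl_). Pointwise facts. `RicNN.nl`: copy the proof of `Adm.lin` in P242/Ricci.lean (it is an identity, no Cauchy-Schwarz). `D_sq_le`: `D_eq_sum`, `Finset.sum_mul_sq_le_sq_mul_sq`. `NL.grad`: sum the inequality over `v = single i 1` (see the trace lemma in P242/Psd.lean): `(n-2)(n-1) gsq ≤ (2n-2) (-lap)`.
`NL.tan`: with `g i = pd i W x` put `P i = ‖x‖^2 g i - eu W x * x i`; the left side is `(∑ P i * v i)^2`, `∑ P i ^ 2 = ‖x‖^2 (‖x‖^2 gsq - (eu W x)^2)`, `eu W x = D x W x` by `rfl`, and `n - 2 ≥ 1`.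
`NL.sc`: `D_sc`, `mu_sc` (for `l = 0` both sides vanish). `cov`: `integral_add_left_eq_self`, `Measure.integral_comp_smul`, `finrank_euclideanSpace_fin`. -/

namespace Vale.Agent.P242

open MeasureTheory Set Metric Filter Topology
open scoped ENNReal ContDiff RealInnerProductSpace

variable {n : ℕ}

variable {w W : E n → ℝ}

theorem RicNN.nl (h : RicNN w) : NL w := by
  refine ⟨h.1, fun x hx v => ?_⟩
  have h1 := h.2 x hx v
  have e : ∀ i j, ric (cm w) i j x * v i * v j =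
      -((n : ℝ) - 2) * (pd i (pd j w) x * v i * v j) +
        ((n : ℝ) - 2) * ((v i * pd i w x) * (v j * pd j w x)) -
        (lap w x + ((n : ℝ) - 2) * ∑ l, pd l w x ^ 2) * (ric_d i j * (v i * v j)) := fun i j => by
    rw [ric_eq h.1]
    ring
  simp only [e, Finset.sum_sub_distrib, Finset.sum_add_distrib, ← Finset.mul_sum, ric_sum,
    ← Finset.sum_mul] at h1
  have h3 : ⟪v, v⟫ = ∑ i, v i ^ 2 := by
    rw [real_inner_self_eq_norm_sq, EuclideanSpace.real_norm_sq_eq]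
  have h4 : ∑ i, v i * v i = ∑ i, v i ^ 2 := Finset.sum_congr rfl fun i _ => (sq _).symm
  rw [mu, ric_D2 h.1, h3, gsq, D_eq_sum, EuclideanSpace.real_norm_sq_eq]
  rw [h4] at h1
  linarith

theorem D_sq_le (W : E n → ℝ) (x v : E n) : D v W x ^ 2 ≤ gsq W x * ‖v‖ ^ 2 := by
  rw [D_eq_sum, gsq, EuclideanSpace.real_norm_sq_eq, mul_comm]
  exact Finset.sum_mul_sq_le_sq_mul_sq Finset.univ (fun i => v i) fun i => pd i W x

theorem gsq_nonneg (W : E n → ℝ) (x : E n) : 0 ≤ gsq W x := by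
  exact Finset.sum_nonneg fun i _ => sq_nonneg _

theorem gsq_cont (hW : ContDiff ℝ ∞ W) : Continuous (gsq W) := by
  exact continuous_finsetSum _ fun i _ => (smooth_D hW _).continuous.pow 2

theorem NL.lin (hn : 3 ≤ n) (h : NL W) : Lin W := by
  intro x hx v
  have h2 : (3 : ℝ) ≤ n := by exact_mod_cast hn
  exact (mul_nonneg (by linarith) (sub_nonneg.2 (D_sq_le W x v))).trans (h.2 x hx v)

theorem NL.pos (hn : 3 ≤ n) (h : NL W) : Pos W := by
  exact ⟨h.1, fun p hp v => h.lin hn p (mem_ball_zero_iff.2 (by linarith)) v⟩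

theorem NL.grad (hn : 3 ≤ n) (h : NL W) {x : E n} (hx : x ∈ ball (0 : E n) 4) :
    ((n : ℝ) - 2) * gsq W x ≤ 2 * -lap W x := by
  have h2 : (3 : ℝ) ≤ n := by exact_mod_cast hn
  have h1 := Finset.sum_le_sum (s := Finset.univ)
    fun i : Fin n => fun _ => h.2 x hx (EuclideanSpace.single i 1)
  rw [psd_tr] at h1
  have e : ∀ i : Fin n, ((n : ℝ) - 2) * (gsq W x * ‖(EuclideanSpace.single i 1 : E n)‖ ^ 2 -
      D (EuclideanSpace.single i 1) W x ^ 2) = ((n : ℝ) - 2) * (gsq W x - pd i W x ^ 2) :=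
    fun i => by
      rw [EuclideanSpace.norm_single, norm_one, one_pow, mul_one]
      rfl
  simp only [e, ← Finset.mul_sum, Finset.sum_sub_distrib, Finset.sum_const, Finset.card_univ,
    Fintype.card_fin, nsmul_eq_mul] at h1
  rw [show ∑ i, pd i W x ^ 2 = gsq W x from rfl] at h1
  refine le_of_mul_le_mul_left (a := (n : ℝ) - 1) ?_ (by linarith)
  linarith

theorem NL.grad' (hn : 3 ≤ n) (h : NL W) {x : E n} (hx : x ∈ ball (0 : E n) 4) :
    gsq W x ≤ 2 * -lap W x := by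
  have h2 : (3 : ℝ) ≤ n := by exact_mod_cast hn
  exact (le_mul_of_one_le_left (gsq_nonneg W x) (by linarith)).trans (h.grad hn hx)

theorem NL.lap_le (hn : 3 ≤ n) (h : NL W) : ∀ x ∈ ball (0 : E n) 4, lap W x ≤ 0 := by
  intro x hx
  have h1 := h.grad' hn hx
  have h2 := gsq_nonneg W x
  linarith

theorem NL.tan (hn : 3 ≤ n) (h : NL W) {x : E n} (hx : x ∈ ball (0 : E n) 4) (v : E n) :
    (‖x‖ ^ 2 * D v W x - ⟪v, x⟫ * eu W x) ^ 2 ≤ ‖x‖ ^ 2 * ‖v‖ ^ 2 * mu W x x x := by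
  have h2 : (3 : ℝ) ≤ n := by exact_mod_cast hn
  have h1 : gsq W x * ‖x‖ ^ 2 - D x W x ^ 2 ≤ mu W x x x :=
    (le_mul_of_one_le_left (sub_nonneg.2 (D_sq_le W x x)) (by linarith)).trans (h.2 x hx x)
  have he : eu W x = D x W x := rfl
  have h3 := Finset.sum_mul_sq_le_sq_mul_sq Finset.univ
    (fun i => ‖x‖ ^ 2 * pd i W x - D x W x * x i) fun i => v i
  have h4 : ⟪v, x⟫ = ∑ i, x i * v i := by
    simp [PiLp.inner_apply]
  have h5 : ∑ i, (‖x‖ ^ 2 * pd i W x - D x W x * x i) * v i =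
      ‖x‖ ^ 2 * D v W x - ⟪v, x⟫ * D x W x := by
    rw [h4, D_eq_sum W v x, Finset.mul_sum, Finset.sum_mul, ← Finset.sum_sub_distrib]
    exact Finset.sum_congr rfl fun i _ => by ring
  have h6 : ∑ i, (‖x‖ ^ 2 * pd i W x - D x W x * x i) ^ 2 =
      ‖x‖ ^ 2 * (gsq W x * ‖x‖ ^ 2 - D x W x ^ 2) := by
    have e : ∀ i, (‖x‖ ^ 2 * pd i W x - D x W x * x i) ^ 2 =
        (‖x‖ ^ 2) ^ 2 * pd i W x ^ 2 - 2 * ‖x‖ ^ 2 * D x W x * (x i * pd i W x) +
          D x W x ^ 2 * x i ^ 2 := fun i => by ring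
    simp only [e, Finset.sum_add_distrib, Finset.sum_sub_distrib, ← Finset.mul_sum]
    rw [← D_eq_sum, ← EuclideanSpace.real_norm_sq_eq, show ∑ i, pd i W x ^ 2 = gsq W x from rfl]
    ring
  rw [h5, h6, ← EuclideanSpace.real_norm_sq_eq] at h3
  rw [he]
  refine h3.trans ?_
  have h7 := mul_le_mul_of_nonneg_left h1 (mul_nonneg (sq_nonneg ‖x‖) (sq_nonneg ‖v‖))
  linarith

theorem sc_sc (w : E n → ℝ) (x z : E n) (r l : ℝ) :
    sc (sc w x r) z l = sc w (x + r • z) (r * l) := by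
  funext p
  simp only [sc, smul_add, smul_smul, add_assoc]

theorem av_sc (k : ℝ → ℝ) (w : E n → ℝ) (x z : E n) (r l : ℝ) :
    av k (sc w x r) (z, l) = av k w (x + r • z, r * l) := by
  simp only [av, sc_sc]

theorem sc_one (w : E n → ℝ) : sc w 0 1 = w := by
  funext p
  simp only [sc, one_smul, zero_add]

theorem gsq_sc (hw : ContDiff ℝ ∞ w) (z p : E n) (l : ℝ) :
    gsq (sc w z l) p = l ^ 2 * gsq w (z + l • p) := by
  rw [gsq, gsq, Finset.mul_sum]
  refine Finset.sum_congr rfl fun i _ => ?_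
  have e : pd i (sc w z l) p = l * pd i w (z + l • p) := congrFun (D_sc hw z l _) p
  rw [e, mul_pow]

theorem NL.sc (h : NL w) {z : E n} {l : ℝ} (hl : 0 ≤ l) (hz : ‖z‖ + 4 * l ≤ 4) :
    NL (sc w z l) := by
  refine ⟨smooth_sc h.1 z l, fun x hx v => ?_⟩
  have e : D v (Vale.Agent.P242.sc w z l) x = l * D v w (z + l • x) :=
    congrFun (D_sc h.1 z l v) x
  rw [mu_sc h.1, gsq_sc h.1, e]
  rcases hl.eq_or_lt with rfl | h0
  · simp
  · have hm : z + l • x ∈ ball (0 : E n) 4 := by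
      rw [mem_ball_zero_iff] at hx ⊢
      have h1 := norm_add_le z (l • x)
      rw [norm_smul, Real.norm_of_nonneg hl] at h1
      have h2 := mul_lt_mul_of_pos_left hx h0
      linarith
    have h3 := mul_le_mul_of_nonneg_left (h.2 _ hm v) (sq_nonneg l)
    linarith

theorem lap_sub_const (w : E n → ℝ) (c : ℝ) : lap (fun p => w p - c) = lap w := by
  funext x
  have e : ∀ i, pd i (fun p => w p - c) = pd i w := fun i => by
    funext y
    rw [pd, pd, fderiv_sub_const]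
  simp only [lap, e]

theorem NL.sub (h : NL w) (c : ℝ) : NL (fun p => w p - c) := by
  have e : ∀ v, D v (fun p => w p - c) = D v w := fun v => by
    funext y
    rw [D, D, fderiv_sub_const]
  have e' : ∀ i, pd i (fun p => w p - c) = pd i w := fun i => e _
  refine ⟨h.1.sub contDiff_const, fun x hx v => ?_⟩
  have h1 := h.2 x hx v
  simp only [mu, gsq, e, e', lap_sub_const] at h1 ⊢
  exact h1

theorem cov (F : E n → ℝ) (z : E n) {l : ℝ} (hl : 0 < l) :
    ∫ p, F (z + l • p) = (l ^ n)⁻¹ * ∫ q, F q := by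
  have h1 := Measure.integral_comp_smul (volume : Measure (E n)) (fun q => F (z + q)) l
  rw [integral_add_left_eq_self, finrank_euclideanSpace_fin, abs_of_pos (by positivity),
    smul_eq_mul] at h1
  exact h1

end Vale.Agent.P242
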