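import Vale.Agent.P242R.Defs
import Vale.Agent.P242.KitE
import Vale.Agent.P242.Av

/-! P242R Shell (owner helper5; helper names start with she_). Profiles. `exists_kit2`: copy `exists_kit` (P242/KitE.lean). `exists_shell`: `deriv ψ = -c' * β₁ s * (1 - β₂ s)` with `kit_step` for `(1 - l/2, 1)` and `(1 - l, 1 - l/2)` (positive at `s = 1 - l/2`; `kit_prim`, the product is a `Prof 1`), normalised by `c'`. Lower bound: `ψ` is antitone and constant on `Iic (1 - l)`, so `ψ s ≤ ψ 0`; `I_eu` with `f = 1` gives `I (fun s => -2 s ψ1 s) 1 = n * I ψ 1`; since `s ≥ 1/2` where `ψ1 ≠ 0`: `1 = I (eta ψ) 1 ≤ 2 n I ψ 1 ≤ 2 n ψ 0 * vol (ball 0 1)`; `c = 1 / (2 n vol)`.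
`av_comm`: `integral_integral_swap`; the integrand is continuous with compact support on the product (`HasCompactSupport.intro` with a product of closed balls, `Continuous.integrable_of_hasCompactSupport` for `Measure.prod`). -/

namespace Vale.Agent.P242

open MeasureTheory Set Metric Filter Topology
open scoped ENNReal ContDiff RealInnerProductSpace

variable {n : ℕ}

theorem she_nonneg {b : ℝ} {φ : ℝ → ℝ} (h : Prof b φ) (h' : Antitone φ) (s : ℝ) : 0 ≤ φ s := by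
  rw [← h.2 (max s b) (le_max_right _ _)]
  exact h' (le_max_left _ _)

theorem exists_kit2 (n : ℕ) : Nonempty (Kit2 n) := by
  obtain ⟨β₁, a1, a2, a3, -⟩ := kit_step (a := 1 / 2) (b := 1) (by norm_num)
  obtain ⟨β₂, b1, b2, b3, -⟩ := kit_step (a := 1) (b := 4) (by norm_num)
  obtain ⟨χ, c1, c2, c3, c4⟩ := kit_step (a := 4) (b := 9) (by norm_num)
  have hc : 0 < ∫ p : E n, β₁ (‖p‖ ^ 2) :=
    (a1.smooth (n := n)).1.continuous.integral_pos_of_hasCompactSupport_nonneg_nonzero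
      a1.smooth.2 (fun p => a2 _) (x := 0) (by rw [a3 _ (by simp)]; exact one_ne_zero)
  obtain ⟨ψ, d1, d2⟩ := kit_prim a1 (-(2 * ∫ p : E n, β₁ (‖p‖ ^ 2))⁻¹)
  obtain ⟨φ, e1, e2⟩ := kit_prim b1 (-1)
  obtain ⟨g, f1, f2⟩ := kit_prim (d1.kap (n := n)) (-1 / 2)
  have e3 : ∀ s, deriv φ s ≤ 0 := fun s => by rw [e2]; linarith [b2 s]
  have d0 : 0 < (2 * ∫ p : E n, β₁ (‖p‖ ^ 2))⁻¹ := by positivity
  have d3 : ∀ s, deriv ψ s ≤ 0 := fun s => by
    rw [d2]
    linarith [mul_nonneg d0.le (a2 s)]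
  refine ⟨⟨⟨ψ, φ, χ, g, d1, e1, c1, f1, fun s => by rw [f2]; ring, ?_,
    she_nonneg e1 (antitone_of_deriv_nonpos (idb_diff e1.1) e3), e3,
    fun s hs => by rw [e2, b3 s hs]; norm_num, c2, fun s => c4.deriv_nonpos,
    fun s hs => (c3 s hs).ge⟩, _, d0, she_nonneg d1 (antitone_of_deriv_nonpos (idb_diff d1.1) d3),
    d3, fun s hs => by rw [d2, a3 s hs, mul_one, neg_neg]⟩⟩
  simp only [I, eta, d2, one_mul, ← mul_assoc]
  rw [integral_const_mul]
  field_simp

theorem exists_shell (hn : 3 ≤ n) :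
    ∃ c : ℝ, 0 < c ∧ ∀ l : ℝ, 0 < l → l ≤ 1 / 2 → ∃ ψ, Shell n c l ψ := by
  obtain ⟨β, b1, b2, b3, -⟩ := kit_step (a := 1) (b := 2) (by norm_num)
  have hV : 0 < ∫ p : E n, β (‖p‖ ^ 2) :=
    (b1.smooth (n := n)).1.continuous.integral_pos_of_hasCompactSupport_nonneg_nonzero
      b1.smooth.2 (fun p => b2 _) (x := 0) (by rw [b3 _ (by simp)]; exact one_ne_zero)
  have n0 : (0 : ℝ) < n := by exact_mod_cast (by omega : 0 < n)
  refine ⟨1 / (2 * n * ∫ p : E n, β (‖p‖ ^ 2)), by positivity, fun l l0 l1 => ?_⟩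
  obtain ⟨β₁, a1, a2, a3, -⟩ := kit_step (a := 1 - l / 2) (b := 1) (by linarith)
  obtain ⟨β₂, c1, -, c3, c4⟩ := kit_step (a := 1 - l) (b := 1 - l / 2) (by linarith)
  have k1 : Prof 1 fun s => β₁ s * (1 - β₂ s) :=
    ⟨a1.1.mul (contDiff_const.sub c1.1), fun s hs => by simp [a1.2 s hs]⟩
  have k2 : ∀ s, 0 ≤ β₁ s * (1 - β₂ s) := fun s => mul_nonneg (a2 s) (sub_nonneg.2
    ((c4 (min_le_left s (1 - l))).trans_eq (c3 _ (min_le_right _ _))))
  have hc : 0 < ∫ p : E n, β₁ (‖p‖ ^ 2) * (1 - β₂ (‖p‖ ^ 2)) :=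
    (k1.smooth (n := n)).1.continuous.integral_pos_of_hasCompactSupport_nonneg_nonzero
      k1.smooth.2 (fun p => k2 _) (x := EuclideanSpace.single ⟨0, by omega⟩ √(1 - l / 2)) (by
        rw [PiLp.norm_single, Real.norm_eq_abs, sq_abs, Real.sq_sqrt (by linarith),
          a3 _ le_rfl, c1.2 _ le_rfl]
        norm_num)
  obtain ⟨ψ, d1, d2⟩ := kit_prim k1 (-(2 * ∫ p : E n, β₁ (‖p‖ ^ 2) * (1 - β₂ (‖p‖ ^ 2)))⁻¹)
  have d0 : 0 < (2 * ∫ p : E n, β₁ (‖p‖ ^ 2) * (1 - β₂ (‖p‖ ^ 2)))⁻¹ := by positivity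
  have d3 : ∀ s, deriv ψ s ≤ 0 := fun s => by
    rw [d2]
    linarith [mul_nonneg d0.le (k2 s)]
  have d4 := antitone_of_deriv_nonpos (idb_diff d1.1) d3
  have d5 : ∀ s, s ≤ 1 - l → deriv ψ s = 0 := fun s hs => by
    rw [d2, c3 s hs, sub_self, mul_zero, mul_zero]
  have d6 : I (eta ψ) (fun _ : E n => 1) = 1 := by
    simp only [I, eta, d2, one_mul]
    rw [integral_const_mul, integral_const_mul]
    field_simp
  have d7 : ψ 0 ≤ ψ (1 / 2) := monotoneOn_of_deriv_nonneg (convex_Iic (1 - l))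
    d1.1.continuous.continuousOn (idb_diff d1.1).differentiableOn
    (fun s hs => (d5 s (mem_Iic.1 (interior_subset hs))).ge) (mem_Iic.2 (by linarith))
    (mem_Iic.2 (by linarith))
    (by norm_num)
  refine ⟨ψ, d1, she_nonneg d1 d4, d3, d5, d6, fun s hs => le_trans ?_ (d4 hs)⟩
  have e1 := I_eu (n := n) d1 (f := fun _ => 1) contDiff_const
  have e2 : I ψ (eu fun _ : E n => (1 : ℝ)) = 0 := by simp [I, eu]
  rw [e2, eq_comm, neg_eq_zero] at e1
  have i1 := integrable_rad (n := n) d1.eta (f := fun _ => 1) continuous_const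
  have i2 := integrable_rad (n := n) (idb_prof d1 n) (f := fun _ => 1) continuous_const
  have i3 := integrable_rad (n := n) b1 (f := fun _ => 2 * n * ψ (1 / 2)) continuous_const
  have e3 := integral_mono (i1.add (i2.const_mul 2)) i3 fun p => by
    have q0 : 0 ≤ ‖p‖ ^ 2 := sq_nonneg _
    have q1 : ψ (‖p‖ ^ 2) ≤ ψ (1 / 2) * β (‖p‖ ^ 2) := by
      rcases le_total (‖p‖ ^ 2) 1 with h | h
      · rw [b3 _ h, mul_one]
        exact (d4 q0).trans d7
      · rw [d1.2 _ h]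
        exact mul_nonneg (she_nonneg d1 d4 _) (b2 _)
    have q2 : (2 * ‖p‖ ^ 2 - 1) * deriv ψ (‖p‖ ^ 2) ≤ 0 := by
      rcases le_total (‖p‖ ^ 2) (1 - l) with h | h
      · rw [d5 _ h, mul_zero]
      · exact mul_nonpos_of_nonneg_of_nonpos (by linarith) (d3 _)
    simp only [Pi.add_apply, eta]
    nlinarith [mul_le_mul_of_nonneg_left q1 n0.le]
  simp only [Pi.add_apply] at e3
  rw [integral_add i1 (i2.const_mul 2), integral_const_mul 2, integral_const_mul (2 * n * ψ (1 / 2))]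
    at e3
  unfold I at e1 d6
  rw [e1, d6] at e3
  rw [div_le_iff₀ (by positivity)]
  linarith

theorem av_comm {k₁ k₂ : ℝ → ℝ} {b₁ b₂ : ℝ} (h1 : Prof b₁ k₁) (h2 : Prof b₂ k₂) {f : E n → ℝ}
    (hf : Continuous f) (r l : ℝ) :
    av k₁ (fun z => av k₂ f (z, l)) (0, r) = I k₂ fun p => av k₁ f (l • p, r) := by
  obtain ⟨c1, s1⟩ := h1.smooth (n := n)
  obtain ⟨c2, s2⟩ := h2.smooth (n := n)
  simp only [av, I, sc, zero_add, ← integral_mul_const]
  rw [integral_integral_swap]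
  · refine integral_congr_ae (Eventually.of_forall fun q => integral_congr_ae
      (Eventually.of_forall fun p => ?_))
    simp only [add_comm (l • q)]
    ring
  · refine Continuous.integrable_of_hasCompactSupport (((hf.comp (by fun_prop)).mul
      (c2.continuous.comp continuous_snd)).mul (c1.continuous.comp continuous_fst))
      (HasCompactSupport.intro (s1.isCompact.prod s2.isCompact) fun x hx => ?_)
    rcases not_and_or.1 hx with h | h
    · have := image_eq_zero_of_notMem_tsupport h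
      exact mul_eq_zero_of_right _ this
    · have := image_eq_zero_of_notMem_tsupport h
      exact mul_eq_zero_of_left (mul_eq_zero_of_right _ this) _

end Vale.Agent.P242
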