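import Vale.Agent.P242R.Defs

/-! P242R Sph (TASK, owner helper5; helper names start with sph_). Functions on spheres. `exists_perp`: the span of `x, y` has dimension at most `2 < n`, so its orthogonal complement contains a nonzero vector (`Submodule.finrank_add_finrank_orthogonal`, `finrank_span_le_card`), rescale.
`sph`: take `m` orthogonal to `x, y` with `‖m‖ = ϱ`; either use the curve `θ ↦ cos θ • m + sin θ • x` on `[0, π/2]` (norm `ϱ`, derivative orthogonal to the curve, of norm `ϱ`), mean value inequality gives `|A x - A m| ≤ κ ϱ π / 2`. -/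

namespace Vale.Agent.P242

open MeasureTheory Set Metric Filter Topology
open scoped ENNReal ContDiff RealInnerProductSpace

variable {n : ℕ}

theorem exists_perp (hn : 3 ≤ n) (x y : E n) {h : ℝ} (h0 : 0 ≤ h) :
    ∃ m : E n, ‖m‖ = h ∧ ⟪m, x⟫ = 0 ∧ ⟪m, y⟫ = 0 := by
  have h1 : Module.finrank ℝ (Submodule.span ℝ (range ![x, y])) ≤ 2 :=
    (finrank_range_le_card (R := ℝ) ![x, y]).trans (Fintype.card_fin _).le
  have h2 := (Submodule.span ℝ (range ![x, y])).finrank_add_finrank_orthogonal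
  rw [finrank_euclideanSpace_fin] at h2
  have h3 : (Submodule.span ℝ (range ![x, y]))ᗮ ≠ ⊥ := fun e => by
    rw [e, finrank_bot] at h2
    omega
  obtain ⟨u, hu, h4⟩ := Submodule.exists_mem_ne_zero_of_ne_bot h3
  have hx : ⟪u, x⟫ = 0 :=
    Submodule.inner_left_of_mem_orthogonal (Submodule.subset_span (mem_range_self (f := ![x, y]) 0)) hu
  have hy : ⟪u, y⟫ = 0 :=
    Submodule.inner_left_of_mem_orthogonal (Submodule.subset_span (mem_range_self (f := ![x, y]) 1)) hu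
  refine ⟨(h / ‖u‖) • u, ?_, by rw [real_inner_smul_left, hx, mul_zero],
    by rw [real_inner_smul_left, hy, mul_zero]⟩
  rw [norm_smul, Real.norm_of_nonneg (by positivity), div_mul_cancel₀ _ (norm_ne_zero_iff.2 h4)]

theorem sph_norm {m x : E n} {ϱ : ℝ} (hm : ‖m‖ = ϱ) (hx : ‖x‖ = ϱ) (h : ⟪m, x⟫ = 0) {a b : ℝ}
    (hab : a ^ 2 + b ^ 2 = 1) : ‖a • m + b • x‖ = ϱ := by
  have h0 : 0 ≤ ϱ := hm ▸ norm_nonneg m
  refine (sq_eq_sq₀ (norm_nonneg _) h0).1 ?_
  rw [norm_add_sq_real, real_inner_smul_left, real_inner_smul_right, h, norm_smul, norm_smul, hm,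
    hx, mul_pow, mul_pow, Real.norm_eq_abs, Real.norm_eq_abs, sq_abs, sq_abs]
  linear_combination ϱ ^ 2 * hab

theorem sph_arc {A : E n → ℝ} (hA : Differentiable ℝ A) {ϱ κ : ℝ} (hκ : 0 ≤ κ)
    (h : ∀ z : E n, ‖z‖ = ϱ → ∀ v : E n, ⟪v, z⟫ = 0 → |fderiv ℝ A z v| ≤ κ * ‖v‖) {m x : E n}
    (hm : ‖m‖ = ϱ) (hx : ‖x‖ = ϱ) (ho : ⟪m, x⟫ = 0) : |A x - A m| ≤ 2 * κ * ϱ := by
  have h0 : 0 ≤ ϱ := hm ▸ norm_nonneg m
  have hd : ∀ θ : ℝ, HasDerivAt (fun θ => A (Real.cos θ • m + Real.sin θ • x))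
      (fderiv ℝ A (Real.cos θ • m + Real.sin θ • x) ((-Real.sin θ) • m + Real.cos θ • x)) θ :=
    fun θ => (hA _).hasFDerivAt.comp_hasDerivAt θ
      (((Real.hasDerivAt_cos θ).smul_const m).add ((Real.hasDerivAt_sin θ).smul_const x))
  have hb : ∀ θ : ℝ, ‖fderiv ℝ A (Real.cos θ • m + Real.sin θ • x)
      ((-Real.sin θ) • m + Real.cos θ • x)‖ ≤ κ * ϱ := fun θ => by
    have h1 := h _ (sph_norm hm hx ho (Real.cos_sq_add_sin_sq θ))
      ((-Real.sin θ) • m + Real.cos θ • x) (by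
        simp only [inner_add_left, inner_add_right, real_inner_smul_left, real_inner_smul_right,
          real_inner_comm m x, ho, real_inner_self_eq_norm_sq, hm, hx]
        ring)
    rwa [sph_norm hm hx ho (by rw [neg_sq, Real.sin_sq_add_cos_sq])] at h1
  have h2 := norm_image_sub_le_of_norm_deriv_le_segment' (a := 0) (b := Real.pi / 2)
    (fun θ _ => (hd θ).hasDerivWithinAt) (fun θ _ => hb θ) (Real.pi / 2)
    (right_mem_Icc.2 (by positivity))
  simp only [Real.cos_pi_div_two, Real.sin_pi_div_two, Real.cos_zero, Real.sin_zero, zero_smul,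
    one_smul, zero_add, add_zero, sub_zero, Real.norm_eq_abs] at h2
  refine h2.trans ?_
  have h3 := mul_le_mul_of_nonneg_left Real.pi_le_four (mul_nonneg hκ h0)
  linarith

theorem sph (hn : 3 ≤ n) {A : E n → ℝ} (hA : Differentiable ℝ A) {ϱ κ : ℝ} (hκ : 0 ≤ κ)
    (h : ∀ z : E n, ‖z‖ = ϱ → ∀ v : E n, ⟪v, z⟫ = 0 → |fderiv ℝ A z v| ≤ κ * ‖v‖) {x y : E n}
    (hx : ‖x‖ = ϱ) (hy : ‖y‖ = ϱ) : |A x - A y| ≤ 4 * κ * ϱ := by
  obtain ⟨m, hm, h1, h2⟩ := exists_perp hn x y (hx ▸ norm_nonneg x : 0 ≤ ϱ)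
  have h3 := abs_le.1 (sph_arc hA hκ h hm hx h1)
  have h4 := abs_le.1 (sph_arc hA hκ h hm hy h2)
  rw [abs_le]
  constructor <;> linarith [h3.1, h3.2, h4.1, h4.2]

end Vale.Agent.P242
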