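import Vale.Agent.P242R.Tan
import Vale.Agent.P242R.Sph
import Vale.Agent.P242R.Shell
import Vale.Agent.P242R.Mono

/-! P242R Prf (TASK, owner helper5; helper names start with prf_). The radial profile. Use `tan` with `ρ / 2` (constant `C`), `l₁ = min (1/2) (δ / (3 C))`. `A z = aa K W z l` is smooth (`av_smooth`) with `fderiv A z v = av η (D v W) (z, l)` (`av_fderiv`, `s = 0`). For `p` with `eta ψ (‖p‖^2) ≠ 0` one has `1 - l₁ < ‖p‖^2 < 1`, so `1 - l₁ ≤ ‖p‖ ≤ 1`; with `r = ‖z‖`, `z' = r • p`, `z'' = (r / ‖p‖) • p`: `|A z - A z''| ≤ 4 C l r` (`sph`), `|A z'' - A z'| ≤ C l₁` (mean value inequality for `t ↦ A (t • p)`, norms in `[ρ/2, 1/2]`). `I_near` gives `|av (eta ψ) A (0, r) - A z| ≤ 2 C l + C l₁`.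
`av_comm`, then `I_near` for `eta K.ψ`: `|av (eta ψ) W (l • p, r) - av (eta ψ) W (0, r)| ≤ B l / ρ` by `av_lip` on `closedBall 0 1` with `B = C' (1 + C'')` (`est_G` with parameter `1`, `uni_th`, `NL.sc` with `1 + 4 r ≤ 4`). -/

namespace Vale.Agent.P242

open MeasureTheory Set Metric Filter Topology
open scoped ENNReal ContDiff RealInnerProductSpace

variable {n : ℕ}

theorem prf_rad (hn : 3 ≤ n) {A : E n → ℝ} (hA : Differentiable ℝ A) {ρ C κ l₁ : ℝ} (h0 : 0 < ρ)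
    (hC : 0 ≤ C) (hκ : 0 ≤ κ) (hl : l₁ ≤ 1 / 2)
    (h : ∀ z : E n, ρ / 2 ≤ ‖z‖ → ‖z‖ ≤ 1 / 2 → ∀ v : E n,
      |fderiv ℝ A z v| ≤ C * ‖v‖ ∧ (⟪v, z⟫ = 0 → |fderiv ℝ A z v| ≤ κ * ‖v‖))
    {z p : E n} (z1 : ρ ≤ ‖z‖) (z2 : ‖z‖ ≤ 1 / 2) (p1 : 1 - l₁ ≤ ‖p‖) (p2 : ‖p‖ ≤ 1) :
    |A (0 + ‖z‖ • p) - A z| ≤ 2 * κ + C * l₁ := by
  have q0 : 0 < ‖p‖ := by linarith
  have r0 : 0 < ‖z‖ := h0.trans_le z1
  obtain ⟨u, hu, e⟩ : ∃ u : E n, ‖u‖ = 1 ∧ p = ‖p‖ • u :=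
    ⟨‖p‖⁻¹ • p, by rw [norm_smul, norm_inv, norm_norm, inv_mul_cancel₀ q0.ne'],
      (smul_inv_smul₀ q0.ne' p).symm⟩
  have nu : ∀ t : ℝ, 0 ≤ t → ‖t • u‖ = t := fun t ht => by
    rw [norm_smul, hu, mul_one, Real.norm_of_nonneg ht]
  have a1 : ρ / 2 ≤ ‖z‖ * ‖p‖ := by nlinarith
  have a2 : ‖z‖ * ‖p‖ ≤ ‖z‖ := by nlinarith
  have hd : ∀ t : ℝ, HasDerivAt (fun t : ℝ => A (t • u)) (fderiv ℝ A (t • u) u) t := fun t => by
    have h1 := (hasDerivAt_id t).smul_const u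
    rw [one_smul] at h1
    exact (hA _).hasFDerivAt.comp_hasDerivAt t h1
  have b1 := norm_image_sub_le_of_norm_deriv_le_segment' (a := ‖z‖ * ‖p‖) (b := ‖z‖) (C := C)
    (fun t _ => (hd t).hasDerivWithinAt) (fun t ht => by
      have h1 := nu t (by linarith [ht.1])
      have h2 := (h (t • u) (by linarith [ht.1]) (by linarith [ht.2]) u).1
      rwa [hu, mul_one] at h2) ‖z‖ (right_mem_Icc.2 a2)
  have b2 := sph hn hA hκ (ϱ := ‖z‖)
    (fun y hy v => (h y (by linarith) (by linarith) v).2) (nu _ r0.le) rfl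
  have e2 : 0 + ‖z‖ • p = (‖z‖ * ‖p‖) • u := by rw [zero_add, mul_smul, ← e]
  rw [Real.norm_eq_abs, abs_sub_comm] at b1
  rw [e2]
  have b3 : C * (‖z‖ - ‖z‖ * ‖p‖) ≤ C * l₁ := mul_le_mul_of_nonneg_left (by nlinarith) hC
  have b4 : 4 * κ * ‖z‖ ≤ 2 * κ := by nlinarith
  linarith [abs_sub_le (A ((‖z‖ * ‖p‖) • u)) (A (‖z‖ • u)) (A z)]

theorem prf_lt {k : ℝ → ℝ} (hk : Prof 1 k) {p : E n} (hp : k (‖p‖ ^ 2) ≠ 0) : ‖p‖ ≤ 1 := by
  by_contra h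
  exact hp (hk.2 _ (by nlinarith [not_le.1 h]))

theorem prf (hn : 3 ≤ n) (K : Kit2 n) {ρ δ : ℝ} (h0 : 0 < ρ) (h1 : ρ ≤ 1 / 2) (hδ : 0 < δ) :
    ∃ l₁ : ℝ, 0 < l₁ ∧ l₁ ≤ 1 / 2 ∧ ∀ (c : ℝ) (ψ : ℝ → ℝ), Shell n c l₁ ψ → ∃ l₀ : ℝ, 0 < l₀ ∧
      ∀ l : ℝ, 0 < l → l ≤ l₀ → ∃ π₀ : ℝ, 0 < π₀ ∧ ∀ W : E n → ℝ, NL W → de K.φ W ≤ π₀ →
        ∀ z : E n, ρ ≤ ‖z‖ → ‖z‖ ≤ 1 / 2 → |aa K W z l - av (eta ψ) W (0, ‖z‖)| ≤ δ := by
  obtain ⟨C, C1, hC⟩ := tan hn K (half_pos h0) (by linarith)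
  have C0 : 0 < C := by linarith
  refine ⟨min (1 / 2) (δ / (3 * C)), lt_min (by norm_num) (by positivity), min_le_left _ _,
    fun c ψ hS => ?_⟩
  have i1 : min (1 / 2) (δ / (3 * C)) ≤ 1 / 2 := min_le_left _ _
  have i2 : min (1 / 2) (δ / (3 * C)) * (3 * C) ≤ δ :=
    (le_div_iff₀ (by positivity)).1 (min_le_right _ _)
  generalize min (1 / 2) (δ / (3 * C)) = l₁ at hS i1 i2
  obtain ⟨C', C1', hG⟩ := est_G hn K.toKit (est_mono hS.prof.eta (by norm_num : (1 : ℝ) ≤ 4))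
  obtain ⟨C'', C1'', hU⟩ := uni_th hn K.toKit
  have B0 : 0 < C' * (1 + C'') := mul_pos (by linarith) (by linarith)
  refine ⟨min (ρ / 2 / 10) (min (δ / (6 * C)) (δ * ρ / (3 * (C' * (1 + C''))))),
    lt_min (by positivity) (lt_min (by positivity) (by positivity)), fun l l0 hl => ?_⟩
  obtain ⟨j1, hl⟩ := le_min_iff.1 hl
  obtain ⟨j2, j3⟩ := le_min_iff.1 hl
  rw [le_div_iff₀ (by positivity)] at j2 j3
  obtain ⟨π₀, p0, hπ⟩ := hC l l0 j1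
  refine ⟨π₀, p0, fun W hW hde z z1 z2 => ?_⟩
  have r0 : 0 < ‖z‖ := h0.trans_le z1
  have hd : ∀ y : E n, HasFDerivAt (fun y : E n => av (eta K.ψ) W (y, l))
      ((fderiv ℝ (av (eta K.ψ) W) (y, l)).comp (ContinuousLinearMap.inl ℝ (E n) ℝ)) y := fun y =>
    ((av_smooth K.hψ.eta hW.1).differentiable (by simp) _).hasFDerivAt.comp y
      (hasFDerivAt_prodMk_left y l)
  have hA : Differentiable ℝ fun y : E n => av (eta K.ψ) W (y, l) :=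
    fun y => (hd y).differentiableAt
  have hf : ∀ y v : E n, fderiv ℝ (fun y : E n => av (eta K.ψ) W (y, l)) y v =
      av (eta K.ψ) (D v W) (y, l) := fun y v => by
    rw [(hd y).fderiv, ContinuousLinearMap.comp_apply, ContinuousLinearMap.inl_apply,
      av_fderiv K.hψ.eta hW.1, zero_mul, add_zero]
  have n1 : |av (eta ψ) (fun y : E n => av (eta K.ψ) W (y, l)) (0, ‖z‖) - aa K W z l| ≤
      2 * (C * l) + C * l₁ := by
    refine I_near hS.prof.eta (fun s => by unfold eta; linarith [hS.p1 s]) hS.one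
      (hA.continuous.comp (by fun_prop)) fun p hp => ?_
    have p2 := prf_lt hS.prof.eta hp
    have p1 : 1 - l₁ ≤ ‖p‖ := by
      by_contra h
      refine hp ?_
      unfold eta
      rw [hS.p2 _ (by nlinarith [not_le.1 h, norm_nonneg p]), mul_zero]
    refine prf_rad hn hA h0 C0.le (by positivity) i1 (fun y y1 y2 v => ?_) z1 z2 p1 p2
    rw [hf]
    exact hπ W hW hde y y1 y2 v
  rw [av_comm hS.prof.eta K.hψ.eta hW.1.continuous] at n1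
  have n2 : |(I (eta K.ψ) fun p => av (eta ψ) W (l • p, ‖z‖)) - av (eta ψ) W (0, ‖z‖)| ≤ δ / 3 := by
    refine I_near K.hψ.eta (fun s => by unfold eta; linarith [K.ψ1 s]) K.one
      ((av_smooth hS.prof.eta hW.1).continuous.comp (by fun_prop)) fun p hp => ?_
    have p2 : ‖l • p‖ ≤ l := by
      rw [norm_smul, Real.norm_of_nonneg l0.le]
      exact mul_le_of_le_one_right l0.le (prf_lt K.hψ.eta hp)
    refine (av_lip hS.prof.eta hW.1 (convex_closedBall (0 : E n) 1) (B := C' * (1 + C'')) r0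
      (fun x hx u => ?_) (mem_closedBall_zero_iff.2 (by linarith))
      (mem_closedBall_self zero_le_one)).trans ?_
    · have hN := hW.sc (z := x) r0.le (by linarith [mem_closedBall_zero_iff.1 hx])
      refine (hG _ hN u 1 one_pos).trans (mul_le_mul_of_nonneg_right
        (mul_le_mul_of_nonneg_left ?_ (by linarith)) (norm_nonneg u))
      rw [div_one]
      linarith [hU _ hN]
    · rw [sub_zero, div_le_iff₀ r0]
      nlinarith [mul_le_mul_of_nonneg_left p2 B0.le, mul_le_mul_of_nonneg_left z1 hδ.le]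
  rw [abs_sub_comm] at n1
  linarith [abs_sub_le (aa K W z l) (I (eta K.ψ) fun p => av (eta ψ) W (l • p, ‖z‖))
    (av (eta ψ) W (0, ‖z‖))]

end Vale.Agent.P242
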