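import Vale.Agent.P242R.Nl
import Vale.Agent.P242.Ibp

/-! P242R Star (TASK, owner helper5; helper names start with sta_). An integral identity. Put `G q = ∑ i, pd i k q * pd i W q`, `X = ∫ k ‖q‖^2 (-lap W)`. `ibp` for each coordinate (function `pd i W`, kernel `k q * ‖q‖^2`, whose `pd i` is `pd i k * ‖q‖^2 + 2 k * q i`) gives `X = ∫ ‖q‖^2 G + 2 ∫ k * eu W` (`eu W q = ∑ i, q i * pd i W q` by `D_eq_sum`). `mu W q q q = -(n-2) (eu (eu W) q - eu W q) - lap W q * ‖q‖^2` (`eu_eu`), and `ibp_eu` for `eu W` gives `∫ k * eu (eu W) = -∫ eu W * (eu k + n k)`. All integrands are continuous with compact support.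
`star_pt`: `NL.tan` with `v = ∑ i, pd i k q • single i 1` (or `WithLp.toLp 2 fun i => pd i k q`), `‖v‖^2 = gsq k q`, `D v W q = G q`, `⟪v, q⟫ = eu k q`; then `|A| ≤ l X + Y / l` from `A^2 ≤ X Y`. -/

namespace Vale.Agent.P242

open MeasureTheory Set Metric Filter Topology
open scoped ENNReal ContDiff RealInnerProductSpace

variable {n : ℕ}

variable {W k : E n → ℝ}

theorem sta_green (hW : ContDiff ℝ ∞ W) (hk : ContDiff ℝ ∞ k) (hc : HasCompactSupport k) :
    ∫ p, lap W p * k p = -∫ p, ∑ i, pd i W p * pd i k p := by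
  simp only [lap, Finset.sum_mul]
  rw [integral_finsetSum (f := fun i p => pd i (pd i W) p * k p) _ fun i _ =>
      ibp_int (smooth_D (smooth_D hW _) _).continuous hk.continuous hc,
    integral_finsetSum (f := fun i p => pd i W p * pd i k p) _ fun i _ =>
      ibp_int (smooth_D hW _).continuous (smooth_D hk _).continuous (ibp_cs hc _),
    ← Finset.sum_neg_distrib]
  exact Finset.sum_congr rfl fun i _ =>
    ibp (smooth_D hW (EuclideanSpace.single i 1)) hk hc (EuclideanSpace.single i 1)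

theorem sta_pd (hk : ContDiff ℝ ∞ k) (i : Fin n) (p : E n) :
    pd i (fun p : E n => k p * ‖p‖ ^ 2) p = pd i k p * ‖p‖ ^ 2 + 2 * k p * p i := by
  have h1 := (hk.differentiable (by simp) p).hasFDerivAt.mul
    (hasStrictFDerivAt_norm_sq p).hasFDerivAt
  have h2 : fderiv ℝ (fun p : E n => k p * ‖p‖ ^ 2) p = _ := h1.fderiv
  rw [pd, h2, pd]
  simp only [ContinuousLinearMap.add_apply, ContinuousLinearMap.smul_apply, innerSL_apply_apply,
    smul_eq_mul, nsmul_eq_mul, Nat.cast_ofNat, EuclideanSpace.inner_single_right, conj_trivial,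
    one_mul]
  ring

theorem sta_cs (hc : HasCompactSupport k) : HasCompactSupport (eu k) := by
  refine (hc.fderiv ℝ).mono fun p hp h0 => hp ?_
  rw [eu, h0]
  rfl

theorem star (hW : ContDiff ℝ ∞ W) (hk : ContDiff ℝ ∞ k) (hc : HasCompactSupport k) :
    ((n : ℝ) - 1) * ∫ q, k q * ‖q‖ ^ 2 * -lap W q =
      (∫ q, k q * mu W q q q) - ((n : ℝ) - 2) * ((n : ℝ) - 1) * (∫ q, k q * eu W q) +
        ((n : ℝ) - 2) * ∫ q, (‖q‖ ^ 2 * (∑ i, pd i k q * pd i W q) - eu k q * eu W q) := by
  have hn2 : Continuous fun q : E n => ‖q‖ ^ 2 := by fun_prop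
  have iA : Integrable fun q : E n => ‖q‖ ^ 2 * ∑ i, pd i k q * pd i W q := by
    have h := integrable_finset_sum (f := fun i (q : E n) => ‖q‖ ^ 2 * pd i W q * pd i k q)
      Finset.univ fun i _ => ibp_int (hn2.mul (smooth_D hW _).continuous)
        (smooth_D hk _).continuous (ibp_cs hc _)
    refine h.congr (Eventually.of_forall fun q => ?_)
    simp only [Finset.mul_sum]
    exact Finset.sum_congr rfl fun i _ => by ring
  have iB : Integrable fun q : E n => eu W q * k q :=
    ibp_int (smooth_eu hW).continuous hk.continuous hc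
  have iC : Integrable fun q : E n => eu W q * eu k q :=
    ibp_int (smooth_eu hW).continuous (smooth_eu hk).continuous (sta_cs hc)
  have iE : Integrable fun q : E n => eu (eu W) q * k q :=
    ibp_int (smooth_eu (smooth_eu hW)).continuous hk.continuous hc
  have iX : Integrable fun q : E n => lap W q * (k q * ‖q‖ ^ 2) :=
    ibp_int (smooth_lap hW).continuous (hk.continuous.mul hn2) hc.mul_right
  have h1 : ∫ q, lap W q * (k q * ‖q‖ ^ 2) =
      -((∫ q : E n, ‖q‖ ^ 2 * ∑ i, pd i k q * pd i W q) + 2 * ∫ q, eu W q * k q) := by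
    rw [sta_green hW (hk.mul (contDiff_norm_sq ℝ)) hc.mul_right, ← integral_const_mul,
      ← integral_add iA (iB.const_mul 2), neg_inj]
    refine integral_congr_ae (Eventually.of_forall fun q => ?_)
    have e : eu W q = ∑ i, q i * pd i W q := D_eq_sum W q q
    simp only [sta_pd hk, e, Finset.mul_sum, Finset.sum_mul, ← Finset.sum_add_distrib]
    exact Finset.sum_congr rfl fun i _ => by ring
  have h2 : ∫ q, k q * mu W q q q = -((n : ℝ) - 2) * ((∫ q, eu (eu W) q * k q) -
      ∫ q, eu W q * k q) - ∫ q, lap W q * (k q * ‖q‖ ^ 2) := by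
    have iD : Integrable fun q : E n => eu (eu W) q * k q - eu W q * k q := iE.sub iB
    rw [← integral_sub iE iB, ← integral_const_mul, ← integral_sub (iD.const_mul _) iX]
    refine integral_congr_ae (Eventually.of_forall fun q => ?_)
    simp only [mu, eu_eu hW, real_inner_self_eq_norm_sq]
    ring
  have h3 : ∫ q, eu (eu W) q * k q =
      -((∫ q, eu W q * eu k q) + n * ∫ q, eu W q * k q) := by
    rw [ibp_eu (smooth_eu hW) hk hc, ← integral_const_mul, ← integral_add iC (iB.const_mul _),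
      neg_inj]
    exact integral_congr_ae (Eventually.of_forall fun q => by ring)
  have h4 : ∫ q, k q * ‖q‖ ^ 2 * -lap W q = -∫ q, lap W q * (k q * ‖q‖ ^ 2) := by
    rw [← integral_neg]
    exact integral_congr_ae (Eventually.of_forall fun q => by ring)
  have h5 : ∫ q, k q * eu W q = ∫ q, eu W q * k q :=
    integral_congr_ae (Eventually.of_forall fun q => mul_comm _ _)
  have h6 : ∫ q, (‖q‖ ^ 2 * (∑ i, pd i k q * pd i W q) - eu k q * eu W q) =
      (∫ q : E n, ‖q‖ ^ 2 * ∑ i, pd i k q * pd i W q) - ∫ q, eu W q * eu k q := by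
    rw [← integral_sub iA iC]
    exact integral_congr_ae (Eventually.of_forall fun q => by ring)
  rw [h2, h3, h4, h5, h6, h1]
  ring

theorem star_pt (hn : 3 ≤ n) (hW : NL W) (k : E n → ℝ) {q : E n} (hq : q ∈ ball (0 : E n) 4)
    {l : ℝ} (hl : 0 < l) : |‖q‖ ^ 2 * (∑ i, pd i k q * pd i W q) - eu k q * eu W q| ≤
      l * (‖q‖ ^ 2 * gsq k q) + mu W q q q / l := by
  have h := hW.tan hn hq (WithLp.toLp 2 fun i => pd i k q)
  have e1 : ‖(WithLp.toLp 2 fun i => pd i k q : E n)‖ ^ 2 = gsq k q := by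
    rw [EuclideanSpace.real_norm_sq_eq]
    rfl
  have e2 : ⟪(WithLp.toLp 2 fun i => pd i k q : E n), q⟫ = eu k q := by
    have e : eu k q = ∑ i, q i * pd i k q := D_eq_sum k q q
    rw [e, PiLp.inner_apply]
    exact Finset.sum_congr rfl fun i _ => by simp
  rw [e1, e2, D_eq_sum] at h
  have hX : 0 ≤ ‖q‖ ^ 2 * gsq k q := mul_nonneg (sq_nonneg _) (gsq_nonneg k q)
  have hY : 0 ≤ mu W q q q := hW.lin hn q hq q
  have hXY := mul_nonneg hX hY
  refine abs_le_of_sq_le_sq (h.trans ?_) (by positivity)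
  have e3 : (l * (‖q‖ ^ 2 * gsq k q) + mu W q q q / l) ^ 2 =
      (l * (‖q‖ ^ 2 * gsq k q)) ^ 2 + (mu W q q q / l) ^ 2 +
        2 * (‖q‖ ^ 2 * gsq k q * mu W q q q) := by
    field_simp
    ring
  rw [e3]
  have := sq_nonneg (l * (‖q‖ ^ 2 * gsq k q))
  have := sq_nonneg (mu W q q q / l)
  linarith

theorem mu_le_de (hn : 3 ≤ n) (K : Kit n) (hW : NL W) :
    ∫ q in ball (0 : E n) 1, mu W q q q ≤ de K.φ W := by
  have hP : Prof 4 fun s => -deriv K.φ s :=
    ⟨K.hφ.deriv.1.neg, fun s hs => neg_eq_zero.2 (K.hφ.deriv.2 s hs)⟩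
  have hm : Continuous fun p => mu W p p p := (smooth_mu hW.1 0).1.continuous
  have hi := integrable_rad hP hm
  have h0 : ∀ p : E n, 0 ≤ mu W p p p * -deriv K.φ (‖p‖ ^ 2) := by
    intro p
    by_cases hp : p ∈ ball (0 : E n) 4
    · exact mul_nonneg (hW.lin hn p hp p) (neg_nonneg.2 (K.φ1 _))
    · rw [mem_ball_zero_iff, not_lt] at hp
      rw [K.hφ.deriv.2 _ (by nlinarith), neg_zero, mul_zero]
  refine le_trans ?_ (setIntegral_le_integral (s := ball (0 : E n) 1) hi (Eventually.of_forall h0))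
  refine setIntegral_mono_on
    ((hm.continuousOn.integrableOn_compact (isCompact_closedBall 0 1)).mono_set
      ball_subset_closedBall) hi.integrableOn measurableSet_ball fun p hp => ?_
  have h1 : ‖p‖ < 1 := mem_ball_zero_iff.1 hp
  have h2 := K.φ2 (‖p‖ ^ 2) (by nlinarith [norm_nonneg p])
  refine le_mul_of_one_le_right (hW.lin hn p (mem_ball_zero_iff.2 (by linarith)) p) ?_
  linarith

end Vale.Agent.P242
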