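import Vale.Agent.P242R.Loc

/-! P242R Tan (TASK, owner helper5; helper names start with tan_). Gradient of the local averages. `V = sc W z l` is `NL` (`NL.sc`), `th V ≤ C' l^2` (`th_le_mass`, `loc`), `l * av η (D v W) (z, l) = I η (D v V)` (`Y_inner`), and `est_G` with parameter `l` gives the first bound.
Second bound: for `‖p‖ ≤ 1`, `q = z + l • p` has `ρ / 2 ≤ ‖q‖ < 1`, `⟪v, q⟫ = l ⟪v, p⟫`, and `NL.tan` gives `‖q‖ |D v W q| ≤ ‖v‖ (sqrt (mu W q q q) + l sqrt (gsq W q))`, with `sqrt mu ≤ l' + mu / l'` and `l sqrt (gsq W q) ≤ l + l * gsq W q ≤ l + 2 (-lap V p) / l` (`NL.grad'`, `lap_sc`). Integrate against `|η| ≤ c χ` (`est_chi`, `est_th`) and `|η| ≤ c` times the indicator of `ball 0 1`: `∫ p in ball 0 1, mu (z + l p) ≤ (l^n)⁻¹ de` (`cov`, `mu_le_de`). Choose `l₀`, then `l' = l`, `π₀ ≤ l^n l^2`. -/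

namespace Vale.Agent.P242

open MeasureTheory Set Metric Filter Topology
open scoped ENNReal ContDiff RealInnerProductSpace

variable {n : ℕ}

theorem tan_pt (hn : 3 ≤ n) {W : E n → ℝ} (h : NL W) {q v : E n} {ρ l : ℝ} (h0 : 0 < ρ) (hl : 0 < l)
    (h1 : ρ / 2 ≤ ‖q‖) (h2 : ‖q‖ ≤ 1) (hv : |⟪v, q⟫| ≤ l * ‖v‖) :
    |D v W q| ≤ 2 / ρ * ‖v‖ * (2 * l + mu W q q q / l + 2 * l * -lap W q) := by
  have hq : q ∈ ball (0 : E n) 4 := mem_ball_zero_iff.2 (by linarith)
  have q0 : 0 < ‖q‖ := by linarith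
  have m0 : 0 ≤ mu W q q q := h.lin hn q hq q
  have g0 := gsq_nonneg W q
  have g1 := h.grad' hn hq
  have a1 : |‖q‖ ^ 2 * D v W q - ⟪v, q⟫ * eu W q| ≤ ‖q‖ * ‖v‖ * (l + mu W q q q / l) := by
    refine abs_le_of_sq_le_sq ((h.tan hn hq v).trans ?_) (by positivity)
    rw [mul_pow, mul_pow]
    refine mul_le_mul_of_nonneg_left ?_ (by positivity)
    have e : l * (mu W q q q / l) = mu W q q q := by field_simp
    nlinarith [sq_nonneg l, sq_nonneg (mu W q q q / l)]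
  have a2 : |eu W q| ≤ (1 + gsq W q) * ‖q‖ := by
    refine abs_le_of_sq_le_sq ((D_sq_le W q q).trans ?_) (by positivity)
    rw [mul_pow]
    exact mul_le_mul_of_nonneg_right (by nlinarith [sq_nonneg (gsq W q)]) (sq_nonneg _)
  have a3 : |⟪v, q⟫ * eu W q| ≤ l * ‖v‖ * ((1 + 2 * -lap W q) * ‖q‖) := by
    rw [abs_mul]
    exact mul_le_mul hv (a2.trans (mul_le_mul_of_nonneg_right (by linarith) q0.le)) (abs_nonneg _)
      (by positivity)
  have a4 := abs_sub_abs_le_abs_sub (‖q‖ ^ 2 * D v W q) (⟪v, q⟫ * eu W q)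
  rw [abs_mul (‖q‖ ^ 2), abs_of_nonneg (sq_nonneg _)] at a4
  have a5 : ‖q‖ * |D v W q| ≤ ‖v‖ * (2 * l + mu W q q q / l + 2 * l * -lap W q) := by
    refine le_of_mul_le_mul_left ?_ q0
    linarith
  have a6 := mul_le_mul_of_nonneg_right h1 (abs_nonneg (D v W q))
  rw [mul_assoc, div_mul_eq_mul_div, le_div_iff₀ h0]
  linarith

theorem tan (hn : 3 ≤ n) (K : Kit2 n) {ρ : ℝ} (h0 : 0 < ρ) (h1 : ρ ≤ 1 / 2) : ∃ C : ℝ, 1 ≤ C ∧
    ∀ l : ℝ, 0 < l → l ≤ ρ / 10 → ∃ π₀ : ℝ, 0 < π₀ ∧ ∀ W : E n → ℝ, NL W → de K.φ W ≤ π₀ →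
      ∀ z : E n, ρ ≤ ‖z‖ → ‖z‖ ≤ 1 / 2 → ∀ v : E n,
        |av (eta K.ψ) (D v W) (z, l)| ≤ C * ‖v‖ ∧
        (⟪v, z⟫ = 0 → |av (eta K.ψ) (D v W) (z, l)| ≤ C * l * ‖v‖) := by
  have hη : Prof 1 (eta K.ψ) := K.hψ.eta
  have hη4 : Prof 4 (eta K.ψ) := est_mono hη (by norm_num)
  obtain ⟨C₁, c1, hL⟩ := loc hn K.toKit h0 h1
  obtain ⟨C₂, c2, hM⟩ := th_le_mass hn K.toKit
  obtain ⟨C₃, c3, hG⟩ := est_G hn K.toKit hη4
  obtain ⟨c, hc, hχ⟩ := est_chi K.toKit hη4
  obtain ⟨b, hb, hbd⟩ := hη.bdd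
  have hi : Integrable fun p : E n => K.χ (‖p‖ ^ 2) := by
    simpa using integrable_rad (f := fun _ : E n => (1 : ℝ)) K.hχ continuous_const
  obtain ⟨A, hA⟩ : ∃ A, A = ∫ p : E n, K.χ (‖p‖ ^ 2) := ⟨_, rfl⟩
  have hA0 : 0 ≤ A := by
    rw [hA]
    exact integral_nonneg fun p => K.χ0 _
  obtain ⟨T, hT⟩ : ∃ T, T = C₂ * C₁ := ⟨_, rfl⟩
  have T0 : 0 ≤ T := by rw [hT]; positivity
  have k1 : 1 ≤ C₃ * (1 + T) := one_le_mul_of_one_le_of_one_le c3 (by linarith)
  have k2 : 0 ≤ 2 / ρ * (2 * c * A + b + 2 * c * T) := by positivity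
  refine ⟨C₃ * (1 + T) + 2 / ρ * (2 * c * A + b + 2 * c * T), by linarith, fun l hl hlρ => ?_⟩
  obtain ⟨π₁, p1, hL⟩ := hL l hl hlρ
  refine ⟨min π₁ (l ^ n * l ^ 2), lt_min p1 (by positivity), fun W h hd z z0 z1 v => ?_⟩
  have hV : NL (sc W z l) := h.sc hl.le (by linarith)
  have hth : th K.toKit (sc W z l) ≤ T * l ^ 2 := by
    rw [hT, mul_assoc]
    exact (hM _ hV).trans (mul_le_mul_of_nonneg_left (hL W h (hd.trans (min_le_left _ _)) z z0 z1)
      (by linarith))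
  have hth' : th K.toKit (sc W z l) / l ≤ T * l := by
    rw [div_le_iff₀ hl]
    linarith
  have v0 := norm_nonneg v
  constructor
  · have e := (Y_inner hη h.1 z v l).1.symm.trans (Y_inner hη h.1 z v l).2
    have h2 := hG _ hV v l hl
    rw [← e, abs_mul, abs_of_pos hl] at h2
    have h3 : C₃ * (l + th K.toKit (sc W z l) / l) * ‖v‖ ≤ C₃ * (l + T * l) * ‖v‖ := by gcongr
    have h4 : |av (eta K.ψ) (D v W) (z, l)| ≤ C₃ * (1 + T) * ‖v‖ := by
      refine le_of_mul_le_mul_left ?_ hl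
      linarith
    nlinarith
  · intro hv
    have hP := h.pos hn
    have hPV := hV.pos hn
    obtain ⟨F, hF⟩ : ∃ F : E n → ℝ, F = fun q => mu W q q q * -deriv K.φ (‖q‖ ^ 2) := ⟨_, rfl⟩
    have F0 : ∀ q, 0 ≤ F q := fun q => hF ▸ est_de_pt (est_mono K.hφ (by norm_num)) K.φ1 hP q
    have Fi : Integrable fun p => F (z + l • p) :=
      ((hF ▸ est_de_int K.toKit hP : Integrable F).comp_add_left z).comp_smul hl.ne'
    have Fl : ∫ p, F (z + l • p) ≤ l ^ 2 := by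
      rw [cov F z hl, inv_mul_le_iff₀ (by positivity), hF]
      exact hd.trans (min_le_right _ _)
    obtain ⟨u, hu⟩ : ∃ u, u = 2 / ρ * ‖v‖ := ⟨_, rfl⟩
    have u0 : 0 ≤ u := by rw [hu]; positivity
    have h2 : |av (eta K.ψ) (D v W) (z, l)| ≤ ∫ p : E n, (2 * u * l * c * K.χ (‖p‖ ^ 2) +
        u * b / l * F (z + l • p) + 2 * u * c / l * (-lap (sc W z l) p * K.χ (‖p‖ ^ 2))) := by
      refine est_abs (((hi.const_mul _).add (Fi.const_mul _)).add
        ((est_th_int K.toKit hPV).const_mul _)) fun p => ?_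
      have x0 := K.χ0 (‖p‖ ^ 2)
      by_cases hp : ‖p‖ ≤ 1
      · have n1 : ‖l • p‖ ≤ l := by
          rw [norm_smul, Real.norm_of_nonneg hl.le]
          exact mul_le_of_le_one_right hl.le hp
        have q1 : ‖z + l • p‖ ≤ 1 := by linarith [norm_add_le z (l • p)]
        have q0 : ρ / 2 ≤ ‖z + l • p‖ := by linarith [norm_le_add_norm_add z (l • p)]
        have hq : z + l • p ∈ ball (0 : E n) 4 := mem_ball_zero_iff.2 (by linarith)
        have h3 := tan_pt hn h h0 hl q0 q1 (v := v) (by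
          rw [inner_add_right, hv, zero_add, mul_comm]
          exact (abs_real_inner_le_norm _ _).trans (mul_le_mul_of_nonneg_left n1 v0))
        rw [← hu] at h3
        have m0 : 0 ≤ mu W (z + l • p) (z + l • p) (z + l • p) := h.lin hn _ hq _
        have m1 : mu W (z + l • p) (z + l • p) (z + l • p) ≤ F (z + l • p) := by
          rw [hF]
          exact le_mul_of_one_le_right m0
            (by linarith [K.φ2 _ (pow_le_one₀ (n := 2) (norm_nonneg _) q1)])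
        have l0 : 0 ≤ -lap W (z + l • p) := neg_nonneg.2 (h.lap_le hn _ hq)
        have e1 := hχ _ (sq_nonneg ‖p‖)
        have e2 := hbd _ (sq_nonneg ‖p‖)
        have e0 := abs_nonneg (eta K.ψ (‖p‖ ^ 2))
        rw [abs_mul, lap_sc h.1]
        refine (mul_le_mul_of_nonneg_right h3 e0).trans ?_
        have b1 := mul_le_mul_of_nonneg_left e1
          (by positivity : 0 ≤ u * (2 * l + 2 * l * -lap W (z + l • p)))
        have b2 := mul_le_mul_of_nonneg_left (mul_le_mul m1 e2 e0 (F0 _)) (by positivity : 0 ≤ u / l)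
        have b3 : 2 * u * c / l * (-(l ^ 2 * sc (lap W) z l p) * K.χ (‖p‖ ^ 2)) =
            2 * u * c * l * (-lap W (z + l • p) * K.χ (‖p‖ ^ 2)) := by
          rw [sc]
          field_simp
        rw [b3]
        ring_nf at b1 b2 ⊢
        linarith
      · rw [hη.2 _ (by nlinarith [not_le.1 hp]), mul_zero, abs_zero]
        have := F0 (z + l • p)
        have := est_th_pt hn K.toKit hPV p
        positivity
    have hi2 : Integrable fun p : E n => 2 * u * l * c * K.χ (‖p‖ ^ 2) + u * b / l * F (z + l • p) :=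
      (hi.const_mul _).add (Fi.const_mul _)
    rw [integral_add hi2 ((est_th_int K.toKit hPV).const_mul _),
      integral_add (hi.const_mul _) (Fi.const_mul _), integral_const_mul, integral_const_mul,
      integral_const_mul, ← est_th, ← hA] at h2
    have h5 : u * b / l * ∫ p, F (z + l • p) ≤ u * b * l := by
      refine (mul_le_mul_of_nonneg_left Fl (by positivity)).trans (le_of_eq ?_)
      field_simp
    have h6 : 2 * u * c / l * th K.toKit (sc W z l) ≤ 2 * u * c * (T * l) := by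
      rw [div_mul_eq_mul_div, mul_div_assoc]
      exact mul_le_mul_of_nonneg_left hth' (by positivity)
    have h7 : 0 ≤ C₃ * (1 + T) * l * ‖v‖ := by positivity
    have h8 : (C₃ * (1 + T) + 2 / ρ * (2 * c * A + b + 2 * c * T)) * l * ‖v‖ =
        C₃ * (1 + T) * l * ‖v‖ + (2 * u * l * c * A + u * b * l + 2 * u * c * (T * l)) := by
      rw [hu]
      ring
    linarith

end Vale.Agent.P242
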