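import Vale.Agent.P242R.CdA
import Vale.Agent.P242.Met

/-! P242R Up2 (TASK, owner helper5; helper names start with up2_). Upper bound in scaled form; adapt `met_up` (P242/Met.lean). Write `u = z + l • u'`, `v = z + l • v'` with `u', v' ∈ ball 0 (1/2)`, `a = Φ u'`, `b = Φ v'` in `ball 0 (3/5)`, `G a = u'` by `inv`. The curve `t ↦ z + l • G (a + t • (b - a))` stays in `ball z l`, and `exp (w (γ t)) ‖deriv γ t‖ ≤ exp c * l * A * ‖a - b‖` since `w (γ t) = V (G ..) + c` (`deriv_const_add`, `deriv_const_smul` variants without differentiability such as `deriv_const_smul_field`, or apply the local Lipschitz bound directly to `γ`). `‖a - b‖ ≤ ‖u' - v'‖ + 2 R`. -/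

namespace Vale.Agent.P242

open MeasureTheory Set Metric Filter Topology
open scoped ENNReal ContDiff RealInnerProductSpace

variable {n : ℕ}

theorem up2_aux {w : E n → ℝ} {z : E n} {l k A η : ℝ} {Φ G : E n → E n}
    (h : FlowD (fun p => sc w z l p - k) A η Φ G) (hw : Continuous w) (hA : 0 ≤ A) (hη : 0 < η)
    (hl : 0 < l) (hz : ‖z‖ + l ≤ 4) {a b : E n}
    (ha : a ∈ ball (0 : E n) (3 / 5)) (hb : b ∈ ball (0 : E n) (3 / 5)) :
    cdist w (z + l • G a) (z + l • G b) ≤ ENNReal.ofReal (Real.exp k * l * (A * ‖a - b‖)) := by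
  obtain ⟨c, hc⟩ : ∃ c : ℝ → E n, c = fun t => a + t • (b - a) := ⟨_, rfl⟩
  have c1 : ∀ t ∈ Icc (0 : ℝ) 1, c t ∈ ball (0 : E n) (3 / 5) := fun t ht =>
    hc ▸ (convex_ball _ _).add_smul_sub_mem ha hb ht
  have c2 : ∀ t ∈ Icc (0 : ℝ) 1, c t ∈ ball (0 : E n) (4 / 5) := fun t ht =>
    ball_subset_ball (by norm_num) (c1 t ht)
  have c3 : ∀ s t, ‖c s - c t‖ = ‖s - t‖ * ‖a - b‖ := fun s t => by
    rw [hc, norm_sub_rev a, ← norm_smul, add_sub_add_left_eq_sub, sub_smul]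
  have c4 : Continuous c := by
    rw [hc]
    fun_prop
  have c5 : ∀ t ∈ Icc (0 : ℝ) 1, ‖z + l • G (c t)‖ < 4 := fun t ht => by
    have h1 := (h.mv _ (c2 t ht)).2
    have h2 := mem_ball_zero_iff.1 (c1 t ht)
    have h3 : ‖G (c t)‖ ≤ 7 / 10 := by linarith [norm_le_insert' (G (c t)) (c t)]
    have h4 := norm_add_le z (l • G (c t))
    rw [norm_smul, Real.norm_eq_abs, abs_of_pos hl] at h4
    have h5 := mul_le_mul_of_nonneg_left h3 hl.le
    linarith
  have c6 : ∀ p q : E n, ‖(z + l • p) - (z + l • q)‖ = l * ‖p - q‖ := fun p q => by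
    rw [add_sub_add_left_eq_sub, ← smul_sub, norm_smul, Real.norm_eq_abs, abs_of_pos hl]
  have c7 : ∀ p ∈ ball (0 : E n) (4 / 5), ∀ q ∈ ball (0 : E n) (4 / 5), ‖p - q‖ ≤ η →
      Real.exp (w (z + l • G p)) * ‖(z + l • G p) - (z + l • G q)‖ ≤
        Real.exp k * l * (A * ‖p - q‖) := fun p hp q hq hpq => by
    have h1 : Real.exp (w (z + l • G p) - k) * ‖G p - G q‖ ≤ A * ‖p - q‖ := h.lo p hp q hq hpq
    have h2 : Real.exp (w (z + l • G p)) = Real.exp k * Real.exp (w (z + l • G p) - k) := by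
      rw [← Real.exp_add, add_sub_cancel]
    have h3 := mul_le_mul_of_nonneg_left h1 (mul_pos (Real.exp_pos k) hl).le
    rw [c6, h2]
    linarith
  have hab : ‖a - b‖ ≤ 2 := by
    linarith [norm_sub_le a b, mem_ball_zero_iff.1 ha, mem_ball_zero_iff.1 hb]
  obtain ⟨M, hM⟩ := (isCompact_closedBall (0 : E n) 4).exists_bound_of_continuousOn hw.continuousOn
  have hkl : 0 ≤ Real.exp k * l := (mul_pos (Real.exp_pos k) hl).le
  have hL : LocallyLipschitzOn (Icc 0 1) fun t => z + l • G (c t) := by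
    intro t _
    refine ⟨Real.toNNReal (Real.exp M * (Real.exp k * l * (A * 2))),
      Icc 0 1 ∩ closedBall t (η / 4),
      inter_mem_nhdsWithin _ (closedBall_mem_nhds t (by positivity)),
      LipschitzOnWith.of_dist_le' fun x hx y hy => ?_⟩
    have h1 : ‖x - y‖ ≤ η / 2 := by
      rw [← dist_eq_norm]
      linarith [dist_triangle_right x y t, mem_closedBall.1 hx.2, mem_closedBall.1 hy.2]
    have h2 : ‖c x - c y‖ ≤ ‖x - y‖ * 2 := by
      rw [c3]
      exact mul_le_mul_of_nonneg_left hab (norm_nonneg _)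
    have h3 := c7 _ (c2 x hx.1) _ (c2 y hy.1) (by linarith)
    have h4 : 1 ≤ Real.exp M * Real.exp (w (z + l • G (c x))) := by
      rw [← Real.exp_add]
      exact Real.one_le_exp (by
        linarith [(abs_le.1 (hM _ (mem_closedBall_zero_iff.2 (c5 x hx.1).le))).1])
    rw [dist_eq_norm, dist_eq_norm]
    calc ‖(z + l • G (c x)) - (z + l • G (c y))‖
        ≤ Real.exp M * Real.exp (w (z + l • G (c x))) * ‖(z + l • G (c x)) - (z + l • G (c y))‖ :=
          le_mul_of_one_le_left (norm_nonneg _) h4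
      _ ≤ Real.exp M * (Real.exp k * l * (A * (‖x - y‖ * 2))) := by
          rw [mul_assoc]
          exact mul_le_mul_of_nonneg_left (h3.trans (mul_le_mul_of_nonneg_left
            (mul_le_mul_of_nonneg_left h2 hA) hkl)) (Real.exp_pos M).le
      _ = _ := by ring
  refine iInf₂_le_of_le (fun t => z + l • G (c t))
    ⟨hL.exists_lipschitzOnWith_of_compact isCompact_Icc,
    fun t ht => mem_ball_zero_iff.2 (c5 t ht), by simp [hc], by simp [hc]⟩ ?_
  refine (setLIntegral_mono' measurableSet_Icc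
    (g := fun _ => ENNReal.ofReal (Real.exp k * l * (A * ‖a - b‖)))
    fun t ht => ENNReal.ofReal_le_ofReal ?_).trans (by simp)
  rw [← le_div_iff₀' (Real.exp_pos _)]
  refine norm_deriv_le_of_lip' (by positivity) ?_
  filter_upwards [c4.continuousAt.eventually (isOpen_ball.mem_nhds (c2 t ht)),
    c4.continuousAt.eventually (closedBall_mem_nhds (c t) hη)] with s h1 h2
  have h3 := c7 _ (c2 t ht) _ h1 (mem_closedBall_iff_norm'.1 h2)
  rw [c3, norm_sub_rev t] at h3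
  rw [div_mul_eq_mul_div, le_div_iff₀' (Real.exp_pos _), norm_sub_rev]
  linarith

theorem FlowD.up2 {w : E n → ℝ} {z : E n} {l c A η R : ℝ} {Φ G : E n → E n}
    (h : FlowD (fun p => sc w z l p - c) A η Φ G) (hw : Continuous w) (hA : 0 ≤ A) (hη : 0 < η)
    (hl : 0 < l) (hz : ‖z‖ + l ≤ 4) (hm : ∀ x ∈ ball (0 : E n) (4 / 5), ‖Φ x - x‖ ≤ R)
    {u v : E n} (hu : u ∈ ball z (l / 2)) (hv : v ∈ ball z (l / 2)) :
    cdist w u v ≤ ENNReal.ofReal (Real.exp c * A * (‖u - v‖ + 2 * R * l)) := by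
  have k1 : ∀ x ∈ ball z (l / 2), ∃ x' : E n, ‖x'‖ < 1 / 2 ∧ x = z + l • x' := by
    intro x hx
    refine ⟨l⁻¹ • (x - z), ?_, ?_⟩
    · rw [norm_smul, Real.norm_eq_abs, abs_of_pos (inv_pos.2 hl), inv_mul_lt_iff₀ hl]
      have := mem_ball_iff_norm.1 hx
      linarith
    · rw [smul_smul, mul_inv_cancel₀ hl.ne', one_smul, add_sub_cancel]
  obtain ⟨u', hu1, rfl⟩ := k1 u hu
  obtain ⟨v', hv1, rfl⟩ := k1 v hv
  have k2 : ∀ x : E n, ‖x‖ < 1 / 2 → x ∈ ball (0 : E n) (4 / 5) := fun x hx =>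
    mem_ball_zero_iff.2 (by linarith)
  have k3 : ∀ x : E n, ‖x‖ < 1 / 2 → x ∈ ball (0 : E n) (3 / 5) := fun x hx =>
    mem_ball_zero_iff.2 (by linarith)
  have k4 : ∀ x : E n, ‖x‖ < 1 / 2 → Φ x ∈ ball (0 : E n) (3 / 5) := fun x hx => by
    have h1 := (h.mv x (k2 x hx)).1
    exact mem_ball_zero_iff.2 (by linarith [norm_le_insert' (Φ x) x])
  have h1 := up2_aux h hw hA hη hl hz (k4 u' hu1) (k4 v' hv1)
  rw [(h.inv u' (k3 u' hu1)).1, (h.inv v' (k3 v' hv1)).1] at h1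
  refine h1.trans (ENNReal.ofReal_le_ofReal ?_)
  have h2 : ‖Φ u' - Φ v'‖ ≤ ‖u' - v'‖ + 2 * R := by
    have e : Φ u' - Φ v' = (u' - v') + ((Φ u' - u') - (Φ v' - v')) := by abel
    rw [e]
    linarith [norm_add_le (u' - v') ((Φ u' - u') - (Φ v' - v')),
      norm_sub_le (Φ u' - u') (Φ v' - v'), hm u' (k2 u' hu1), hm v' (k2 v' hv1)]
  rw [add_sub_add_left_eq_sub, ← smul_sub, norm_smul, Real.norm_eq_abs, abs_of_pos hl]
  have h3 := mul_le_mul_of_nonneg_left (mul_le_mul_of_nonneg_left h2 hA)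
    (mul_pos (Real.exp_pos c) hl).le
  linarith

end Vale.Agent.P242
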